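import Vale.Agent.P200.Groebner

/-! P200 Eq Layer: lead monomials layer by layer and persistence in two variables. -/

open Module Finset MvPolynomial TensorProduct

namespace Vale.Agent.P200.Eq

namespace Layer

section one

variable {D : Type*} [DivisionRing D]

/-- shift in one variable -/
noncomputable abbrev sh (D : Type*) [DivisionRing D] (q : ℕ) : (ℕ →₀ D) →ₗ[D] (ℕ →₀ D) :=
  Finsupp.lmapDomain D D (· + q)

theorem sh_inj (q : ℕ) : Function.Injective (sh D q) :=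
  Finsupp.mapDomain_injective (add_left_injective q)

theorem sh_sh (p q : ℕ) (v : ℕ →₀ D) : sh D q (sh D p v) = sh D (p + q) v := by
  simp only [Finsupp.lmapDomain_apply, ← Finsupp.mapDomain_comp]
  congr 1
  funext j
  simp only [Function.comp_apply, add_assoc]

theorem sh_zero (v : ℕ →₀ D) : sh D 0 v = v := by
  simp only [Finsupp.lmapDomain_apply, add_zero]
  exact Finsupp.mapDomain_id

theorem finrank_sh (V : Submodule D (ℕ →₀ D)) (q : ℕ) :
    finrank D (V.map (sh D q)) = finrank D V :=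
  (Submodule.equivMapOfInjective _ (sh_inj q) V).finrank_eq.symm

theorem pers (s : ℕ) (V0 V1 : Submodule D (ℕ →₀ D)) [Module.Finite D V1] (h0 : V0 ≤ V1)
    (h1 : V0.map (sh D 1) ≤ V1) (hd : finrank D V1 ≤ finrank D V0 + 1) :
    ∃ W : Submodule D (ℕ →₀ D), Module.Finite D W ∧ finrank D W ≤ finrank D V1 + s ∧
      ∀ k ≤ s, ∀ v ∈ V1, sh D k v ∈ W := by
  induction s generalizing V0 V1 with
  | zero =>
    refine ⟨V1, inferInstance, le_rfl, fun k hk v hv => ?_⟩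
    rw [Nat.le_zero.1 hk, sh_zero]
    exact hv
  | succ s ih =>
    have e1 := Submodule.finrank_sup_add_finrank_inf_eq V1 (V1.map (sh D 1))
    have e2 : finrank D (V0.map (sh D 1)) ≤ finrank D ↥(V1 ⊓ V1.map (sh D 1)) := by
      have : Module.Finite D ↥(V1 ⊓ V1.map (sh D 1)) :=
        Submodule.finiteDimensional_of_le inf_le_left
      exact Submodule.finrank_mono (le_inf h1 (Submodule.map_mono h0))
    rw [finrank_sh] at e1 e2
    obtain ⟨W, hW, hr, hk⟩ := ih V1 (V1 ⊔ V1.map (sh D 1)) le_sup_left le_sup_right (by omega)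
    refine ⟨W, hW, by omega, fun k hks v hv => ?_⟩
    rcases k with _ | k
    · exact hk 0 (Nat.zero_le _) v (Submodule.mem_sup_left hv)
    · rw [add_comm, ← sh_sh]
      exact hk k (by omega) _ (Submodule.mem_sup_right ⟨v, hv, rfl⟩)

theorem fin_le (e : ℕ) : Module.Finite D (Finsupp.supported D D (Set.Iic e)) :=
  supported_finite (Set.finite_Iic e)

theorem rk_le (e : ℕ) : finrank D (Finsupp.supported D D (Set.Iic e)) = e + 1 := by
  rw [supported_finrank, ← Finset.coe_Iic, Set.ncard_coe_finset, Nat.card_Iic]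

theorem grow (e : ℕ) (V0 V1 : Submodule D (ℕ →₀ D)) [Module.Finite D V1] (h0 : V0 ≤ V1)
    (h1 : V0.map (sh D 1) ≤ V1) (hs : V0 ≤ Finsupp.supported D D (Set.Iic e))
    (hp : 0 < finrank D V0) : finrank D V0 < finrank D V1 := by
  by_contra hcon
  have he := Submodule.eq_of_le_of_finrank_le h0 (not_lt.1 hcon)
  have hk : ∀ k, ∀ v ∈ V0, sh D k v ∈ V0 := by
    intro k
    induction k with
    | zero => intro v hv; rwa [sh_zero]
    | succ k ih => intro v hv; rw [← sh_sh]; exact he ▸ h1 ⟨_, ih v hv, rfl⟩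
  have hb : V0 = ⊥ := by
    refine eq_bot_iff.2 fun v hv => ?_
    refine (Submodule.mem_bot D).2 (Finsupp.ext fun j => ?_)
    have h2 := (Finsupp.mem_supported' D _).1 (hs (hk (e + 1) v hv)) (j + (e + 1))
      (by simp only [Set.mem_Iic]; omega)
    rwa [Finsupp.lmapDomain_apply, Finsupp.mapDomain_apply (add_left_injective (e + 1))] at h2
  rw [hb, finrank_bot] at hp
  exact lt_irrefl _ hp

end one

section mono

variable {n : ℕ} {i₀ i₁ : Fin n}

/-- the part in the other variables -/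
noncomputable def rest (i₀ i₁ : Fin n) (α : Fin n →₀ ℕ) : Fin n →₀ ℕ :=
  α.filter fun i => i ≠ i₀ ∧ i ≠ i₁

/-- monomial from its three parts -/
noncomputable def mk (i₀ i₁ : Fin n) (γ : Fin n →₀ ℕ) (k j : ℕ) : Fin n →₀ ℕ :=
  γ + Finsupp.single i₀ k + Finsupp.single i₁ j

theorem rest_add (α β : Fin n →₀ ℕ) : rest i₀ i₁ (α + β) = rest i₀ i₁ α + rest i₀ i₁ β :=
  Finsupp.filter_add

theorem rest_apply (α : Fin n →₀ ℕ) (i : Fin n) :
    rest i₀ i₁ α i = if i ≠ i₀ ∧ i ≠ i₁ then α i else 0 := Finsupp.filter_apply _ _ _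

theorem rest_rest (α : Fin n →₀ ℕ) : rest i₀ i₁ (rest i₀ i₁ α) = rest i₀ i₁ α := by
  ext i
  simp only [rest_apply]
  split_ifs <;> rfl

theorem rest_zero : rest i₀ i₁ 0 = 0 := Finsupp.filter_zero _

theorem rest_i0 {γ : Fin n →₀ ℕ} (h : rest i₀ i₁ γ = γ) : γ i₀ = 0 := by
  rw [← h, rest_apply]; simp

theorem rest_i1 {γ : Fin n →₀ ℕ} (h : rest i₀ i₁ γ = γ) : γ i₁ = 0 := by
  rw [← h, rest_apply]; simp

theorem rest_s0 (k : ℕ) : rest i₀ i₁ (Finsupp.single i₀ k) = 0 := by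
  ext i
  rw [rest_apply]
  split_ifs with h
  · simp [h.1]
  · rfl

theorem rest_s1 (k : ℕ) : rest i₀ i₁ (Finsupp.single i₁ k) = 0 := by
  ext i
  rw [rest_apply]
  split_ifs with h
  · simp [h.2]
  · rfl

theorem rest_s {i : Fin n} (h0 : i ≠ i₀) (h1 : i ≠ i₁) (k : ℕ) :
    rest i₀ i₁ (Finsupp.single i k) = Finsupp.single i k := by
  ext l
  rw [rest_apply]
  split_ifs with h
  · rfl
  · have : l ≠ i := fun hl => h (hl ▸ ⟨h0, h1⟩)
    simp [this]

theorem rest_mk {γ : Fin n →₀ ℕ} (h : rest i₀ i₁ γ = γ) (k j : ℕ) :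
    rest i₀ i₁ (mk i₀ i₁ γ k j) = γ := by
  rw [mk, rest_add, rest_add, h, rest_s0, rest_s1, add_zero, add_zero]

theorem mk_i0 (hne : i₀ ≠ i₁) {γ : Fin n →₀ ℕ} (h : rest i₀ i₁ γ = γ) (k j : ℕ) :
    mk i₀ i₁ γ k j i₀ = k := by
  simp [mk, rest_i0 h, hne]

theorem mk_i1 (hne : i₀ ≠ i₁) {γ : Fin n →₀ ℕ} (h : rest i₀ i₁ γ = γ) (k j : ℕ) :
    mk i₀ i₁ γ k j i₁ = j := by
  simp [mk, rest_i1 h, hne.symm]

theorem mk_rest (hne : i₀ ≠ i₁) (α : Fin n →₀ ℕ) :
    mk i₀ i₁ (rest i₀ i₁ α) (α i₀) (α i₁) = α := by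
  ext i
  by_cases h0 : i = i₀
  · rw [h0, mk_i0 hne (rest_rest α)]
  by_cases h1 : i = i₁
  · rw [h1, mk_i1 hne (rest_rest α)]
  simp [mk, rest_apply, h0, h1]

theorem deg_mk (γ : Fin n →₀ ℕ) (k j : ℕ) :
    (mk i₀ i₁ γ k j).degree = k + j + γ.degree := by
  rw [mk, map_add, map_add, Finsupp.degree_single, Finsupp.degree_single]
  omega

theorem deg_eq (hne : i₀ ≠ i₁) (α : Fin n →₀ ℕ) :
    α.degree = α i₀ + α i₁ + (rest i₀ i₁ α).degree := by
  conv_lhs => rw [← mk_rest hne α, deg_mk]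

theorem eq_mk (hne : i₀ ≠ i₁) {α γ : Fin n →₀ ℕ} {e : ℕ} (h1 : rest i₀ i₁ α = γ)
    (h2 : α i₀ + α i₁ = e) : mk i₀ i₁ γ (e - α i₁) (α i₁) = α := by
  rw [← h1, show e - α i₁ = α i₀ by omega, mk_rest hne]

theorem count (hne : i₀ ≠ i₁) (X Y : Set (Fin n →₀ ℕ))
    (h : ∀ γ e, rest i₀ i₁ γ = γ → {j | j ≤ e ∧ mk i₀ i₁ γ (e - j) j ∈ X}.ncard =
      {j | j ≤ e ∧ mk i₀ i₁ γ (e - j) j ∈ Y}.ncard) (d : ℕ) :
    {α ∈ X | α.degree = d}.ncard = {α ∈ Y | α.degree = d}.ncard := by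
  classical
  let T := (Finsupp.finite_of_degree_eq (σ := Fin n) d).toFinset
  have hT : ∀ α, α ∈ T ↔ α.degree = d := fun α => Set.Finite.mem_toFinset _
  have key : ∀ Z : Set (Fin n →₀ ℕ), {α ∈ Z | α.degree = d}.ncard =
      ∑ γ ∈ T.image (rest i₀ i₁),
        {j | j ≤ d - γ.degree ∧ mk i₀ i₁ γ (d - γ.degree - j) j ∈ Z}.ncard := by
    intro Z
    have e1 : {α ∈ Z | α.degree = d} = ↑(T.filter (· ∈ Z)) := by
      ext α
      simp only [Set.mem_ofPred_eq, coe_filter, hT, and_comm]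
    rw [e1, Set.ncard_coe_finset, Finset.card_eq_sum_card_fiberwise (t := T.image (rest i₀ i₁))
      (f := rest i₀ i₁) fun α hα => mem_coe.2 (mem_image_of_mem _ (mem_filter.1 hα).1)]
    refine Finset.sum_congr rfl fun γ hγ => ?_
    obtain ⟨δ, hδ, hγ'⟩ := mem_image.1 hγ
    have hr : rest i₀ i₁ γ = γ := by rw [← hγ', rest_rest]
    have hle : γ.degree ≤ d := by
      have := deg_eq hne δ
      rw [hγ', (hT δ).1 hδ] at this
      omega
    rw [← Set.ncard_coe_finset]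
    refine Set.ncard_congr (fun α _ => α i₁) (fun α hα => ?_) (fun α β hα hβ hab => ?_)
      (fun j hj => ?_)
    · simp only [coe_filter, mem_filter, hT, Set.mem_ofPred_eq] at hα
      have h1 := deg_eq hne α
      rw [hα.2, hα.1.1] at h1
      refine ⟨by omega, ?_⟩
      rw [eq_mk hne hα.2 (by omega)]
      exact hα.1.2
    · simp only [coe_filter, mem_filter, hT, Set.mem_ofPred_eq] at hα hβ
      have h1 := deg_eq hne α
      have h2 := deg_eq hne β
      rw [hα.2, hα.1.1] at h1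
      rw [hβ.2, hβ.1.1] at h2
      rw [← eq_mk hne hα.2 (e := d - γ.degree) (by omega),
        ← eq_mk hne hβ.2 (e := d - γ.degree) (by omega), hab]
    · refine ⟨mk i₀ i₁ γ (d - γ.degree - j) j, ?_, mk_i1 hne hr _ _⟩
      simp only [coe_filter, mem_filter, hT, Set.mem_ofPred_eq]
      refine ⟨⟨?_, hj.2⟩, rest_mk hr _ _⟩
      have := hj.1
      rw [deg_mk]
      omega
  rw [key X, key Y]
  refine Finset.sum_congr rfl fun γ hγ => h γ _ ?_
  obtain ⟨δ, -, rfl⟩ := mem_image.1 hγ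
  exact rest_rest δ

/-- the monomial order -/
noncomputable def key (i₀ i₁ : Fin n) (α : Fin n →₀ ℕ) : ℕ ×ₗ (Lex (Fin n →₀ ℕ) ×ₗ ℕ) :=
  toLex (α i₀ + α i₁, toLex (toLex (rest i₀ i₁ α), α i₁))

theorem key_inj (hne : i₀ ≠ i₁) : Function.Injective (key i₀ i₁) := by
  intro α β h
  simp only [key, toLex_inj, Prod.mk.injEq] at h
  rw [← eq_mk hne (α := α) rfl rfl, h.1, h.2.1, h.2.2, eq_mk hne rfl rfl]

theorem key_lt (α β : Fin n →₀ ℕ) : key i₀ i₁ α < key i₀ i₁ β ↔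
    α i₀ + α i₁ < β i₀ + β i₁ ∨ α i₀ + α i₁ = β i₀ + β i₁ ∧
      (toLex (rest i₀ i₁ α) < toLex (rest i₀ i₁ β) ∨
        rest i₀ i₁ α = rest i₀ i₁ β ∧ α i₁ < β i₁) := by
  simp only [key, Prod.Lex.toLex_lt_toLex, toLex_inj]

/-- monomials in the layer `(e, γ)` or below -/
def Low (i₀ i₁ : Fin n) (γ : Fin n →₀ ℕ) (e : ℕ) : Set (Fin n →₀ ℕ) :=
  {β | β i₀ + β i₁ < e ∨ β i₀ + β i₁ = e ∧ toLex (rest i₀ i₁ β) ≤ toLex γ}

variable {D : Type*} [DivisionRing D]

open Classical in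
/-- projection to the layer `(e, γ)` -/
noncomputable def pr (D : Type*) [DivisionRing D] (i₀ i₁ : Fin n) (γ : Fin n →₀ ℕ) (e : ℕ) :
    ((Fin n →₀ ℕ) →₀ D) →ₗ[D] (ℕ →₀ D) :=
  Finsupp.linearCombination D fun β =>
    if rest i₀ i₁ β = γ ∧ β i₀ + β i₁ = e then Finsupp.single (β i₁) 1 else 0

open Classical in
theorem pr_single (γ : Fin n →₀ ℕ) (e : ℕ) (β : Fin n →₀ ℕ) (c : D) :
    pr D i₀ i₁ γ e (Finsupp.single β c) =
      if rest i₀ i₁ β = γ ∧ β i₀ + β i₁ = e then Finsupp.single (β i₁) c else 0 := by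
  rw [pr, Finsupp.linearCombination_single]
  split_ifs
  · rw [Finsupp.smul_single, smul_eq_mul, mul_one]
  · rw [smul_zero]

theorem pr_apply (hne : i₀ ≠ i₁) {γ : Fin n →₀ ℕ} (hγ : rest i₀ i₁ γ = γ) (e : ℕ)
    (w : (Fin n →₀ ℕ) →₀ D) (j : ℕ) :
    pr D i₀ i₁ γ e w j = if j ≤ e then w (mk i₀ i₁ γ (e - j) j) else 0 := by
  classical
  induction w using Finsupp.induction_linear with
  | zero => simp
  | add a b ha hb =>
    rw [map_add, Finsupp.add_apply, ha, hb, Finsupp.add_apply]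
    split_ifs <;> simp
  | single β c =>
    rw [pr_single]
    by_cases h : rest i₀ i₁ β = γ ∧ β i₀ + β i₁ = e
    · rw [if_pos h]
      by_cases hj : β i₁ = j
      · rw [← hj, if_pos (by omega), eq_mk hne h.1 h.2, Finsupp.single_eq_same,
          Finsupp.single_eq_same]
      · have : β ≠ mk i₀ i₁ γ (e - j) j := fun hb => hj (by rw [hb, mk_i1 hne hγ])
        simp [hj, this]
    · rw [if_neg h]
      split_ifs with hj
      · have : β ≠ mk i₀ i₁ γ (e - j) j := fun hb => h (by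
          rw [hb, mk_i1 hne hγ, mk_i0 hne hγ, rest_mk hγ]
          exact ⟨rfl, by omega⟩)
        simp [this]
      · rfl

theorem pr_shift (γ : Fin n →₀ ℕ) (e : ℕ) (δ : Fin n →₀ ℕ) (w : (Fin n →₀ ℕ) →₀ D) :
    pr D i₀ i₁ (γ + rest i₀ i₁ δ) (e + (δ i₀ + δ i₁)) (w.mapDomain (· + δ)) =
      sh D (δ i₁) (pr D i₀ i₁ γ e w) := by
  induction w using Finsupp.induction_linear with
  | zero => simp
  | add a b ha hb => rw [Finsupp.mapDomain_add, map_add, ha, hb, map_add, map_add]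
  | single β c =>
    rw [Finsupp.mapDomain_single, pr_single, pr_single]
    simp only [rest_add, add_left_inj, Finsupp.add_apply]
    by_cases h : rest i₀ i₁ β = γ ∧ β i₀ + β i₁ = e
    · rw [if_pos h, if_pos ⟨h.1, by omega⟩, Finsupp.lmapDomain_apply, Finsupp.mapDomain_single]
    · rw [if_neg h, if_neg fun h' => h ⟨h'.1, by omega⟩, map_zero]

variable (U : ℕ → Submodule D ((Fin n →₀ ℕ) →₀ D))

/-- the layer `(e, γ)` of `U` -/
noncomputable def N (i₀ i₁ : Fin n) (γ : Fin n →₀ ℕ) (e : ℕ) : Submodule D (ℕ →₀ D) :=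
  (U (e + γ.degree) ⊓ Finsupp.supported D D (Low i₀ i₁ γ e)).map (pr D i₀ i₁ γ e)

theorem N_le (hne : i₀ ≠ i₁) {γ : Fin n →₀ ℕ} (hγ : rest i₀ i₁ γ = γ) (e : ℕ) :
    N U i₀ i₁ γ e ≤ Finsupp.supported D D (Set.Iic e) := by
  rintro _ ⟨w, -, rfl⟩
  refine (Finsupp.mem_supported' D _).2 fun j hj => ?_
  rw [pr_apply hne hγ, if_neg (show ¬ j ≤ e from hj)]

theorem U_shift
    (hshift : ∀ d i, ∀ v ∈ U d, v.mapDomain (· + Finsupp.single i 1) ∈ U (d + 1))
    (k : ℕ) (δ : Fin n →₀ ℕ) (hδ : δ.degree = k) (d : ℕ) (v : (Fin n →₀ ℕ) →₀ D)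
    (hv : v ∈ U d) : v.mapDomain (· + δ) ∈ U (d + k) := by
  induction k generalizing δ with
  | zero =>
    rw [(Finsupp.degree_eq_zero_iff δ).1 hδ]
    simp only [add_zero]
    exact (Finsupp.mapDomain_id (v := v)).symm ▸ hv
  | succ k ih =>
    obtain ⟨β, i, hβ, rfl⟩ := Groebner.exists_pred hδ
    have := hshift _ i _ (ih β hβ)
    rw [← Finsupp.mapDomain_comp] at this
    simpa only [Function.comp_def, add_assoc] using this

theorem N_shift (hne : i₀ ≠ i₁)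
    (hshift : ∀ d i, ∀ v ∈ U d, v.mapDomain (· + Finsupp.single i 1) ∈ U (d + 1))
    (γ : Fin n →₀ ℕ) (e : ℕ) {γ' : Fin n →₀ ℕ} (hγ' : rest i₀ i₁ γ' = γ') (p q : ℕ)
    {u : ℕ →₀ D} (hu : u ∈ N U i₀ i₁ γ e) : sh D q u ∈ N U i₀ i₁ (γ + γ') (e + (p + q)) := by
  classical
  obtain ⟨w, ⟨hw1, hw2⟩, rfl⟩ := hu
  have h := pr_shift (i₀ := i₀) (i₁ := i₁) γ e (mk i₀ i₁ γ' p q) w
  rw [rest_mk hγ', mk_i0 hne hγ', mk_i1 hne hγ'] at h
  refine ⟨w.mapDomain (· + mk i₀ i₁ γ' p q), ⟨?_, ?_⟩, h⟩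
  · have := U_shift U hshift _ (mk i₀ i₁ γ' p q) rfl _ w hw1
    rw [deg_mk] at this
    rw [map_add, show e + (p + q) + (γ.degree + γ'.degree) = e + γ.degree + (p + q + γ'.degree) by
      omega]
    exact this
  · refine (Finsupp.mem_supported D _).2 fun β hβ => ?_
    obtain ⟨δ, hδ, rfl⟩ := Finset.mem_image.1 (Finsupp.mapDomain_support hβ)
    have h1 := (Finsupp.mem_supported D _).1 hw2 hδ
    simp only [Low, Set.mem_ofPred_eq, Finsupp.add_apply, rest_add, rest_mk hγ', mk_i0 hne hγ',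
      mk_i1 hne hγ', toLex_add] at h1 ⊢
    rcases h1 with h1 | h1
    · exact Or.inl (by omega)
    · exact Or.inr ⟨by omega, add_le_add_left h1.2 _⟩

/-- lead monomials -/
def L (i₀ i₁ : Fin n) : Set (Fin n →₀ ℕ) :=
  {α | ∃ u ∈ U α.degree, u α ≠ 0 ∧ ∀ β, key i₀ i₁ α < key i₀ i₁ β → u β = 0}

theorem rk_U (hne : i₀ ≠ i₁) (hsupp : ∀ d, ∀ v ∈ U d, ∀ β ∈ v.support, β.degree = d) (d : ℕ) :
    {α ∈ L U i₀ i₁ | α.degree = d}.ncard = finrank D (U d) := by
  have hT : ∀ u ∈ U d, u.support ⊆ (Finsupp.finite_of_degree_eq (σ := Fin n) d).toFinset := by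
    intro u hu β hβ
    rw [Set.Finite.mem_toFinset]
    exact hsupp d u hu β hβ
  have := @finrank_eq_ncard_lead D _ _ (LinearOrder.lift' (key i₀ i₁) (key_inj hne)) _ _ hT
  refine Eq.trans ?_ this.symm
  congr 1
  ext α
  constructor
  · rintro ⟨⟨u, hu, ha, hb⟩, rfl⟩
    exact ⟨u, hu, ha, hb⟩
  · rintro ⟨u, hu, ha, hb⟩
    have hd : α.degree = d := hsupp d u hu α (Finsupp.mem_support_iff.2 ha)
    subst hd
    exact ⟨⟨u, hu, ha, hb⟩, rfl⟩

theorem rk_N (hne : i₀ ≠ i₁) {γ : Fin n →₀ ℕ} (hγ : rest i₀ i₁ γ = γ) (e : ℕ) :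
    {j | j ≤ e ∧ mk i₀ i₁ γ (e - j) j ∈ L U i₀ i₁}.ncard = finrank D (N U i₀ i₁ γ e) := by
  rw [finrank_eq_ncard_lead (Finset.Iic e) (N U i₀ i₁ γ e) fun u hu j hj =>
    Finset.mem_Iic.2 ((Finsupp.mem_supported D _).1 (N_le U hne hγ e hu) hj)]
  congr 1
  ext j
  constructor
  · rintro ⟨hj, w, hw, ha, hb⟩
    rw [deg_mk, Nat.sub_add_cancel hj] at hw
    simp only [key_lt, mk_i0 hne hγ, mk_i1 hne hγ, rest_mk hγ, Nat.sub_add_cancel hj] at hb
    refine ⟨_, ⟨w, ⟨hw, (Finsupp.mem_supported' D _).2 fun β hβ => hb β ?_⟩, rfl⟩, ?_,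
      fun j' hj' => ?_⟩
    · simp only [Low, Set.mem_ofPred_eq, not_or, not_and, not_lt, not_le] at hβ
      rcases hβ.1.lt_or_eq with h | h
      · exact Or.inl h
      · exact Or.inr ⟨h, Or.inl (hβ.2 h.symm)⟩
    · rwa [pr_apply hne hγ, if_pos hj]
    · rw [pr_apply hne hγ]
      split_ifs with h
      · refine hb _ (Or.inr ⟨?_, Or.inr ⟨(rest_mk hγ _ _).symm, ?_⟩⟩)
        · rw [mk_i0 hne hγ, mk_i1 hne hγ]; omega
        · rwa [mk_i1 hne hγ]
      · rfl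
  · rintro ⟨_, ⟨w, ⟨hw1, hw2⟩, rfl⟩, ha, hb⟩
    rw [pr_apply hne hγ] at ha
    have hj : j ≤ e := by
      by_contra h
      exact ha (if_neg h)
    rw [if_pos hj] at ha
    refine ⟨hj, w, ?_, ha, fun β hβ => ?_⟩
    · rwa [deg_mk, Nat.sub_add_cancel hj]
    · by_contra hne'
      have h1 := (Finsupp.mem_supported D _).1 hw2 (Finsupp.mem_support_iff.2 hne')
      simp only [key_lt, mk_i0 hne hγ, mk_i1 hne hγ, rest_mk hγ, Nat.sub_add_cancel hj] at hβ
      simp only [Low, Set.mem_ofPred_eq] at h1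
      rcases hβ with h2 | ⟨h2, h3 | h3⟩
      · omega
      · rcases h1 with h1 | h1
        · omega
        · exact absurd h3 (not_lt.2 h1.2)
      · have h4 := hb _ h3.2
        rw [pr_apply hne hγ, if_pos (by omega), eq_mk hne h3.1.symm h2.symm] at h4
        exact hne' h4

theorem top_mem (hne : i₀ ≠ i₁) (hsupp : ∀ d, ∀ v ∈ U d, ∀ β ∈ v.support, β.degree = d)
    {a : ℕ} {F : (Fin n →₀ ℕ) →₀ D} (hF : F ∈ U a) : pr D i₀ i₁ 0 a F ∈ N U i₀ i₁ 0 a := by
  refine ⟨F, ⟨by simpa using hF, (Finsupp.mem_supported D _).2 fun β hβ => ?_⟩, rfl⟩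
  have h1 := hsupp a F hF β hβ
  have h2 := deg_eq hne β
  by_cases h : β i₀ + β i₁ < a
  · exact Or.inl h
  · refine Or.inr ⟨by omega, ?_⟩
    rw [(Finsupp.degree_eq_zero_iff _).1 (show (rest i₀ i₁ β).degree = 0 by omega)]

theorem pr_shift_mem (hne : i₀ ≠ i₁) {a E : ℕ} {F : (Fin n →₀ ℕ) →₀ D}
    (hF : ∀ β ∈ F.support, β.degree = a) (W : Submodule D (ℕ →₀ D))
    (hW : ∀ q, q + a ≤ E → sh D q (pr D i₀ i₁ 0 a F) ∈ W) (β : Fin n →₀ ℕ) :
    pr D i₀ i₁ 0 E (F.mapDomain (· + β)) ∈ W := by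
  classical
  by_cases h : rest i₀ i₁ β = 0 ∧ a + (β i₀ + β i₁) = E
  · have h1 := pr_shift (i₀ := i₀) (i₁ := i₁) 0 a β F
    rw [h.1, h.2, add_zero] at h1
    rw [h1]
    exact hW _ (by omega)
  · have h1 : pr D i₀ i₁ 0 E (F.mapDomain (· + β)) = 0 := by
      ext j
      rw [pr_apply hne rest_zero]
      split_ifs with hj
      · by_contra hc
        obtain ⟨μ, hμ, he⟩ := Finset.mem_image.1
          (Finsupp.mapDomain_support (Finsupp.mem_support_iff.2 hc))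
        have h2 := congrArg (rest i₀ i₁) he
        have h3 := congrArg Finsupp.degree he
        rw [rest_add, rest_mk rest_zero, add_eq_zero] at h2
        rw [map_add, deg_mk, hF μ hμ, deg_eq hne β, h2.2, map_zero] at h3
        exact h ⟨h2.2, by omega⟩
      · rfl
    rw [h1]
    exact W.zero_mem

end mono

end Layer

open Layer in
theorem exists_upper {D : Type*} [DivisionRing D] {n c : ℕ} (i₀ i₁ : Fin n) (hi₀ : (i₀ : ℕ) = 0)
    (hi₁ : (i₁ : ℕ) = 1) (a₀ a₁ a₂ : ℕ) (h0 : 0 < a₀) (h01 : a₀ ≤ a₁)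
    (U : ℕ → Submodule D ((Fin n →₀ ℕ) →₀ D))
    (hsupp : ∀ d, ∀ v ∈ U d, ∀ β ∈ v.support, β.degree = d)
    (hshift : ∀ d i, ∀ v ∈ U d, v.mapDomain (· + Finsupp.single i 1) ∈ U (d + 1))
    (F₀ F₁ : (Fin n →₀ ℕ) →₀ D) (hF₀ : F₀ ∈ U a₀) (hF₁ : F₁ ∈ U a₁) (d₀ : ℕ)
    (hfin : ∀ α : Fin n →₀ ℕ, d₀ ≤ α.degree → Finsupp.single α (1 : D) ∈
      Submodule.span D (Set.range (fun β => F₀.mapDomain (· + β)) ∪
        Set.range (fun β => F₁.mapDomain (· + β))) ⊔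
      Finsupp.supported D D {β | ∃ i : Fin n, 2 ≤ (i : ℕ) ∧ β i ≠ 0})
    (hpow : ∀ i : Fin n, 2 ≤ (i : ℕ) → (i : ℕ) < c → ∃ v ∈ U a₂,
      v (Finsupp.single i a₂) ≠ 0 ∧ ∀ β ∈ v.support, β = Finsupp.single i a₂ ∨
        ∃ j : Fin n, c ≤ (j : ℕ) ∧ β = Finsupp.single j a₂) :
    ∃ A : Set (Fin n →₀ ℕ), (∀ α ∈ A, ∀ β, α ≤ β → β ∈ A) ∧
      Finsupp.single i₀ a₀ ∈ A ∧ Finsupp.single i₁ a₁ ∈ A ∧
      (∀ i : Fin n, 2 ≤ (i : ℕ) → (i : ℕ) < c → Finsupp.single i a₂ ∈ A) ∧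
      ∀ d, {α ∈ A | α.degree = d}.ncard = finrank D (U d) := by
  have hne : i₀ ≠ i₁ := fun h => by rw [h] at hi₀; omega
  have h2 : ∀ i : Fin n, 2 ≤ (i : ℕ) → i ≠ i₀ ∧ i ≠ i₁ := fun i hi =>
    ⟨fun h => by rw [h] at hi; omega, fun h => by rw [h] at hi; omega⟩
  have full : ∀ (E : ℕ) (W : Submodule D (ℕ →₀ D)), Module.Finite D W → d₀ ≤ E →
      (∀ q, q + a₀ ≤ E → sh D q (pr D i₀ i₁ 0 a₀ F₀) ∈ W) →
      (∀ q, q + a₁ ≤ E → sh D q (pr D i₀ i₁ 0 a₁ F₁) ∈ W) → E + 1 ≤ finrank D W := by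
    intro E W hW hE hW0 hW1
    rw [← rk_le (D := D) E]
    refine Submodule.finrank_mono ?_
    rw [Finsupp.supported_eq_span_single, Submodule.span_le]
    rintro _ ⟨j, hj, rfl⟩
    have hj' : j ≤ E := hj
    have h3 := hfin (mk i₀ i₁ 0 (E - j) j) (by rw [deg_mk]; omega)
    have h4 : Submodule.span D (Set.range (fun β => F₀.mapDomain (· + β)) ∪
        Set.range (fun β => F₁.mapDomain (· + β))) ⊔
        Finsupp.supported D D {β | ∃ i : Fin n, 2 ≤ (i : ℕ) ∧ β i ≠ 0} ≤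
        W.comap (pr D i₀ i₁ 0 E) := by
      refine sup_le (Submodule.span_le.2 ?_) fun v hv => ?_
      · rintro _ (⟨β, rfl⟩ | ⟨β, rfl⟩)
        · exact pr_shift_mem hne (hsupp _ _ hF₀) W hW0 β
        · exact pr_shift_mem hne (hsupp _ _ hF₁) W hW1 β
      · have : pr D i₀ i₁ 0 E v = 0 := by
          ext l
          rw [pr_apply hne rest_zero]
          split_ifs
          · refine (Finsupp.mem_supported' D _).1 hv _ ?_
            rintro ⟨i, hi, hc⟩
            have := congrArg (· i) (rest_mk (i₀ := i₀) (i₁ := i₁) rest_zero (E - l) l)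
            simp only [rest_apply, if_pos (h2 i hi)] at this
            exact hc this
          · rfl
        rw [Submodule.mem_comap, this]
        exact W.zero_mem
    have h5 := h4 h3
    rw [Submodule.mem_comap, pr_single, rest_mk rest_zero, mk_i0 hne rest_zero,
      mk_i1 hne rest_zero, if_pos ⟨rfl, by omega⟩] at h5
    exact h5
  have hfinN : ∀ γ e, rest i₀ i₁ γ = γ → Module.Finite D (N U i₀ i₁ γ e) := fun γ e hγ =>
    have := fin_le (D := D) e
    Submodule.finiteDimensional_of_le (N_le U hne hγ e)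
  obtain ⟨H, hH⟩ : ∃ H : (Fin n →₀ ℕ) → ℕ → ℕ, ∀ γ e, H γ e = finrank D (N U i₀ i₁ γ e) :=
    ⟨_, fun _ _ => rfl⟩
  have s0 : ∀ γ e, N U i₀ i₁ γ e ≤ N U i₀ i₁ γ (e + 1) := fun γ e u hu => by
    simpa only [sh_zero, add_zero] using N_shift U hne hshift γ e rest_zero 1 0 hu
  have s1 : ∀ γ e, (N U i₀ i₁ γ e).map (sh D 1) ≤ N U i₀ i₁ γ (e + 1) := by
    rintro γ e _ ⟨u, hu, rfl⟩
    simpa only [zero_add, add_zero] using N_shift U hne hshift γ e rest_zero 0 1 hu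
  have H_le : ∀ γ e, rest i₀ i₁ γ = γ → H γ e ≤ e + 1 := fun γ e hγ => by
    have := fin_le (D := D) e
    rw [hH, ← rk_le (D := D) e]
    exact Submodule.finrank_mono (N_le U hne hγ e)
  have H_rest : ∀ γ γ' e, rest i₀ i₁ γ = γ → rest i₀ i₁ γ' = γ' → H γ e ≤ H (γ + γ') e := by
    intro γ γ' e hγ hγ'
    have := hfinN (γ + γ') e (by rw [rest_add, hγ, hγ'])
    rw [hH, hH]
    refine Submodule.finrank_mono fun u hu => ?_
    simpa only [sh_zero, add_zero] using N_shift U hne hshift γ e hγ' 0 0 hu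
  have H_mono : ∀ γ e, rest i₀ i₁ γ = γ → H γ e ≤ H γ (e + 1) := fun γ e hγ => by
    have := hfinN γ (e + 1) hγ
    rw [hH, hH]
    exact Submodule.finrank_mono (s0 γ e)
  have H_grow : ∀ γ e, rest i₀ i₁ γ = γ → H γ e = 0 ∨ H γ e < H γ (e + 1) := fun γ e hγ => by
    have := hfinN γ (e + 1) hγ
    rw [hH, hH, or_iff_not_imp_left]
    exact fun h => grow e _ _ (s0 γ e) (s1 γ e) (N_le U hne hγ e) (Nat.pos_of_ne_zero h)
  have H_pers : ∀ γ e, rest i₀ i₁ γ = γ → a₁ ≤ e + 1 →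
      H γ e + 1 < H γ (e + 1) ∨ H γ (e + 1) = e + 2 := fun γ e hγ he => by
    have := hfinN γ (e + 1) hγ
    rw [or_iff_not_imp_left, not_lt]
    intro h
    refine le_antisymm (H_le γ _ hγ) ?_
    rw [hH, hH] at h
    obtain ⟨W, hW, hr, hk⟩ := pers d₀ _ _ (s0 γ e) (s1 γ e) h
    have key : ∀ (a : ℕ) (F : (Fin n →₀ ℕ) →₀ D), F ∈ U a → a ≤ e + 1 → ∀ q,
        q + a ≤ e + 1 + d₀ → sh D q (pr D i₀ i₁ 0 a F) ∈ W := by
      intro a F hF ha q hq
      have h3 := N_shift U hne hshift 0 a hγ (e + 1 - a - min q (e + 1 - a)) (min q (e + 1 - a))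
        (top_mem U hne hsupp hF)
      rw [zero_add, show a + (e + 1 - a - min q (e + 1 - a) + min q (e + 1 - a)) = e + 1 by
        omega] at h3
      have h4 := hk (q - min q (e + 1 - a)) (by omega) _ h3
      rwa [sh_sh, show min q (e + 1 - a) + (q - min q (e + 1 - a)) = q by omega] at h4
    have := full (e + 1 + d₀) W hW (by omega) (key _ _ hF₀ (by omega)) (key _ _ hF₁ he)
    rw [hH]
    omega
  have H_a0 : 0 < H 0 a₀ := by
    by_contra hc
    have := hfinN 0 a₀ rest_zero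
    have hb : N U i₀ i₁ 0 a₀ = ⊥ := Submodule.finrank_eq_zero.1 (by rw [← hH]; omega)
    have hz : pr D i₀ i₁ 0 a₀ F₀ = 0 := by
      have := top_mem U hne hsupp hF₀
      rwa [hb] at this
    have h1 : finrank D (Submodule.span D {pr D i₀ i₁ 0 a₁ F₁}) ≤ 1 := by
      simpa using finrank_span_le_card (R := D) {pr D i₀ i₁ 0 a₁ F₁}
    obtain ⟨W, hW, hr, hk⟩ := pers d₀ ⊥ (Submodule.span D {pr D i₀ i₁ 0 a₁ F₁}) bot_le
      (by rw [Submodule.map_bot]; exact bot_le) (by omega)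
    have := full (a₁ + d₀) W hW (by omega) (fun q _ => by rw [hz, map_zero]; exact W.zero_mem)
      fun q hq => hk q (by omega) _ (Submodule.mem_span_singleton_self _)
    omega
  have H_big : ∀ γ, rest i₀ i₁ γ = γ → ∀ e, e + 1 ≤ H γ e + a₁ := fun γ hγ e => by
    induction e with
    | zero => omega
    | succ e ih =>
      by_cases he : a₁ ≤ e + 1
      · have := H_pers γ e hγ he
        omega
      · omega
  refine ⟨{α | ¬ (min (α i₀ + α i₁) (a₁ - 1) + H (rest i₀ i₁ α) (α i₀ + α i₁) <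
    α i₁ + (α i₀ + α i₁ + 1) ∧ α i₁ ≤ min (α i₀ + α i₁) (a₁ - 1))},
    Groebner.upper_of_succ _ fun α hα i => ?_, ?_, ?_, fun i hi hc => ?_, fun d => ?_⟩
  · simp only [Set.mem_ofPred_eq] at hα ⊢
    have hr := rest_rest (i₀ := i₀) (i₁ := i₁) α
    have q1 := H_mono _ (α i₀ + α i₁) hr
    have q2 := H_grow _ (α i₀ + α i₁) hr
    have q3 := H_pers _ (α i₀ + α i₁) hr
    by_cases e0 : i = i₀
    · subst e0
      rw [rest_add, rest_s0, add_zero, Finsupp.add_apply, Finsupp.add_apply,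
        Finsupp.single_eq_same, Finsupp.single_eq_of_ne hne.symm, add_zero,
        add_right_comm (α i) 1]
      omega
    by_cases e1 : i = i₁
    · subst e1
      rw [rest_add, rest_s1, add_zero, Finsupp.add_apply, Finsupp.add_apply,
        Finsupp.single_eq_same, Finsupp.single_eq_of_ne hne, add_zero, ← add_assoc (α i₀)]
      omega
    · have q4 := H_rest _ _ (α i₀ + α i₁) hr (rest_s e0 e1 1)
      rw [rest_add, rest_s e0 e1, Finsupp.add_apply, Finsupp.add_apply,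
        Finsupp.single_eq_of_ne (Ne.symm e0), Finsupp.single_eq_of_ne (Ne.symm e1), add_zero,
        add_zero]
      omega
  · simp only [Set.mem_ofPred_eq]
    rw [rest_s0, Finsupp.single_eq_same, Finsupp.single_eq_of_ne hne.symm, add_zero]
    obtain ⟨e, rfl⟩ := Nat.exists_eq_add_of_lt h0
    rw [zero_add] at *
    have q3 := H_pers 0 e rest_zero
    omega
  · simp only [Set.mem_ofPred_eq]
    rw [Finsupp.single_eq_same]
    omega
  · simp only [Set.mem_ofPred_eq]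
    have hr := rest_s (h2 i hi).1 (h2 i hi).2 a₂
    rw [hr, rest_i0 hr, rest_i1 hr]
    obtain ⟨v, hv, hv1, hv2⟩ := hpow i hi hc
    have := hfinN _ 0 hr
    have hm : pr D i₀ i₁ (Finsupp.single i a₂) 0 v ∈ N U i₀ i₁ (Finsupp.single i a₂) 0 := by
      refine ⟨v, ⟨by simpa using hv, (Finsupp.mem_supported D _).2 fun β hβ => Or.inr ?_⟩, rfl⟩
      rcases hv2 β hβ with rfl | ⟨j, hj, rfl⟩
      · rw [hr, rest_i0 hr, rest_i1 hr]
        exact ⟨rfl, le_rfl⟩
      · have hr' := rest_s (h2 j (by omega)).1 (h2 j (by omega)).2 a₂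
        rw [hr', rest_i0 hr', rest_i1 hr']
        refine ⟨rfl, ?_⟩
        rcases Nat.eq_zero_or_pos a₂ with h | h
        · simp [h]
        · have hij : i < j := by rw [Fin.lt_def]; omega
          refine le_of_lt (Finsupp.Lex.lt_iff.2 ⟨i, fun l hl => ?_, ?_⟩)
          · simp [hl.ne, (hl.trans hij).ne]
          · simpa [hij.ne] using h
    have hp : H (Finsupp.single i a₂) 0 ≠ 0 := by
      rw [hH]
      intro hz
      rw [Submodule.finrank_eq_zero.1 hz, Submodule.mem_bot] at hm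
      have h3 := pr_apply hne hr 0 v 0
      rw [hm, if_pos le_rfl] at h3
      simp only [Layer.mk, Nat.sub_self, Finsupp.single_zero, add_zero] at h3
      exact hv1 h3.symm
    simp only [add_zero]
    omega
  · rw [← rk_U U hne hsupp d]
    refine count hne _ _ (fun γ e hγ => ?_) d
    rw [rk_N U hne hγ, ← hH]
    have q1 := H_le γ e hγ
    have q2 := H_big γ hγ e
    have e1 : {j | j ≤ e ∧ mk i₀ i₁ γ (e - j) j ∈ {α : Fin n →₀ ℕ |
        ¬ (min (α i₀ + α i₁) (a₁ - 1) + H (rest i₀ i₁ α) (α i₀ + α i₁) <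
          α i₁ + (α i₀ + α i₁ + 1) ∧ α i₁ ≤ min (α i₀ + α i₁) (a₁ - 1))}} =
        ↑(range (e + 1) \ Ico (min e (a₁ - 1) + H γ e - e) (min e (a₁ - 1) + 1)) := by
      ext j
      simp only [Set.mem_ofPred_eq, mk_i0 hne hγ, mk_i1 hne hγ, rest_mk hγ, coe_sdiff, coe_range,
        coe_Ico, Set.mem_sdiff, Set.mem_Iio, Set.mem_Ico]
      by_cases hj : j ≤ e
      · rw [Nat.sub_add_cancel hj]
        omega
      · omega
    rw [e1, Set.ncard_coe_finset, card_sdiff_of_subset, card_range, Nat.card_Ico]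
    · omega
    · intro j hj
      rw [mem_Ico] at hj
      rw [mem_range]
      omega

end Vale.Agent.P200.Eq
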