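import Vale.Agent.P200.Main

/-! P200 Eq, task PrepW: a regular sequence of forms of one common degree, divisible by the given
forms and completed by powers of linear forms. -/

open Module Finset MvPolynomial

namespace Vale.Agent.P200.Eq

universe u

section

variable {k : Type u} [Field k] {n : ℕ}

open Pointwise in
theorem prep_perm {c : ℕ} {w : Fin c → MvPolynomial (Fin n) k}
    (hw : ∀ i, ∃ d, 0 < d ∧ (w i).IsHomogeneous d) (h : Reg w) (σ : Equiv.Perm (Fin c)) :
    Reg (w ∘ σ) := by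
  rw [reg_iff] at h ⊢
  refine h.prototype_perm (σ.ofFn_comp_perm w).symm fun a b rs hs => ?_
  intro K hK
  have hmem : ∀ x ∈ a :: b :: rs, ∃ d, 0 < d ∧ x.IsHomogeneous d := fun x hx => by
    obtain ⟨i, rfl⟩ := (List.mem_ofFn' _ _).1 (hs.subset hx)
    exact hw i
  obtain ⟨d, hd, ha⟩ := hmem a (by simp)
  have hJ : HClosed (Ideal.ofList rs) := hClosed_span _ fun p hp =>
    (hmem p (List.mem_cons_of_mem _ (List.mem_cons_of_mem _ hp))).imp fun _ h => h.2
  have key : ∀ N : ℕ, ∀ z ∈ K, ∃ y ∈ K, z = a ^ N • y := by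
    intro N z hz
    induction N with
    | zero => exact ⟨z, hz, by simp⟩
    | succ N ih =>
      obtain ⟨y, hy, rfl⟩ := ih
      rw [hK] at hy
      obtain ⟨y', hy', rfl⟩ := (Submodule.mem_smul_pointwise_iff_exists _ _ _).1 hy
      exact ⟨y', hy', by rw [pow_succ, mul_smul]⟩
  refine (Submodule.eq_bot_iff _).2 fun z hz => ?_
  obtain ⟨p, rfl⟩ := Submodule.Quotient.mk_surjective _ z
  rw [Submodule.Quotient.mk_eq_zero, smul_eq_mul, Ideal.mul_top, ← sum_homogeneousComponent p]
  refine Ideal.sum_mem _ fun e _ => ?_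
  obtain ⟨y, -, hy⟩ := key (e + 1) _ hz
  obtain ⟨q, rfl⟩ := Submodule.Quotient.mk_surjective _ y
  rw [← Submodule.Quotient.mk_smul, Submodule.Quotient.eq, smul_eq_mul, Ideal.mul_top] at hy
  have h1 := hJ _ hy e
  rwa [map_sub, smul_eq_mul, hc_mul_lt (ha.pow (e + 1)) q (by nlinarith), sub_zero] at h1

theorem prep_init {R : Type*} [CommRing R] {m : ℕ} {w : Fin (m + 1) → R} (h : Reg w) :
    Reg (Fin.init w) ∧ ∀ g, w (Fin.last m) * g ∈ Ideal.span (Set.range (Fin.init w)) →
      g ∈ Ideal.span (Set.range (Fin.init w)) := by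
  have e : ∀ s : Set (Fin m), Fin.init w '' s = w '' (Fin.castSucc '' s) := fun s =>
    Set.image_comp w Fin.castSucc s
  refine ⟨fun i => ?_, ?_⟩
  · rw [e, Fin.image_castSucc_Iio]
    exact h i.castSucc
  · have e2 : Fin.castSucc '' (Set.univ : Set (Fin m)) = Set.Iio (Fin.last m) := by
      rw [Set.image_univ, Fin.range_castSucc]
      rfl
    rw [← Set.image_univ, e, e2]
    exact h _

theorem prep_const {p : MvPolynomial (Fin n) k} {d : ℕ} (hd : 0 < d) (hp : p.IsHomogeneous d) :
    constantCoeff p = 0 := by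
  rw [constantCoeff_eq]
  exact hp.coeff_eq_zero (by simpa using hd.ne)

theorem prep_pow {J : Ideal (MvPolynomial (Fin n) k)} {x : MvPolynomial (Fin n) k}
    (hx : ∀ g, x * g ∈ J → g ∈ J) (e : ℕ) : ∀ g, x ^ e * g ∈ J → g ∈ J := by
  induction e with
  | zero => simp
  | succ e ih => exact fun g hg => hx g (ih _ (by rwa [pow_succ, mul_assoc] at hg))

theorem prep_step [Infinite k] {c : ℕ} (hc : c ≤ n) {w : Fin c → MvPolynomial (Fin n) k}
    (hw : ∀ i, ∃ d, 0 < d ∧ (w i).IsHomogeneous d) (h : Reg w) (i : Fin c) (e : ℕ) :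
    ∃ x : MvPolynomial (Fin n) k, x.IsHomogeneous 1 ∧
      Reg (Function.update w i (w i * x ^ e)) := by
  obtain ⟨m, rfl⟩ : ∃ m, c = m + 1 := ⟨c - 1, by have := i.pos; omega⟩
  obtain ⟨h1, h2⟩ := prep_init (prep_perm hw h (Equiv.swap i (Fin.last m)))
  obtain ⟨x, hx, hx'⟩ := h1.exists_linear hc fun j =>
    (hw _).elim fun _ hd => prep_const hd.1 hd.2
  rw [Function.comp_apply, Equiv.swap_apply_right] at h2
  have h3 := h1.snoc (x := w i * x ^ e) fun g hg =>
    prep_pow hx' e g (h2 _ (by rwa [mul_assoc] at hg))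
  have e1 : (Fin.snoc (Fin.init (w ∘ Equiv.swap i (Fin.last m))) (w i * x ^ e) :
      Fin (m + 1) → _) = Function.update w i (w i * x ^ e) ∘ Equiv.swap i (Fin.last m) := by
    funext j
    induction j using Fin.lastCases with
    | last => simp
    | cast j =>
      rw [Fin.snoc_castSucc, Function.comp_apply, Function.update_of_ne]
      · rfl
      · rw [Ne, Equiv.swap_apply_eq_iff, Equiv.swap_apply_left]
        exact (Fin.castSucc_lt_last j).ne
  rw [e1] at h3
  have h4 := prep_perm (fun j => ?_) h3 (Equiv.swap i (Fin.last m))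
  · rw [Function.comp_assoc, ← Equiv.Perm.coe_mul, Equiv.swap_mul_self, Equiv.Perm.coe_one,
      Function.comp_id] at h4
    exact ⟨x, hx, h4⟩
  · rw [Function.comp_apply, Function.update_apply]
    split_ifs
    · obtain ⟨d, hd, hd'⟩ := hw i
      exact ⟨_, by omega, hd'.mul (hx.pow e)⟩
    · exact hw _

theorem prep_all [Infinite k] {c : ℕ} (hc : c ≤ n) (a : Fin c → ℕ) (A : ℕ) (hA : 0 < A)
    (hle : ∀ i, a i ≤ A) (hpos : ∀ i, 0 < a i) (f : Fin c → MvPolynomial (Fin n) k)
    (hdeg : ∀ i, (f i).IsHomogeneous (a i)) (hreg : Reg f) (T : Finset (Fin c)) :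
    ∃ g : Fin c → MvPolynomial (Fin n) k, Reg g ∧ (∀ i, f i ∣ g i) ∧
      ∀ i, (g i).IsHomogeneous (if i ∈ T then A else a i) := by
  induction T using Finset.induction_on with
  | empty => exact ⟨f, hreg, fun _ => dvd_rfl, by simpa using hdeg⟩
  | insert i T hi ih =>
    obtain ⟨g, h1, h2, h3⟩ := ih
    obtain ⟨x, hx, h4⟩ := prep_step hc (fun j => ⟨_, by split_ifs; exacts [hA, hpos j], h3 j⟩)
      h1 i (A - a i)
    refine ⟨_, h4, fun j => ?_, fun j => ?_⟩
    · rcases eq_or_ne j i with rfl | hj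
      · rw [Function.update_self]
        exact (h2 j).mul_right _
      · rw [Function.update_of_ne hj]
        exact h2 j
    · rcases eq_or_ne j i with rfl | hj
      · have h5 := (h3 j).mul (hx.pow (A - a j))
        rw [if_neg hi, one_mul, Nat.add_sub_cancel' (hle j)] at h5
        rwa [Function.update_self, if_pos (mem_insert_self _ _)]
      · simpa only [Function.update_of_ne hj, mem_insert, hj, false_or] using h3 j

theorem prep_extend [Infinite k] {c A : ℕ} (hA : 0 < A) {f : Fin c → MvPolynomial (Fin n) k}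
    (hdeg : ∀ i, (f i).IsHomogeneous A) (h : Reg f) (c' : ℕ) (hc : c ≤ c') (hn : c' ≤ n) :
    ∃ w l : Fin c' → MvPolynomial (Fin n) k, Reg w ∧ (∀ i, (w i).IsHomogeneous A) ∧
      (∀ i, w (Fin.castLE hc i) = f i) ∧ (∀ i, (l i).IsHomogeneous 1) ∧
      ∀ i : Fin c', c ≤ i → w i = l i ^ A := by
  induction c', hc using Nat.le_induction with
  | base =>
    exact ⟨f, fun _ => 0, h, hdeg, fun _ => rfl, fun _ => isHomogeneous_zero _ _ _,
      fun i hi => absurd i.2 (not_lt.2 hi)⟩
  | succ c' hc ih =>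
    obtain ⟨w, l, h1, h2, h3, h4, h5⟩ := ih (by omega)
    obtain ⟨x, hx, hx'⟩ := h1.exists_linear (by omega : c' < n) fun i => prep_const hA (h2 i)
    refine ⟨Fin.snoc w (x ^ A), Fin.snoc l x, h1.snoc (prep_pow hx' A), ?_, ?_, ?_, ?_⟩
    · intro i
      induction i using Fin.lastCases with
      | last => simpa using hx.pow A
      | cast i => rw [Fin.snoc_castSucc]; exact h2 i
    · intro i
      rw [← h3 i, ← Fin.snoc_castSucc (α := fun _ => MvPolynomial (Fin n) k) (x ^ A) w]
      rfl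
    · intro i
      induction i using Fin.lastCases with
      | last => rw [Fin.snoc_last]; exact hx
      | cast i => rw [Fin.snoc_castSucc]; exact h4 i
    · intro i hi
      induction i using Fin.lastCases with
      | last => rw [Fin.snoc_last, Fin.snoc_last]
      | cast i => rw [Fin.snoc_castSucc, Fin.snoc_castSucc]; exact h5 i hi

theorem prep_hilbert {A : ℕ} {w : Fin n → MvPolynomial (Fin n) k}
    (hdeg : ∀ i, (w i).IsHomogeneous A) (h : Reg w) :
    ∃ d₀, ∀ d, d₀ ≤ d →
      dimIn (Ideal.span (Set.range w)) d = finrank k (homogeneousSubmodule (Fin n) k d) := by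
  set J : ℕ → Ideal (MvPolynomial (Fin n) k) := fun m => Ideal.span (w '' {j | j.val < m}) with hJ
  set s : ℕ → ℤ := fun d => (finrank k (homogeneousSubmodule (Fin n) k d) : ℤ) with hs
  set H : ℕ → PowerSeries ℤ := fun m => PowerSeries.mk fun d => s d - dimIn (J m) d with hH
  have hstep : ∀ m, m < n → H (m + 1) = (1 - PowerSeries.X ^ A) * H m := by
    intro m hm
    have hIio : Set.Iio (⟨m, hm⟩ : Fin n) = {j : Fin n | j.val < m} := by
      ext j; simp [Fin.lt_def]
    have hJs : J (m + 1) = J m ⊔ Ideal.span {w ⟨m, hm⟩} := by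
      simp only [hJ]
      rw [← Ideal.span_union, ← Set.image_singleton, ← Set.image_union]
      congr 2
      ext j
      simp only [Set.mem_ofPred_eq, Set.mem_union, Set.mem_singleton_iff, Fin.ext_iff]
      omega
    have hc : HClosed (J m) := hClosed_span _ (by rintro _ ⟨j, -, rfl⟩; exact ⟨A, hdeg j⟩)
    have hreg : ∀ g, w ⟨m, hm⟩ * g ∈ J m → g ∈ J m := by
      intro g hg
      have := h ⟨m, hm⟩ g (by rw [hIio]; exact hg)
      rwa [hIio] at this
    ext e
    rw [sub_mul, one_mul, map_sub, PowerSeries.coeff_X_pow_mul']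
    simp only [hH, PowerSeries.coeff_mk, hJs]
    split_ifs with h2
    · obtain ⟨e, rfl⟩ := Nat.exists_eq_add_of_le h2
      have := dimIn_sup_add hc (hdeg ⟨m, hm⟩) hreg e
      simp only [Nat.add_sub_cancel_left, hs]
      omega
    · rw [dimIn_sup_lt hc (hdeg ⟨m, hm⟩) (by omega)]
      simp
  have hpow : ∀ m, m ≤ n → H m = (1 - PowerSeries.X ^ A) ^ m * H 0 := by
    intro m hm
    induction m with
    | zero => simp
    | succ m ih => rw [hstep m (by omega), ih (by omega)]; ring
  have hH0 : H 0 = PowerSeries.mk s := by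
    ext e
    simp [hH, hJ, dimIn]
  have h0 : PowerSeries.mk s * (1 - PowerSeries.X) ^ n = 1 := by
    rcases n with _ | m
    · ext e
      simp only [hs, finrank_homogeneous', pow_zero, mul_one, PowerSeries.coeff_mk,
        PowerSeries.coeff_one]
      rcases e with _ | e
      · simp
      · simp
    · refine Eq.trans ?_ (PowerSeries.mk_add_choose_mul_one_sub_pow_eq_one ℤ m)
      congr 2
      ext e
      simp [hs, finrank_homogeneous, add_comm]
  obtain ⟨P, hP⟩ : ∃ P : Polynomial ℤ, H n = P := by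
    obtain ⟨Q, hQ⟩ := one_sub_dvd_one_sub_pow (Polynomial.X : Polynomial ℤ) A
    have hQ' := congrArg (fun p : Polynomial ℤ => (p : PowerSeries ℤ)) hQ
    simp only [Polynomial.coe_sub, Polynomial.coe_one, Polynomial.coe_pow, Polynomial.coe_X,
      Polynomial.coe_mul] at hQ'
    refine ⟨Q ^ n, ?_⟩
    rw [hpow n le_rfl, hH0, hQ', mul_pow, mul_right_comm, mul_comm _ (PowerSeries.mk s), h0,
      one_mul, Polynomial.coe_pow]
  refine ⟨P.natDegree + 1, fun d hd => ?_⟩
  have hc := congrArg (PowerSeries.coeff d) hP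
  have hJn : J n = Ideal.span (Set.range w) := by
    simp [hJ]
  rw [Polynomial.coeff_coe, Polynomial.coeff_eq_zero_of_natDegree_lt hd] at hc
  simp only [hH, PowerSeries.coeff_mk, hJn, hs] at hc
  omega

theorem prep_indep {c A : ℕ} (hA : 0 < A) {w : Fin c → MvPolynomial (Fin n) k}
    (hdeg : ∀ i, (w i).IsHomogeneous A) (h : Reg w) : LinearIndependent k w := by
  refine Fintype.linearIndependent_iff.2 fun g hg i => ?_
  have h1 := h.syz (fun i => C (g i)) (by simpa only [smul_eq_C_mul, mul_comm] using hg) i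
  have h2 : Ideal.span (Set.range w) ≤ RingHom.ker constantCoeff :=
    Ideal.span_le.2 (by rintro _ ⟨j, rfl⟩; exact prep_const hA (hdeg j))
  simpa using h2 h1

end

theorem exists_w {k : Type u} [Field k] [Infinite k] {n c : ℕ} (hc : c ≤ n) (a : Fin c → ℕ)
    (A : ℕ) (hA : 0 < A) (hle : ∀ i, a i ≤ A) (hpos : ∀ i, 0 < a i)
    (f : Fin c → MvPolynomial (Fin n) k) (hdeg : ∀ i, (f i).IsHomogeneous (a i))
    (hreg : Reg f) :
    ∃ w l : Fin n → MvPolynomial (Fin n) k, (∀ j, (w j).IsHomogeneous A) ∧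
      LinearIndependent k w ∧
      (∃ d₀, ∀ α : Fin n →₀ ℕ, d₀ ≤ α.degree → monomial α (1 : k) ∈ Ideal.span (Set.range w)) ∧
      (∀ i : Fin c, f i ∣ w (Fin.castLE hc i)) ∧ (∀ j, (l j).IsHomogeneous 1) ∧
      ∀ j : Fin n, c ≤ (j : ℕ) → w j = l j ^ A := by
  obtain ⟨g, h1, h2, h3⟩ := prep_all hc a A hA hle hpos f hdeg hreg univ
  obtain ⟨w, l, h4, h5, h6, h7, h8⟩ := prep_extend hA (by simpa using h3) h1 n hc le_rfl
  obtain ⟨d₀, h9⟩ := prep_hilbert h5 h4
  refine ⟨w, l, h5, prep_indep hA h5 h4, ⟨d₀, fun α hα => ?_⟩, fun i => h6 i ▸ h2 i, h7, h8⟩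
  have h10 := Submodule.eq_of_le_of_finrank_eq inf_le_right (h9 _ hα)
  have h11 : monomial α (1 : k) ∈ homogeneousSubmodule (Fin n) k α.degree :=
    isHomogeneous_monomial _ rfl
  rw [← h10] at h11
  exact h11.1

end Vale.Agent.P200.Eq
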