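import Vale.Agent.P200.Main
import Vale.Agent.P200.Eq.Layer
import Vale.Agent.P200.Eq.PrepW

/-! From the tower of division rings to a monomial ideal with the same Hilbert function. -/

open Module Finset MvPolynomial TensorProduct

namespace Vale.Agent.P200.Eq

universe u

namespace Final

variable {K k D : Type*} [Field K] [Field k] [Algebra K k] [DivisionRing D] [Algebra K D]
  [Algebra k D] [IsScalarTower K k D] {n : ℕ}

theorem exists_ev [Infinite k] :
    ∃ ev : (Fin n → k) → D ⊗[K] MvPolynomial (Fin n) K →+* D,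
      (∀ ξ d p, ev ξ (d ⊗ₜ p) = aeval ξ p • d) ∧ ∀ y, (∀ ξ, ev ξ y = 0) → y = 0 := by
  let ev : (Fin n → k) → D ⊗[K] MvPolynomial (Fin n) K →+* D := fun ξ =>
    (Algebra.TensorProduct.lift (AlgHom.id K D) ((IsScalarTower.toAlgHom K k D).comp (aeval ξ))
      fun d p => (Algebra.commutes (aeval ξ p : k) d).symm).toRingHom
  have h1 : ∀ ξ d p, ev ξ (d ⊗ₜ p) = aeval ξ p • d := fun ξ d p => by
    rw [Algebra.smul_def, Algebra.commutes]
    rfl
  refine ⟨ev, h1, fun y hy => ?_⟩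
  let b := Algebra.TensorProduct.basis D (basisMonomials (Fin n) K)
  have h2 : y = ∑ α ∈ (b.repr y).support, b.repr y α ⊗ₜ[K] monomial α (1 : K) := by
    conv_lhs => rw [← b.linearCombination_repr y, Finsupp.linearCombination_apply, Finsupp.sum]
    refine sum_congr rfl fun α _ => ?_
    simp [b, smul_tmul']
  refine b.repr.map_eq_zero_iff.1 (Finsupp.ext fun β => ?_)
  refine (Module.forall_dual_apply_eq_zero_iff k _).1 fun φ => ?_
  have h3 : ∑ α ∈ (b.repr y).support, monomial α (φ (b.repr y α)) =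
      (0 : MvPolynomial (Fin n) k) := MvPolynomial.funext fun ξ => by
    have h4 := congrArg φ (hy ξ)
    rw [h2, map_sum, map_sum, map_zero] at h4
    rw [map_sum, map_zero, ← h4]
    refine sum_congr rfl fun α _ => ?_
    rw [h1, map_smul, aeval_monomial, eval_monomial, map_one, one_mul, smul_eq_mul, mul_comm]
  by_cases hβ : β ∈ (b.repr y).support
  · classical
    have h5 := congrArg (coeff β) h3
    rwa [coeff_sum, sum_eq_single_of_mem β hβ fun α _ h => by rw [coeff_monomial, if_neg h],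
      coeff_monomial, if_pos rfl, coeff_zero] at h5
  · rw [Finsupp.notMem_support_iff.1 hβ, map_zero]

theorem mul_mem_I {I : Ideal (MvPolynomial (Fin n) K)} {a d : ℕ}
    {x y : D ⊗[K] MvPolynomial (Fin n) K}
    (hx : x ∈ (I.restrictScalars K ⊓ homogeneousSubmodule (Fin n) K a).baseChange D)
    (hy : y ∈ (homogeneousSubmodule (Fin n) K d).baseChange D) :
    x * y ∈ (I.restrictScalars K ⊓ homogeneousSubmodule (Fin n) K (a + d)).baseChange D := by
  refine Groebner.mul_mem_bc (fun p hp q hq => ?_) hx hy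
  exact ⟨I.mul_mem_right q hp.1, IsHomogeneous.mul hp.2 hq⟩

section

variable (μ : MvPolynomial (Fin n) k →ₐ[k] D ⊗[K] MvPolynomial (Fin n) K)
  (hμ : ∀ p, μ (map (algebraMap K k) p) = 1 ⊗ₜ p)

include hμ

theorem mu_monomial (α : Fin n →₀ ℕ) (c : k) :
    μ (monomial α c) = (c • (1 : D)) ⊗ₜ[K] monomial α (1 : K) := by
  rw [← smul_tmul', ← hμ, map_monomial, map_one, ← map_smul, smul_monomial, smul_eq_mul, mul_one]

theorem mu_mem {p : MvPolynomial (Fin n) k} {d : ℕ} (hp : p.IsHomogeneous d) :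
    μ p ∈ (homogeneousSubmodule (Fin n) K d).baseChange D := by
  rw [p.as_sum, map_sum]
  refine Submodule.sum_mem _ fun α hα => ?_
  rw [mu_monomial μ hμ]
  refine Submodule.tmul_mem_baseChange_of_mem _ (isHomogeneous_monomial _ ?_)
  by_contra h
  exact mem_support_iff.1 hα (hp.coeff_eq_zero h)

theorem pow_eq [Infinite k] {A : ℕ} {w : Fin n → MvPolynomial (Fin n) k} {e τ : Fin n → D}
    (h : ∀ ξ : Fin n → k, (∑ x, ξ x • e x) ^ A = ∑ l, eval ξ (w l) • τ l) :
    (∑ x, e x ⊗ₜ[K] (X x : MvPolynomial (Fin n) K)) ^ A = ∑ l, τ l • μ (w l) := by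
  obtain ⟨ev, h1, h2⟩ := exists_ev (K := K) (k := k) (D := D) (n := n)
  have h3 : ∀ ξ p, ev ξ (μ p) = eval ξ p • (1 : D) := fun ξ p => by
    induction p using MvPolynomial.induction_on' with
    | monomial α c =>
      rw [mu_monomial μ hμ, h1, aeval_monomial, eval_monomial, map_one, one_mul, smul_smul,
        mul_comm]
    | add p q hp hq => rw [map_add, map_add, hp, hq, map_add, add_smul]
  refine sub_eq_zero.1 (h2 _ fun ξ => ?_)
  rw [map_sub, map_pow, map_sum, map_sum, sub_eq_zero]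
  simp only [h1, aeval_X, Span.smul_eq, map_mul, h3, map_one, one_smul, mul_smul_comm, mul_one]
  exact h ξ

theorem mu_mem_ideal {I : Ideal (MvPolynomial (Fin n) K)} {f : MvPolynomial (Fin n) K}
    (hf : f ∈ I) {a A : ℕ} (ha : f.IsHomogeneous a) (hA : a ≤ A) {w : MvPolynomial (Fin n) k}
    (hw : w.IsHomogeneous A) (h : map (algebraMap K k) f ∣ w) :
    μ w ∈ (I.restrictScalars K ⊓ homogeneousSubmodule (Fin n) K A).baseChange D := by
  obtain ⟨d, rfl⟩ := Nat.exists_eq_add_of_le hA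
  obtain ⟨g, hg⟩ := h
  have e : w = map (algebraMap K k) f * homogeneousComponent d g := by
    rw [← hc_mul_add (ha.map _), ← hg, homogeneousComponent_of_mem hw, if_pos rfl]
  rw [e, map_mul, hμ]
  exact mul_mem_I (Submodule.tmul_mem_baseChange_of_mem _ ⟨hf, ha⟩)
    (mu_mem μ hμ (homogeneousComponent_isHomogeneous d g))

end

theorem pr_of_mem {d e : ℕ} {y : D ⊗[K] MvPolynomial (Fin n) K}
    (hy : y ∈ (homogeneousSubmodule (Fin n) K e).baseChange D) :
    (homogeneousComponent d).baseChange D y = if d = e then y else 0 := by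
  obtain ⟨x, rfl⟩ := hy
  induction x using TensorProduct.induction_on with
  | zero => simp
  | add a b ha hb =>
    rw [map_add, map_add, ha, hb]
    split_ifs <;> simp
  | tmul c p =>
    rw [LinearMap.baseChange_tmul, LinearMap.baseChange_tmul, Submodule.subtype_apply,
      homogeneousComponent_of_mem p.2]
    split_ifs <;> simp

theorem solve {M ι : Type*} [AddCommGroup M] [Module D M] [Fintype ι] [DecidableEq ι]
    (N : Submodule D M) {y : ℕ → M} {m : ι → M} {τ : ℕ → ι → D} {R : Finset ℕ} {S : Finset ι}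
    (h : ∀ i ∈ R, y i = ∑ l, τ i l • m l) (hy : ∀ i ∈ R, y i ∈ N) (hm : ∀ l, l ∉ S → m l ∈ N)
    {l : ι} (hl : l ∈ S) {b : ℕ → D}
    (hb : ∀ l' ∈ S, ∑ i ∈ R, b i * τ i l' = if l' = l then 1 else 0) : m l ∈ N := by
  have e : ∑ i ∈ R, b i • y i = m l + ∑ l' ∈ Sᶜ, (∑ i ∈ R, b i * τ i l') • m l' := by
    rw [sum_congr rfl fun i hi => by rw [h i hi, smul_sum], sum_comm, ← sum_add_sum_compl S]
    simp only [smul_smul, ← sum_smul]
    rw [sum_congr rfl fun l' hl' => by rw [hb l' hl']]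
    simp [hl]
  rw [← sub_eq_iff_eq_add.2 e]
  exact N.sub_mem (N.sum_mem fun i hi => N.smul_mem _ (hy i hi))
    (N.sum_mem fun l' hl' => N.smul_mem _ (hm l' (mem_compl.1 hl')))

section

variable (Z : Fin n → D ⊗[K] MvPolynomial (Fin n) K)
  (hZ : ∀ i, Z i ∈ (homogeneousSubmodule (Fin n) K 1).baseChange D)
  (ψ : MvPolynomial (Fin n) K →ₐ[K] D ⊗[K] MvPolynomial (Fin n) K) (hψ : ∀ i, ψ (X i) = Z i)
  (hspan : (homogeneousSubmodule (Fin n) K 1).baseChange D ≤ Submodule.span D (Set.range Z))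

include hZ hψ hspan in
theorem phi_inj : Function.Injective
    (Finsupp.linearCombination D fun β : Fin n →₀ ℕ => ψ (monomial β 1)) := by
  classical
  refine (injective_iff_map_eq_zero _).2 fun v hv => Finsupp.ext fun β => ?_
  have h1 := Groebner.finrank_U Z hZ ψ hψ hspan β.degree ⊥ bot_le
  have : Module.Finite D (Finsupp.supported D D {γ : Fin n →₀ ℕ | γ.degree = β.degree}) :=
    supported_finite (Finsupp.finite_of_degree_eq _)
  rw [finrank_bot, Submodule.finrank_eq_zero] at h1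
  have h2 : ∀ v : (Fin n →₀ ℕ) →₀ D,
      Finsupp.linearCombination D (fun β : Fin n →₀ ℕ => ψ (monomial β 1))
        (v.filter fun γ => γ.degree = β.degree) = (homogeneousComponent β.degree).baseChange D
          (Finsupp.linearCombination D (fun β : Fin n →₀ ℕ => ψ (monomial β 1)) v) := by
    intro v
    induction v using Finsupp.induction_linear with
    | zero => rw [Finsupp.filter_zero, map_zero, map_zero]
    | add a b ha hb => rw [Finsupp.filter_add, map_add, ha, hb, map_add, map_add]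
    | single γ c =>
      rw [Finsupp.linearCombination_single, map_smul,
        pr_of_mem (Groebner.psi_mem Z hZ ψ hψ _ γ rfl)]
      by_cases h : γ.degree = β.degree
      · rw [Finsupp.filter_single_of_pos (fun γ : Fin n →₀ ℕ => γ.degree = β.degree) h,
          Finsupp.linearCombination_single, if_pos h.symm]
      · rw [Finsupp.filter_single_of_neg (fun γ : Fin n →₀ ℕ => γ.degree = β.degree) h,
          if_neg (Ne.symm h), map_zero, smul_zero]
  have h3 : (v.filter fun γ => γ.degree = β.degree) = 0 := by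
    rw [← Submodule.mem_bot D, ← h1]
    refine ⟨(Finsupp.mem_supported D _).2 fun γ hγ => ?_, ?_⟩
    · rw [Finsupp.support_filter] at hγ
      exact (mem_filter.1 hγ).2
    · rw [SetLike.mem_coe, Submodule.mem_comap, h2, hv, map_zero]
      exact Submodule.zero_mem _
  rw [← Finsupp.filter_apply_pos (fun γ => γ.degree = β.degree) v rfl, h3]

include hψ hspan in
theorem ideal_le (N : Submodule D (D ⊗[K] MvPolynomial (Fin n) K))
    {s : Set (D ⊗[K] MvPolynomial (Fin n) K)} (h : ∀ g ∈ s, ∀ β, ψ (monomial β 1) * g ∈ N)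
    {y : D ⊗[K] MvPolynomial (Fin n) K} (hy : y ∈ Ideal.span s) : y ∈ N := by
  have h1 : ∀ r, r ∈ Submodule.span D (Set.range fun β : Fin n →₀ ℕ => ψ (monomial β 1)) := by
    intro r
    induction r using TensorProduct.induction_on with
    | zero => exact zero_mem _
    | add a b ha hb => exact add_mem ha hb
    | tmul d p =>
      induction p using MvPolynomial.induction_on' with
      | monomial α c =>
        exact Submodule.span_mono (Set.image_subset_range _ _)
          (Groebner.le_span Z ψ hψ hspan α.degree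
            (Submodule.tmul_mem_baseChange_of_mem _ (isHomogeneous_monomial _ rfl)))
      | add p q hp hq => rw [tmul_add]; exact add_mem hp hq
  suffices h2 : ∀ r, r * y ∈ N by simpa using h2 1
  induction hy using Submodule.span_induction with
  | zero => simp
  | add a b _ _ ha hb => exact fun r => by rw [mul_add]; exact add_mem (ha r) (hb r)
  | smul a y _ hy => exact fun r => by rw [smul_eq_mul, ← mul_assoc]; exact hy _
  | mem g hg =>
    intro r
    induction h1 r using Submodule.span_induction with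
    | zero => simp
    | add a b _ _ ha hb => rw [add_mul]; exact add_mem ha hb
    | smul d a _ ha => rw [smul_mul_assoc]; exact N.smul_mem _ ha
    | mem r hr =>
      obtain ⟨β, rfl⟩ := hr
      exact h g hg β

theorem phi_shift' (v : (Fin n →₀ ℕ) →₀ D) (γ : Fin n →₀ ℕ) :
    Finsupp.linearCombination D (fun β => ψ (monomial β 1)) (v.mapDomain (· + γ)) =
      Finsupp.linearCombination D (fun β => ψ (monomial β 1)) v * ψ (monomial γ 1) := by
  induction v using Finsupp.induction_linear with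
  | zero => simp
  | add a b ha hb => rw [Finsupp.mapDomain_add, map_add, map_add, ha, hb, add_mul]
  | single β c =>
    rw [Finsupp.mapDomain_single, Finsupp.linearCombination_single,
      Finsupp.linearCombination_single, smul_mul_assoc, ← map_mul, monomial_mul, mul_one]

include hZ hψ hspan in
/-- The combinatorial part, for commuting linear forms `Z` spanning the linear forms. -/
theorem core {c : ℕ} (i₀ i₁ : Fin n) (hi₀ : (i₀ : ℕ) = 0) (hi₁ : (i₁ : ℕ) = 1) {a₀ a₁ A : ℕ}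
    (h0 : 0 < a₀) (h01 : a₀ ≤ a₁) {I : Ideal (MvPolynomial (Fin n) K)}
    {f₀ f₁ : MvPolynomial (Fin n) K} (m₀ : f₀ ∈ I) (m₁ : f₁ ∈ I) (d₀ : f₀.IsHomogeneous a₀)
    (d₁ : f₁.IsHomogeneous a₁) (e : ℕ)
    (hfin : ∀ α : Fin n →₀ ℕ, e ≤ α.degree → (1 : D) ⊗ₜ[K] monomial α (1 : K) ∈
      Ideal.span ({(1 : D) ⊗ₜ[K] f₀, (1 : D) ⊗ₜ[K] f₁} ∪ Z '' {i | 2 ≤ (i : ℕ)}))
    (hpow : ∀ i : Fin n, 2 ≤ (i : ℕ) → (i : ℕ) < c → ∃ t : Fin n → D,
      Z i ^ A - ∑ j ∈ univ.filter (fun j : Fin n => c ≤ j), t j • Z j ^ A ∈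
        (I.restrictScalars K ⊓ homogeneousSubmodule (Fin n) K A).baseChange D) (hA : 0 < A) :
    ∃ B : Set (Fin n →₀ ℕ), Finsupp.single i₀ a₀ ∈ B ∧ Finsupp.single i₁ a₁ ∈ B ∧
      (∀ i : Fin n, 2 ≤ (i : ℕ) → (i : ℕ) < c → Finsupp.single i A ∈ B) ∧
      ∀ d, dimIn I d = dimIn (Ideal.span ((fun α => monomial α (1 : K)) '' B)) d := by
  classical
  obtain ⟨Φ, hΦ⟩ : ∃ Φ, Φ = Finsupp.linearCombination D
    fun β : Fin n →₀ ℕ => ψ (monomial β 1) := ⟨_, rfl⟩
  let U : ℕ → Submodule D ((Fin n →₀ ℕ) →₀ D) := fun d =>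
    Finsupp.supported D D {β : Fin n →₀ ℕ | β.degree = d} ⊓
      ((I.restrictScalars K ⊓ homogeneousSubmodule (Fin n) K d).baseChange D).comap Φ
  have hF : ∀ {f : MvPolynomial (Fin n) K} {a : ℕ}, f ∈ I → f.IsHomogeneous a →
      ∃ F ∈ U a, Φ F = (1 : D) ⊗ₜ[K] f := fun {f a} hf ha => by
    have h1 : (1 : D) ⊗ₜ[K] f ∈ (homogeneousSubmodule (Fin n) K a).baseChange D :=
      Submodule.tmul_mem_baseChange_of_mem _ ha
    rw [← Groebner.map_supported Z hZ ψ hψ hspan, ← hΦ] at h1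
    obtain ⟨F, h2, h3⟩ := h1
    refine ⟨F, ⟨h2, ?_⟩, h3⟩
    rw [SetLike.mem_coe, Submodule.mem_comap, h3]
    exact Submodule.tmul_mem_baseChange_of_mem _ ⟨hf, ha⟩
  obtain ⟨F₀, hF₀, e₀⟩ := hF m₀ d₀
  obtain ⟨F₁, hF₁, e₁⟩ := hF m₁ d₁
  have hs : ∀ β c, Φ (Finsupp.single β c) = c • ψ (monomial β 1) := fun β c => by
    rw [hΦ, Finsupp.linearCombination_single]
  obtain ⟨B, b1, b2, b3, b4, b5⟩ := exists_upper (c := c) i₀ i₁ hi₀ hi₁ a₀ a₁ A h0 h01 U
    (fun d v hv β hβ => (Finsupp.mem_supported D _).1 hv.1 hβ)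
    (by
      rintro d i v ⟨hv1, hv2⟩
      refine ⟨(Finsupp.mem_supported D _).2 fun γ hγ => ?_, ?_⟩
      · obtain ⟨δ, hδ, rfl⟩ := mem_image.1 (Finsupp.mapDomain_support hγ)
        change (δ + Finsupp.single i 1).degree = d + 1
        rw [map_add, Finsupp.degree_single,
          show δ.degree = d from (Finsupp.mem_supported D _).1 hv1 hδ]
      · rw [SetLike.mem_coe, Submodule.mem_comap, hΦ, Groebner.phi_shift Z ψ hψ, ← hΦ]
        exact mul_mem_I (Submodule.mem_comap.1 hv2) (hZ i))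
    F₀ F₁ hF₀ hF₁ e
    (by
      intro α hα
      generalize hN : Submodule.span D (Set.range (fun β => F₀.mapDomain (· + β)) ∪
        Set.range (fun β => F₁.mapDomain (· + β))) ⊔
        Finsupp.supported D D {β | ∃ i : Fin n, 2 ≤ (i : ℕ) ∧ β i ≠ 0} = N
      have h1 : (homogeneousSubmodule (Fin n) K α.degree).baseChange D ≤ N.map Φ := by
        refine Span.le_of_mono _ _ fun β hβ => ideal_le Z ψ hψ hspan _ ?_ (hfin β (hβ ▸ hα))
        rintro g ((rfl | rfl) | ⟨i, hi, rfl⟩) γ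
        · refine ⟨F₀.mapDomain (· + γ), hN ▸ Submodule.mem_sup_left
            (Submodule.subset_span (Or.inl ⟨γ, rfl⟩)), ?_⟩
          rw [hΦ, phi_shift', ← hΦ, e₀, Groebner.central]
        · refine ⟨F₁.mapDomain (· + γ), hN ▸ Submodule.mem_sup_left
            (Submodule.subset_span (Or.inr ⟨γ, rfl⟩)), ?_⟩
          rw [hΦ, phi_shift', ← hΦ, e₁, Groebner.central]
        · refine ⟨Finsupp.single (γ + Finsupp.single i 1) 1, hN ▸ Submodule.mem_sup_right
            (Finsupp.single_mem_supported D _ ⟨i, hi, by simp⟩), ?_⟩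
          rw [hs, one_smul, Groebner.mono_succ, map_mul, hψ]
      obtain ⟨v, hv, h2⟩ := h1 (Groebner.psi_mem Z hZ ψ hψ _ α rfl)
      rwa [← phi_inj Z hZ ψ hψ hspan (a₁ := v) (a₂ := Finsupp.single α 1)
        (by rw [← hΦ, h2, hs, one_smul])])
    (by
      intro i hi hic
      obtain ⟨t, ht⟩ := hpow i hi hic
      have h5 : ∀ β, (∀ j : Fin n, c ≤ j → Finsupp.single j A ≠ β) →
          (Finsupp.single (Finsupp.single i A) (1 : D) -
            ∑ j ∈ univ.filter (fun j : Fin n => c ≤ j), Finsupp.single (Finsupp.single j A) (t j))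
            β = Finsupp.single (Finsupp.single i A) (1 : D) β := fun β hβ => by
        rw [Finsupp.sub_apply, Finsupp.finsetSum_apply, sum_eq_zero, sub_zero]
        exact fun j hj => Finsupp.single_eq_of_ne' (hβ j (mem_filter.1 hj).2)
      refine ⟨Finsupp.single (Finsupp.single i A) (1 : D) -
        ∑ j ∈ univ.filter (fun j : Fin n => c ≤ j), Finsupp.single (Finsupp.single j A) (t j),
        ⟨Submodule.sub_mem _ ?_ (Submodule.sum_mem _ fun j _ => ?_), ?_⟩, ?_,
        fun β hβ => ?_⟩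
      · exact Finsupp.single_mem_supported D 1 (Finsupp.degree_single i A)
      · exact Finsupp.single_mem_supported D (t j) (Finsupp.degree_single j A)
      · rw [SetLike.mem_coe, Submodule.mem_comap, map_sub, map_sum]
        simpa only [hs, one_smul, ← X_pow_eq_monomial, map_pow, hψ] using ht
      · rw [h5, Finsupp.single_eq_same]
        · exact one_ne_zero
        · intro j hj h
          rw [Finsupp.single_left_injective hA.ne' h] at hj
          omega
      · by_contra h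
        push Not at h
        rw [Finsupp.mem_support_iff, h5 β fun j hj => (h.2 j hj).symm] at hβ
        exact hβ (Finsupp.single_eq_of_ne h.1))
  refine ⟨B, b2, b3, b4, fun d => ?_⟩
  rw [Groebner.dimIn_span B b1, b5, dimIn, ← Groebner.finrank_bc (D := D),
    ← Groebner.finrank_U Z hZ ψ hψ hspan d _ (Submodule.baseChange_mono D inf_le_right), ← hΦ]

end

theorem card_filter {n c : ℕ} (hc : c ≤ n) (s : ℕ) :
    (Ico s c).card = (univ.filter fun l : Fin n => s ≤ (l : ℕ) ∧ (l : ℕ) < c).card := by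
  symm
  refine card_bij (fun l _ => (l : ℕ)) (fun l hl => mem_Ico.2 (mem_filter.1 hl).2)
    (fun _ _ _ _ h => Fin.ext h) fun b hb => ?_
  exact ⟨⟨b, (mem_Ico.1 hb).2.trans_le hc⟩, mem_filter.2 ⟨mem_univ _, mem_Ico.1 hb⟩, rfl⟩

end Final

theorem egh_of_tower (K : Type u) [Field K] (n c : ℕ) (hc2 : 2 ≤ c) (hc : c ≤ n)
    (a : Fin c → ℕ) (hpos : ∀ i, 0 < a i) (hmono : Monotone a)
    (heq : ∀ i j : Fin c, 2 ≤ (i : ℕ) → 2 ≤ (j : ℕ) → a i = a j)
    (f : Fin c → MvPolynomial (Fin n) K) (hdeg : ∀ i, (f i).IsHomogeneous (a i)) (hreg : Reg f)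
    (I : Ideal (MvPolynomial (Fin n) K)) (hf : ∀ i, f i ∈ I)
    (htower : ∀ (k : Type u) [Field k] [IsAlgClosed k] (A : ℕ), 0 < A →
      ∀ w : Fin n → MvPolynomial (Fin n) k, (∀ l, (w l).IsHomogeneous A) →
      LinearIndependent k w →
      (∀ i, ∃ N, (X i : MvPolynomial (Fin n) k) ^ N ∈ Ideal.span (Set.range w)) →
      ∃ (D : Type u) (_ : DivisionRing D) (_ : Algebra k D) (e : ℕ → Fin n → D)
        (τ : ℕ → Fin n → D),
        (∀ i < c, ∀ i' < c, i ≠ i' → ∀ x y, Commute (e i x) (e i' y)) ∧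
        (∀ i < c, ∀ ξ : Fin n → k, (∑ x, ξ x • e i x) ^ A = ∑ l, eval ξ (w l) • τ i l) ∧
        ∀ (R : Finset ℕ) (S : Finset (Fin n)), (∀ i ∈ R, i < c) → R.card = S.card → ∀ l ∈ S,
          ∃ b : ℕ → D, ∀ l' ∈ S, ∑ i ∈ R, b i * τ i l' = if l' = l then 1 else 0) :
    ∃ A : Set (Fin n →₀ ℕ),
      (∀ i : Fin c, X (Fin.castLE hc i) ^ a i ∈
        Ideal.span ((fun α => monomial α (1 : K)) '' A)) ∧
      ∀ d, dimIn I d = dimIn (Ideal.span ((fun α => monomial α (1 : K)) '' A)) d := by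
  let k := AlgebraicClosure K
  let z : Fin c := ⟨c - 1, by omega⟩
  have hle : ∀ i, a i ≤ a z := fun i => hmono (Fin.le_def.2 (Nat.le_sub_one_of_lt i.2))
  obtain ⟨w, l, hw, hli, ⟨d₀, hd₀⟩, hwf, hl, hwl⟩ := exists_w hc a (a z) (hpos z) hle hpos _
    (fun i => (hdeg i).map _) (hreg.map (k := k))
  obtain ⟨D, _, _, e, τ, h1, h2, h3⟩ := htower k (a z) (hpos z) w hw hli fun i =>
    ⟨d₀, by rw [X_pow_eq_monomial]; exact hd₀ _ (Finsupp.degree_single _ _).ge⟩
  let : Algebra K D := Algebra.compHom D (algebraMap K k)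
  have : IsScalarTower K k D := IsScalarTower.of_algebraMap_eq fun _ => rfl
  obtain ⟨μ, hμ, hμc⟩ := exists_mu K k D n
  obtain ⟨Y, hY⟩ : ∃ Y : ℕ → D ⊗[K] MvPolynomial (Fin n) K,
    ∀ i, Y i = ∑ x, e i x ⊗ₜ[K] X x := ⟨_, fun _ => rfl⟩
  obtain ⟨Z, hZ1, hZ2⟩ : ∃ Z : Fin n → D ⊗[K] MvPolynomial (Fin n) K,
      (∀ i : Fin n, (i : ℕ) < c → Z i = Y i) ∧ ∀ i : Fin n, c ≤ i → Z i = μ (l i) :=
    ⟨fun i => if (i : ℕ) < c then Y i else μ (l i), fun i hi => if_pos hi,
      fun i hi => if_neg (not_lt.2 hi)⟩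
  have hZ : ∀ i, Z i ∈ (homogeneousSubmodule (Fin n) K 1).baseChange D := by
    intro i
    rcases lt_or_ge (i : ℕ) c with h | h
    · rw [hZ1 i h, hY]
      exact Submodule.sum_mem _ fun x _ =>
        Submodule.tmul_mem_baseChange_of_mem _ (isHomogeneous_X K x)
    · rw [hZ2 i h]
      exact Final.mu_mem μ hμ (hl i)
  have hcomm : ∀ i j, Commute (Z i) (Z j) := by
    intro i j
    rcases lt_or_ge (i : ℕ) c with hi | hi
    · rcases lt_or_ge (j : ℕ) c with hj | hj
      · by_cases hij : i = j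
        · rw [hij]
        rw [hZ1 i hi, hZ1 j hj, hY, hY]
        refine Commute.sum_left _ _ _ fun x _ => Commute.sum_right _ _ _ fun y _ => ?_
        rw [Commute, SemiconjBy, Algebra.TensorProduct.tmul_mul_tmul,
          Algebra.TensorProduct.tmul_mul_tmul, (h1 i hi j hj (Fin.val_ne_of_ne hij) x y).eq,
          mul_comm (X x)]
      · rw [hZ2 j hj]
        exact (hμc _ _).symm
    · rw [hZ2 i hi]
      exact hμc _ _
  have hY2 : ∀ i < c, Y i ^ a z = ∑ j, τ i j • μ (w j) := fun i hi => by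
    rw [hY]
    exact Final.pow_eq μ hμ (h2 i hi)
  have hw2 : ∀ j : Fin n, c ≤ j → μ (w j) = Z j ^ a z := fun j hj => by
    rw [hwl j hj, map_pow, hZ2 j hj]
  have key : ∀ (s : ℕ) (L : Ideal (D ⊗[K] MvPolynomial (Fin n) K)), s ≤ c →
      (∀ i : Fin n, s ≤ i → Z i ∈ L) → (∀ i : Fin n, i < s → μ (w i) ∈ L) →
      ∀ α : Fin n →₀ ℕ, d₀ ≤ α.degree → (1 : D) ⊗ₜ[K] monomial α (1 : K) ∈ L := by
    intro s L hs hL hL' α hα
    have h4 : ∀ i : Fin n, s ≤ i → Z i ^ a z ∈ L := fun i hi => by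
      rw [← Nat.sub_add_cancel (hpos z), pow_succ]
      exact L.mul_mem_left _ (hL i hi)
    have h5 : ∀ j : Fin n, ¬ (s ≤ (j : ℕ) ∧ (j : ℕ) < c) → μ (w j) ∈ L := fun j hj => by
      rcases lt_or_ge (j : ℕ) s with h | h
      · exact hL' j h
      · rw [hw2 j (by omega)]
        exact h4 j h
    have h6 : ∀ j : Fin n, μ (w j) ∈ L := fun j => by
      by_cases hj : s ≤ (j : ℕ) ∧ (j : ℕ) < c
      · have hj' : j ∈ univ.filter fun l : Fin n => s ≤ (l : ℕ) ∧ (l : ℕ) < c :=
          mem_filter.2 ⟨mem_univ j, hj⟩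
        obtain ⟨b, hb⟩ := h3 (Ico s c) _ (fun i hi => (mem_Ico.1 hi).2)
          (Final.card_filter hc s) j hj'
        refine Final.solve (L.restrictScalars D) (y := fun i => Y i ^ a z)
          (fun i hi => hY2 i (mem_Ico.1 hi).2) (fun i hi => ?_)
          (fun j hj => h5 j fun h => hj (mem_filter.2 ⟨mem_univ j, h⟩)) hj' hb
        obtain ⟨h7, h8⟩ := mem_Ico.1 hi
        have h9 := h4 ⟨i, h8.trans_le hc⟩ h7
        rwa [hZ1 _ h8] at h9
      · exact h5 j hj
    obtain ⟨g, hg⟩ := Ideal.mem_span_range_iff_exists_fun.1 (hd₀ α hα)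
    rw [← hμ, map_monomial, map_one, ← hg, map_sum]
    exact Submodule.sum_mem _ fun j _ => by rw [map_mul]; exact L.mul_mem_left _ (h6 j)
  have hspan := span_of_eventually Z hZ hcomm d₀ (key 0 _ c.zero_le
    (fun i _ => Ideal.subset_span ⟨i, rfl⟩) fun i hi => absurd hi (Nat.not_lt_zero _))
  obtain ⟨ψ, hψ⟩ := exists_aeval (K := K) Z hcomm
  let i₀ : Fin c := ⟨0, by omega⟩
  let i₁ : Fin c := ⟨1, by omega⟩
  obtain ⟨B, b0, b1, b2, b3⟩ := Final.core Z hZ ψ hψ hspan (c := c) (A := a z) (Fin.castLE hc i₀)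
    (Fin.castLE hc i₁) rfl rfl (hpos i₀) (hmono (show i₀ ≤ i₁ from Nat.zero_le 1)) (hf i₀) (hf i₁)
    (hdeg i₀) (hdeg i₁) d₀
    (key 2 _ hc2 (fun i hi => Ideal.subset_span (Or.inr ⟨i, hi, rfl⟩)) fun i hi => by
      obtain ⟨g, hg⟩ := hwf ⟨i, by omega⟩
      rw [show μ (w i) = μ g * 1 ⊗ₜ f ⟨i, by omega⟩ by rw [← hμ, ← map_mul, mul_comm, ← hg]; rfl]
      refine Ideal.mul_mem_left _ _ (Ideal.subset_span (Or.inl ?_))
      obtain ⟨i, hi'⟩ := i
      interval_cases i
      exacts [Or.inl rfl, Or.inr rfl])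
    (fun i _ hi => ⟨τ i, by
      rw [hZ1 i hi, hY2 i hi, sum_split hc, sum_congr rfl fun j hj =>
        congrArg (τ i j • ·) (hw2 j (mem_filter.1 hj).2), add_sub_cancel_right]
      exact Submodule.sum_mem _ fun j _ => Submodule.smul_mem _ _
        (Final.mu_mem_ideal μ hμ (hf j) (hdeg j) (hle j) (hw _) (hwf j))⟩) (hpos z)
  refine ⟨B, fun i => ?_, b3⟩
  rw [X_pow_eq_monomial]
  refine Ideal.subset_span ⟨_, ?_, rfl⟩
  rcases lt_or_ge (i : ℕ) 2 with h | h
  · obtain ⟨i, hi⟩ := i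
    interval_cases i
    exacts [b0, b1]
  · rw [heq i z h (h.trans (Nat.le_sub_one_of_lt i.2))]
    exact b2 _ h i.2

end Vale.Agent.P200.Eq
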