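import Vale.Agent.P200.Eq.BDefs

open Module Finset MvPolynomial Matrix

namespace Vale.Agent.P200.Eq

namespace CMem

section hom

variable {E V Γ : Type*} [DivisionRing E] [AddCommGroup Γ] {wt : V → Γ}

theorem hom_zero (δ : Γ) : HomA wt (0 : Alg E V) δ := fun _ hm => absurd rfl hm

theorem hom_add {x y : Alg E V} {δ : Γ} (hx : HomA wt x δ) (hy : HomA wt y δ) :
    HomA wt (x + y) δ := by
  intro m hm
  by_cases h : x.coeff m = 0
  · refine hy m fun h' => hm ?_
    simp [h, h']
  · exact hx m h

theorem hom_sum {κ : Type*} (s : Finset κ) {x : κ → Alg E V} {δ : Γ}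
    (hx : ∀ i ∈ s, HomA wt (x i) δ) : HomA wt (∑ i ∈ s, x i) δ :=
  Finset.sum_induction x (fun y => HomA wt y δ) (fun _ _ => hom_add) (hom_zero δ) hx

theorem hom_single {m : Mon V} {δ : Γ} (h : Finsupp.weight wt m = δ) (e : E) :
    HomA wt (AddMonoidAlgebra.single m e : Alg E V) δ := by
  classical
  intro m' hm'
  rw [AddMonoidAlgebra.coeff_single, Finsupp.single_apply] at hm'
  split_ifs at hm' with h1
  · rw [← h1, h]
  · exact absurd rfl hm'

theorem hom_mul {x y : Alg E V} {δ ε : Γ} (hx : HomA wt x δ) (hy : HomA wt y ε) :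
    HomA wt (x * y) (δ + ε) := by
  classical
  intro m hm
  obtain ⟨b, hb, c, hc, rfl⟩ := Finset.mem_add.1
    (AddMonoidAlgebra.support_coeff_mul_subset _ _ (Finsupp.mem_support_iff.2 hm))
  rw [map_add, hx b (Finsupp.mem_support_iff.1 hb), hy c (Finsupp.mem_support_iff.1 hc)]

end hom

variable {M a n : ℕ} [NeZero a] {K E : Type*} [Field K] [DivisionRing E] [Algebra K E]

theorem chi_add {ζ : K} (hζ : ζ ^ a = 1) (x y : ZMod a) :
    chi ζ (x + y) = chi ζ x * chi ζ y := by
  unfold chi
  rw [ZMod.val_add, ← pow_eq_pow_mod _ hζ, pow_add]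

omit [NeZero a] in
theorem sgB_single (s : Fin M) (m : Mon (Var M a n)) (e : E) :
    sgB E n s (AddMonoidAlgebra.single m e) = AddMonoidAlgebra.single (m.mapDomain (piB s)) e := by
  simp [sgB]

theorem yB_apply (ζ : K) (i : Fin n) (g g' : Gp M a) :
    (inc K E (Var M a n)).mapMatrix (yB M a ζ i) g g' =
      ∑ t, if g' = g + Pi.single t 1 then
        AddMonoidAlgebra.single (Finsupp.single ((t, g t, i) : Var M a n) 1)
          (algebraMap K E (chi ζ (∑ u ∈ Iio t, g u))) else 0 := by
  rw [RingHom.mapMatrix_apply, Matrix.map_apply, yB, Matrix.sum_apply, map_sum]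
  refine sum_congr rfl fun t _ => ?_
  rw [ymat, Matrix.of_apply]
  split_ifs
  · rw [C_mul_X_eq_monomial]
    exact AddMonoidAlgebra.mapRingHom_single _ _ _
  · exact map_zero _

omit [NeZero a] in
theorem wt_step (t : Fin M) (g : Gp M a) (i : Fin n) :
    wtB ((t, g t, i) : Var M a n) = dB M a 1 + wB g - wB (g + Pi.single t 1) := by
  refine Prod.ext (funext fun s => ?_) (by simp [wtB, dB, wB])
  by_cases h : s = t
  · subst h; simp [wtB, dB, wB]
  · simp [wtB, dB, wB, h]

theorem wt_mon (s : Fin M) (f : ZMod a → Fin n) :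
    Finsupp.weight wtB (mon s f) = dB M a a := by
  unfold mon
  rw [map_sum]
  simp only [Finsupp.weight_single, one_smul]
  refine Prod.ext ?_ (Prod.ext ?_ ?_)
  · rw [Prod.fst_sum]
    simp only [wtB, dB]
    have h1 : ∑ k : ZMod a, (Pi.single k 1 - Pi.single (k + 1) 1 : ZMod a → ℤ) = 0 := by
      rw [sum_sub_distrib, sub_eq_zero]
      exact (Equiv.sum_comp (Equiv.addRight (1 : ZMod a))
        (fun k => (Pi.single k 1 : ZMod a → ℤ))).symm
    funext t
    rw [Finset.sum_apply]
    by_cases h : t = s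
    · subst h
      simp only [Pi.single_eq_same, h1, Pi.zero_apply]
    · simp [h]
  · rw [Prod.snd_sum, Prod.fst_sum]
    simp [wtB, dB, ZMod.card]
  · rw [Prod.snd_sum, Prod.snd_sum]
    simp [wtB, dB]

theorem sgB_phi (s : Fin M) (R : (Fin n →₀ ℕ) → E) : sgB E n s (phi M a R) = phi M a R := by
  unfold phi
  rw [map_sum]
  refine sum_congr rfl fun t _ => ?_
  rw [map_sum]
  let c : ZMod a := if t = s then 1 else 0
  let e : (ZMod a → Fin n) ≃ (ZMod a → Fin n) := Equiv.arrowCongr (Equiv.addRight c) (Equiv.refl _)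
  have he : ∀ f k, e f (k + c) = f k := fun f k => by simp [e]
  refine Fintype.sum_equiv e _ _ fun f => ?_
  have h1 : (mon t f).mapDomain (piB s) = mon t (e f) := by
    unfold mon
    rw [Finsupp.mapDomain_finsetSum]
    refine Fintype.sum_equiv (Equiv.addRight c) _ _ fun k => ?_
    rw [Finsupp.mapDomain_single, Equiv.coe_addRight, he]
    by_cases h : t = s <;> simp [piB, c, h]
  have h2 : bet f = bet (e f) := by
    unfold bet
    refine Fintype.sum_equiv (Equiv.addRight c) _ _ fun k => ?_
    rw [Equiv.coe_addRight, he]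
  rw [sgB_single, h1, h2]

theorem scalar_mem (ζ : K) {x : Alg E (Var M a n)} {d : ℕ} (h1 : HomA wtB x (dB M a d))
    (h2 : ∀ s, sgB E n s x = x) : Matrix.scalar (Gp M a) x ∈ cB E M a n ζ d := by
  refine ⟨fun g g' => ?_, fun s g g' => ?_⟩
  · rw [Matrix.scalar_apply, Matrix.diagonal_apply]
    split_ifs with h
    · rw [h, add_sub_cancel_right]; exact h1
    · exact hom_zero _
  · rw [Matrix.scalar_apply, Matrix.diagonal_apply, Matrix.diagonal_apply]
    by_cases h : g = g'
    · subst h
      rw [if_pos rfl, if_pos rfl, h2]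
    · rw [if_neg h, if_neg (fun h' => h (add_right_cancel h')), map_zero, smul_zero, smul_zero]

omit [NeZero a] in
theorem dg_weight (m : Mon (Var M a n)) : dgB M a (Finsupp.weight wtB m) = (m.degree : ℤ) := by
  induction m using Finsupp.induction_linear with
  | zero => simp
  | add x y hx hy => rw [map_add, map_add, map_add, hx, hy, Nat.cast_add]
  | single v c => simp [Finsupp.weight_single, dgB, wtB]

end CMem

variable {M a n : ℕ} [NeZero a] {K E : Type*} [Field K] [DivisionRing E] [Algebra K E]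

theorem yB_mem {ζ : K} (hζ : ζ ^ a = 1) (i : Fin n) :
    (inc K E (Var M a n)).mapMatrix (yB M a ζ i) ∈ cB E M a n ζ 1 := by
  refine ⟨fun g g' => ?_, fun s g g' => ?_⟩
  · rw [CMem.yB_apply]
    refine CMem.hom_sum _ fun t _ => ?_
    split_ifs with h
    · refine CMem.hom_single ?_ _
      rw [Finsupp.weight_single, one_smul, h, CMem.wt_step]
    · exact CMem.hom_zero _
  · rw [CMem.yB_apply, CMem.yB_apply, map_sum, smul_sum, smul_sum]
    refine sum_congr rfl fun t _ => ?_
    by_cases h : g' = g + Pi.single t 1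
    · rw [if_pos h, if_pos (by rw [h, add_right_comm]), CMem.sgB_single, Finsupp.mapDomain_single,
        AddMonoidAlgebra.smul_single, AddMonoidAlgebra.smul_single]
      have h1 : piB s ((t, g t, i) : Var M a n) = (t, (g + Pi.single s 1 : Gp M a) t, i) := by
        by_cases hts : t = s
        · subst hts; simp [piB]
        · simp [piB, hts]
      rw [h1, Algebra.smul_def, Algebra.smul_def, ← map_mul, ← map_mul, h]
      unfold etaB
      rw [← CMem.chi_add hζ, ← CMem.chi_add hζ]
      congr 3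
      simp only [Pi.add_apply, sum_add_distrib, Finset.sum_pi_single', mem_Iio, mem_Ioi]
      ring
    · rw [if_neg h, if_neg, map_zero, smul_zero, smul_zero]
      intro h'
      rw [add_right_comm] at h'
      exact h (add_right_cancel h')

theorem scalar_phi_mem (ζ : K) (R : (Fin n →₀ ℕ) → E) :
    Matrix.scalar (Gp M a) (phi M a R) ∈ cB E M a n ζ a := by
  refine CMem.scalar_mem ζ ?_ fun s => CMem.sgB_phi s R
  unfold phi
  exact CMem.hom_sum _ fun s _ => CMem.hom_sum _ fun f _ => CMem.hom_single (CMem.wt_mon s f) _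

theorem scalar_single_mem (ζ : K) (ε : E) :
    Matrix.scalar (Gp M a) (AddMonoidAlgebra.single (0 : Mon (Var M a n)) ε) ∈
      cB E M a n ζ 0 := by
  refine CMem.scalar_mem ζ (CMem.hom_single ?_ _) fun s => ?_
  · rw [map_zero]; rfl
  · rw [CMem.sgB_single, Finsupp.mapDomain_zero]

theorem cB_mul (ζ : K) {d e : ℕ} {x y : Matrix (Gp M a) (Gp M a) (Alg E (Var M a n))}
    (hx : x ∈ cB E M a n ζ d) (hy : y ∈ cB E M a n ζ e) : x * y ∈ cB E M a n ζ (d + e) := by
  refine ⟨fun g g'' => ?_, fun s g g'' => ?_⟩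
  · rw [Matrix.mul_apply]
    refine CMem.hom_sum _ fun g' _ => ?_
    have h1 := CMem.hom_mul (hx.1 g g') (hy.1 g' g'')
    have h2 : dB M a (d + e) = dB M a d + dB M a e := by simp [dB]
    have h3 : dB M a (d + e) + wB g - wB g'' =
        dB M a d + wB g - wB g' + (dB M a e + wB g' - wB g'') := by rw [h2]; abel
    rw [h3]; exact h1
  · rw [Matrix.mul_apply, Matrix.mul_apply, map_sum, smul_sum, smul_sum]
    refine (Fintype.sum_equiv (Equiv.addRight (Pi.single s 1 : Gp M a)) _ _ fun g' => ?_).symm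
    rw [Equiv.coe_addRight, map_mul, ← smul_mul_assoc (etaB ζ s g), hx.2, smul_mul_assoc,
      ← mul_smul_comm (etaB ζ s g'), hy.2, mul_smul_comm]

theorem cB_growth (ζ : K) : ∃ N m : ℕ, ∀ d, Module.Finite E (cB E M a n ζ d) ∧
    finrank E (cB E M a n ζ d) ≤ N * (d + 1) ^ m := by
  classical
  refine ⟨Fintype.card (Gp M a × Gp M a), Fintype.card (Var M a n), fun d => ?_⟩
  let Φ : cB E M a n ζ d →ₗ[E] ((Gp M a × Gp M a) × (Var M a n → Fin (d + 1)) → E) :=
    { toFun := fun c p => (c.1 p.1.1 p.1.2).coeff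
        (Finsupp.equivFunOnFinite.symm fun v => (p.2 v : ℕ))
      map_add' := fun _ _ => rfl
      map_smul' := fun _ _ => rfl }
  have hΦ : Function.Injective Φ := by
    rw [injective_iff_map_eq_zero]
    intro c hc
    refine Subtype.ext (Matrix.ext fun g g' => AddMonoidAlgebra.ext (Finsupp.ext fun m => ?_))
    by_contra hne
    have h1 := congrArg (dgB M a) (c.2.1 g g' m hne)
    rw [CMem.dg_weight] at h1
    have h2 : m.degree = d := by
      have : (m.degree : ℤ) = d := by simpa [dgB, dB, wB] using h1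
      exact_mod_cast this
    have h3 : ∀ v, m v < d + 1 := fun v => Nat.lt_succ_of_le (h2 ▸ Finsupp.le_degree v m)
    have h4 := congrFun hc ((g, g'), fun v => ⟨m v, h3 v⟩)
    have h5 : (Finsupp.equivFunOnFinite.symm fun v => m v) = m :=
      Finsupp.equivFunOnFinite_symm_coe m
    refine hne ?_
    rw [← h5]
    exact h4
  refine ⟨Module.Finite.of_injective Φ hΦ, ?_⟩
  have h6 := LinearMap.finrank_le_finrank_of_injective hΦ
  rwa [Module.finrank_fintype_fun_eq_card, Fintype.card_prod, Fintype.card_fun,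
    Fintype.card_fin] at h6

end Vale.Agent.P200.Eq
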