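import Vale.Agent.P200.Eq.BDefs

open Module Finset MvPolynomial Matrix

namespace Vale.Agent.P200.Eq

theorem bhom_prod {A T : Type*} [CommRing A] [Fintype T] [DecidableEq T] {n : ℕ}
    (l : T → Fin n → A) :
    ∏ t, ∑ i, C (l t i) * (X i : MvPolynomial (Fin n) A) =
      ∑ f : T → Fin n, monomial (∑ t, Finsupp.single (f t) 1) (∏ t, l t (f t)) := by
  rw [Finset.prod_univ_sum, Fintype.piFinset_univ]
  refine Finset.sum_congr rfl fun f _ => ?_
  rw [monomial_sum_index, Finset.prod_mul_distrib, map_prod]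
  rfl

variable {M a n : ℕ} [NeZero a] {K : Type*} [Field K]

theorem bhom_wt (s : Fin M) (f : ZMod a → Fin n) : ∑ k, wtB ((s, k, f k) : Var M a n) = dB M a a := by
  refine Prod.ext ?_ (Prod.ext ?_ ?_)
  · rw [Prod.fst_sum]
    funext t
    rw [Finset.sum_apply]
    by_cases h : t = s
    · subst h
      simp only [wtB, Pi.single_eq_same, Finset.sum_sub_distrib]
      rw [← Equiv.sum_comp (Equiv.addRight (1 : ZMod a)) fun k => (Pi.single k 1 : ZMod a → ℤ)]
      exact sub_self _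
    · simp [wtB, dB, Pi.single_eq_of_ne h]
  · rw [Prod.snd_sum, Prod.fst_sum]
    simp [wtB, dB, ZMod.card]
  · rw [Prod.snd_sum, Prod.snd_sum]
    simp [wtB, dB]

theorem bB_hom {r : ℕ} (lam : Fin r → (Fin n →₀ ℕ) → K) (s : Fin M) (i : Fin n)
    (χw : Gam M a) :
    IsWeightedHomogeneous (Sum.elim wtB fun _ => χw) (bB lam ((s, 0, i) : Var M a n))
      (χw + dB M a a - wtB ((s, 0, i) : Var M a n)) := by
  unfold bB
  rw [bhom_prod, Finset.mul_sum, map_sum]
  refine IsWeightedHomogeneous.sum _ _ _ fun f _ => ?_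
  rw [X, monomial_mul, fn_monomial, one_mul]
  have h1 : ∑ t : {k : ZMod a // k ≠ 0}, wtB ((s, t.1, f t) : Var M a n) + χw =
      χw + dB M a a - wtB ((s, 0, i) : Var M a n) := by
    rw [← bhom_wt s fun _ => i, Fintype.sum_eq_add_sum_subtype_ne _ (0 : ZMod a)]
    have : ∀ t : {k : ZMod a // k ≠ 0}, wtB ((s, t.1, f t) : Var M a n) = wtB (s, t.1, i) :=
      fun _ => rfl
    simp only [this]
    abel
  rw [← h1]
  refine IsWeightedHomogeneous.mul (IsWeightedHomogeneous.prod _ _ _ fun t _ =>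
    isWeightedHomogeneous_X _ _ _) (IsWeightedHomogeneous.sum _ _ _ fun j _ => ?_)
  rw [mul_comm]
  exact (isWeightedHomogeneous_X K (Sum.elim wtB fun _ => χw) (Sum.inr j)).C_mul _

theorem bhom_block {r : ℕ} (lam : Fin r → (Fin n →₀ ℕ) → K) (s : Fin M) :
    ∑ i, X (Sum.inl (s, 0, i)) * bB lam ((s, 0, i) : Var M a n) =
      ∑ f : ZMod a → Fin n, (∏ k, X (Sum.inl (s, k, f k))) *
        ∑ j, (X (Sum.inr j) : MvPolynomial (Var M a n ⊕ Fin r) K) * C (lam j (bet f)) := by
  have h1 := bhom_prod (fun (k : ZMod a) (i : Fin n) =>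
    (X (Sum.inl (s, k, i)) : MvPolynomial (Var M a n ⊕ Fin r) K))
  rw [Fintype.prod_eq_mul_prod_subtype_ne _ (0 : ZMod a), Finset.sum_mul] at h1
  have h2 := congrArg (fn fun β =>
    ∑ j, (X (Sum.inr j) : MvPolynomial (Var M a n ⊕ Fin r) K) * C (lam j β)) h1
  rw [map_sum, map_sum] at h2
  simp only [fn_monomial] at h2
  refine Eq.trans (Finset.sum_congr rfl fun i _ => ?_) h2
  rw [mul_assoc, C_mul', map_smul, smul_eq_mul]
  rfl

theorem bB_sum {r : ℕ} (lam : Fin r → (Fin n →₀ ℕ) → K) :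
    ∑ y ∈ univ.filter (fun y : Var M a n => y.2.1 = 0), X (Sum.inl y) * bB lam y =
      ∑ j, X (Sum.inr j) * rename Sum.inl (phi M a (lam j) : MvPolynomial (Var M a n) K) := by
  have h1 : ∑ y ∈ univ.filter (fun y : Var M a n => y.2.1 = 0), X (Sum.inl y) * bB lam y =
      ∑ s : Fin M, ∑ i, X (Sum.inl (s, 0, i)) * bB lam ((s, 0, i) : Var M a n) := by
    rw [Finset.sum_filter, Fintype.sum_prod_type]
    refine Finset.sum_congr rfl fun s _ => ?_
    rw [Fintype.sum_prod_type, Finset.sum_eq_single (0 : ZMod a)]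
    · simp
    · intro k _ hk
      simp [hk]
    · simp
  have h2 : ∀ j, rename Sum.inl (phi M a (lam j) : MvPolynomial (Var M a n) K) =
      ∑ s : Fin M, ∑ f : ZMod a → Fin n, C (lam j (bet f)) *
        ∏ k, (X (Sum.inl (s, k, f k)) : MvPolynomial (Var M a n ⊕ Fin r) K) := by
    intro j
    unfold phi
    rw [map_sum]
    refine Finset.sum_congr rfl fun s _ => ?_
    rw [map_sum]
    refine Finset.sum_congr rfl fun f _ => ?_
    rw [single_eq_monomial, mon, monomial_sum_index, map_mul, rename_C, map_prod]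
    exact congrArg _ (Finset.prod_congr rfl fun k _ => rename_X _ _)
  simp only [h1, h2, bhom_block, Finset.mul_sum]
  rw [Finset.sum_comm (s := (univ : Finset (Fin r)))]
  refine Finset.sum_congr rfl fun s _ => ?_
  rw [Finset.sum_comm]
  refine Finset.sum_congr rfl fun j _ => Finset.sum_congr rfl fun f _ => ?_
  ring

end Vale.Agent.P200.Eq
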