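import Vale.Agent.P200.Eq.Basic

/-! Counting basis monomials: directions, cells, coprime monomials. -/

set_option linter.unusedSectionVars false

open Module Finset

namespace Vale.Agent.P200.Eq

section cells

variable {ι V Γ : Type*} [AddCommGroup Γ]

theorem cnt_union (G : Gr ι V Γ) {A B : Set (ι × Mon V)} (h : Disjoint A B) :
    G.cnt (A ∪ B) = G.cnt A + G.cnt B := by
  funext γ
  have e : {p ∈ A ∪ B | G.deg p = γ} = {p ∈ A | G.deg p = γ} ∪ {p ∈ B | G.deg p = γ} :=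
    Set.sep_union
  have hf : ∀ A : Set (ι × Mon V), {p ∈ A | G.deg p = γ}.Finite := fun A =>
    (G.fin γ).subset fun _ hp => hp.2
  simp only [Gr.cnt, Pi.add_apply]
  rw [e, Set.ncard_union_eq (h.mono (Set.sep_subset _ _) (Set.sep_subset _ _)) (hf A) (hf B),
    Nat.cast_add]

theorem cnt_shift (G : Gr ι V Γ) (A : Set (ι × Mon V)) (m : Mon V) :
    G.cnt ((fun p => (p.1, p.2 + m)) '' A) = act (q (Finsupp.weight G.wt m)) (G.cnt A) := by
  funext γ
  rw [act_q]
  have hi : Function.Injective fun p : ι × Mon V => (p.1, p.2 + m) := fun p p' h =>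
    Prod.ext (Prod.mk.inj h).1 (add_right_cancel (Prod.mk.inj h).2)
  have e : {p ∈ (fun p : ι × Mon V => (p.1, p.2 + m)) '' A | G.deg p = γ} =
      (fun p : ι × Mon V => (p.1, p.2 + m)) '' {p ∈ A | G.deg p = γ - Finsupp.weight G.wt m} := by
    ext p
    constructor
    · rintro ⟨⟨p', h1, rfl⟩, h2⟩
      refine ⟨p', ⟨h1, ?_⟩, rfl⟩
      rw [← h2]
      simp only [Gr.deg, map_add]
      abel
    · rintro ⟨p', ⟨h1, h2⟩, rfl⟩
      refine ⟨⟨p', h1, rfl⟩, ?_⟩
      rw [eq_sub_iff_add_eq] at h2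
      rw [← h2]
      simp only [Gr.deg, map_add]
      abel
  simp only [Gr.cnt]
  rw [e, Set.ncard_image_of_injective _ hi]

theorem cnt_singleton (G : Gr ι V Γ) (c : ι × Mon V) : G.cnt {c} = ⇑(q (G.deg c)).coeff := by
  classical
  funext γ
  simp only [Gr.cnt, q, AddMonoidAlgebra.coeff_single, Finsupp.single_apply]
  split_ifs with h
  · rw [show {p ∈ ({c} : Set (ι × Mon V)) | G.deg p = γ} = {c} from
      Set.sep_eq_self_iff_mem_true.2 fun p hp => by rw [show p = c from hp, h]]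
    simp
  · rw [show {p ∈ ({c} : Set (ι × Mon V)) | G.deg p = γ} = ∅ from
      Set.sep_eq_empty_iff_mem_false.2 fun p hp => by rw [show p = c from hp]; exact h]
    simp

theorem cnt_fiber (G : Gr ι V Γ) {κ : Type*} (t : ι × Mon V → κ) (B : Finset κ) :
    G.cnt {p | t p ∈ B} = ∑ c ∈ B, G.cnt {p | t p = c} := by
  classical
  induction B using Finset.induction_on with
  | empty =>
    funext γ
    simp [Gr.cnt]
  | insert c B hc ih =>
    rw [sum_insert hc, ← ih, ← cnt_union]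
    · refine congrArg G.cnt (Set.ext fun p => ?_)
      simp
    · exact Set.disjoint_left.2 fun p (h1 : t p = c) (h2 : t p ∈ B) => hc (h1 ▸ h2)

theorem cnt_split (G : Gr ι V Γ) {A B : Set (ι × Mon V)} (m : Mon V)
    (hB : ∀ p, p ∈ B ↔ p ∈ A ∧ ¬m ≤ p.2) (hA : ∀ p : ι × Mon V, p ∈ A ↔ (p.1, p.2 + m) ∈ A) :
    act (1 - q (Finsupp.weight G.wt m)) (G.cnt A) = G.cnt B := by
  have e : A = B ∪ (fun p => (p.1, p.2 + m)) '' A := by
    ext p
    constructor
    · intro hp
      by_cases h : m ≤ p.2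
      · have e := tsub_add_cancel_of_le h
        refine Or.inr ⟨(p.1, p.2 - m), (hA _).2 ?_, Prod.ext rfl e⟩
        simpa only [e] using hp
      · exact Or.inl ((hB p).2 ⟨hp, h⟩)
    · rintro (hp | ⟨p', hp, rfl⟩)
      · exact ((hB p).1 hp).1
      · exact (hA p').1 hp
  have hd : Disjoint B ((fun p => (p.1, p.2 + m)) '' A) :=
    Set.disjoint_left.2 fun p h1 ⟨p', _, h2⟩ => ((hB p).1 h1).2 (h2 ▸ le_add_self)
  have h := cnt_union G hd
  rw [← e, cnt_shift] at h
  rw [map_sub, map_one, LinearMap.sub_apply, Module.End.one_apply, sub_eq_iff_eq_add]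
  exact h

theorem cnt_dir (G : Gr ι V Γ) (A : Set (ι × Mon V)) (v : V)
    (hA : ∀ p : ι × Mon V, p ∈ A ↔ (p.1, p.2 + Finsupp.single v 1) ∈ A) :
    act (1 - q (G.wt v)) (G.cnt A) = G.cnt {p ∈ A | p.2 v = 0} := by
  have h := cnt_split G (B := {p ∈ A | p.2 v = 0}) (Finsupp.single v 1)
    (fun p => by simp [Finsupp.single_le_iff]) hA
  rwa [Finsupp.weight_single, one_smul] at h

theorem cnt_supp (G : Gr ι V Γ) (i : ι) (σ : Finset V) :
    act (∏ v ∈ σ, (1 - q (G.wt v))) (G.cnt {p | p.1 = i ∧ ∀ v, p.2 v ≠ 0 → v ∈ σ}) =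
      ⇑(q (G.w i)).coeff := by
  classical
  induction σ using Finset.induction_on with
  | empty =>
    have e : {p : ι × Mon V | p.1 = i ∧ ∀ v, p.2 v ≠ 0 → v ∈ (∅ : Finset V)} = {(i, 0)} := by
      ext p
      simp [Prod.ext_iff, Finsupp.ext_iff]
    rw [e, cnt_singleton]
    simp [Gr.deg]
  | insert u σ hu ih =>
    rw [prod_insert hu, mul_comm, act_mul, cnt_dir, ← ih]
    · refine congrArg (fun A => act _ (G.cnt A)) (Set.ext fun p => ?_)
      simp only [Set.mem_ofPred_eq, mem_insert]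
      constructor
      · rintro ⟨⟨h1, h2⟩, h3⟩
        exact ⟨h1, fun v hv => (h2 v hv).resolve_left fun e => hv (e ▸ h3)⟩
      · rintro ⟨h1, h2⟩
        exact ⟨⟨h1, fun v hv => Or.inr (h2 v hv)⟩, not_not.1 fun h => hu (h2 u h)⟩
    · intro p
      simp only [Set.mem_ofPred_eq, mem_insert]
      refine and_congr_right fun _ => forall_congr' fun v => ?_
      by_cases hv : v = u
      · simp [hv]
      · simp [hv]

variable [Fintype ι] [Fintype V]

theorem act_cnt_dir (G : Gr ι V Γ) (A : Set (ι × Mon V)) (v : V)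
    (hA : ∀ p : ι × Mon V, p ∈ A ↔ (p.1, p.2 + Finsupp.single v 1) ∈ A) :
    act (1 - q (G.wt v)) (G.cnt A) = G.cnt {p ∈ A | p.2 v = 0} := cnt_dir G A v hA

omit [Fintype ι] in
theorem cnt_cell (G : Gr ι V Γ) (c : ι × Mon V) (σ : Finset V) :
    act G.den (G.cnt ((fun p : ι × Mon V => (p.1, p.2 + c.2)) ''
      {p | p.1 = c.1 ∧ ∀ v, p.2 v ≠ 0 → v ∈ σ})) =
      ⇑(G.cellK (c, σ)).coeff := by
  classical
  rw [cnt_shift, ← act_mul, Gr.den, ← prod_sdiff (subset_univ σ), mul_right_comm, act_mul, cnt_supp,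
    act_coeff, Gr.cellK, Gr.deg, q_add]
  refine congrArg (fun k : ZG Γ => ⇑k.coeff) ?_
  rw [mul_assoc, mul_comm, mul_comm (q (G.w c.1))]

theorem exists_bound {A : Set (ι × Mon V)} (h : Upper A) : ∃ e : ℕ, ∀ p ∈ A, ∀ m : Mon V,
    (∀ v, min (p.2 v) e ≤ m v) → (p.1, m) ∈ A := by
  have hf : ∀ i, {m : Mon V | Minimal (fun m => (i, m) ∈ A) m}.Finite := fun i =>
    WellQuasiOrderedLE.finite_of_isAntichain (setOfPred_minimal_antichain _)
  have hb : (⋃ i, ⋃ v, (fun m : Mon V => m v) '' {m | Minimal (fun m => (i, m) ∈ A) m}).Finite :=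
    Set.finite_iUnion fun i => Set.finite_iUnion fun v => (hf i).image _
  obtain ⟨e, he⟩ := hb.bddAbove
  refine ⟨e, fun p hp m hm => ?_⟩
  obtain ⟨m0, h1, h2⟩ := exists_minimal_le_of_wellFoundedLT (fun m => (p.1, m) ∈ A) p.2 hp
  have h3 : m0 ≤ m := fun v => (le_min (h1 v)
    (he (Set.mem_iUnion.2 ⟨p.1, Set.mem_iUnion.2 ⟨v, m0, h2, rfl⟩⟩))).trans (hm v)
  have h4 := h _ h2.1 (m - m0)
  rwa [add_tsub_cancel_of_le h3] at h4

theorem exists_cells_set (G : Gr ι V Γ) (A0 A1 : Set (ι × Mon V)) (h0 : Upper A0)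
    (h1 : Upper A1) (h : A0 ⊆ A1) :
    ∃ 𝒞 : Finset ((ι × Mon V) × Finset V),
      act G.den (G.cnt A1 - G.cnt A0) = ⇑(∑ c ∈ 𝒞, G.cellK c).coeff ∧
      ∀ c ∈ 𝒞, c.1 ∈ A1 ∧
        ∀ m : Mon V, (∀ v, m v ≠ 0 → v ∈ c.2) → (c.1.1, c.1.2 + m) ∉ A0 := by
  classical
  obtain ⟨e0, b0⟩ := exists_bound h0
  obtain ⟨e1, b1⟩ := exists_bound h1
  set e := max e0 e1 with he
  set E : Mon V := Finsupp.equivFunOnFinite.symm fun _ => e with hE
  have c0 : ∀ p ∈ A0, ∀ m : Mon V, p.2 ⊓ E ≤ m → (p.1, m) ∈ A0 := fun p hp m hm =>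
    b0 p hp m fun v => (min_le_min_left _ (le_max_left e0 e1)).trans (hm v)
  have c1 : ∀ p ∈ A1, ∀ m : Mon V, p.2 ⊓ E ≤ m → (p.1, m) ∈ A1 := fun p hp m hm =>
    b1 p hp m fun v => (min_le_min_left _ (le_max_right e0 e1)).trans (hm v)
  have up : ∀ A : Set (ι × Mon V), Upper A → ∀ p : ι × Mon V, (p.1, p.2 ⊓ E) ∈ A → p ∈ A :=
    fun A hA p hp => by
      have := hA _ hp (p.2 - p.2 ⊓ E)
      rwa [add_tsub_cancel_of_le inf_le_left] at this
  set B : Finset (ι × Mon V) := (univ ×ˢ Iic E).filter fun c => c ∈ A1 ∧ c ∉ A0 with hB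
  set σ : ι × Mon V → Finset V := fun c => univ.filter fun v => c.2 v = e with hσ
  have hd : G.cnt A1 - G.cnt A0 = G.cnt {p | (p.1, p.2 ⊓ E) ∈ B} := by
    rw [sub_eq_iff_eq_add, ← cnt_union]
    · refine congrArg G.cnt (Set.ext fun p => ?_)
      simp only [hB, Set.mem_union, Set.mem_ofPred_eq, mem_filter, mem_product, mem_univ, mem_Iic,
        inf_le_right, true_and]
      constructor
      · intro hp
        by_cases hp0 : p ∈ A0
        · exact Or.inr hp0
        · exact Or.inl ⟨c1 p hp _ le_rfl, fun h' => hp0 (up A0 h0 p h')⟩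
      · rintro (hp | hp)
        · exact up A1 h1 p hp.1
        · exact h hp
    · exact Set.disjoint_left.2 fun p hp hp0 => (mem_filter.1 hp).2.2 (c0 p hp0 _ le_rfl)
  refine ⟨B.image fun c => (c, σ c), ?_, fun c hc => ?_⟩
  · rw [hd, cnt_fiber G (fun p => (p.1, p.2 ⊓ E)) B, map_sum,
      sum_image fun c _ c' _ h => congrArg Prod.fst h, AddMonoidAlgebra.coeff_sum, Finsupp.coe_finsetSum]
    refine sum_congr rfl fun c hc => ?_
    have hc' : ∀ v, c.2 v ≤ e := mem_Iic.1 (mem_product.1 (mem_filter.1 hc).1).2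
    rw [← cnt_cell]
    refine congrArg (fun A => act _ (G.cnt A)) (Set.ext fun p => ?_)
    constructor
    · rintro (rfl : (p.1, p.2 ⊓ E) = c)
      refine ⟨(p.1, p.2 - p.2 ⊓ E), ⟨rfl, fun v hv => mem_filter.2 ⟨mem_univ _, ?_⟩⟩,
        Prod.ext rfl (tsub_add_cancel_of_le inf_le_left)⟩
      change p.2 v - min (p.2 v) e ≠ 0 at hv
      change min (p.2 v) e = e
      omega
    · rintro ⟨p', ⟨k1, k2⟩, rfl⟩
      refine Prod.ext k1 (Finsupp.ext fun v => ?_)
      change min (p'.2 v + c.2 v) e = c.2 v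
      have := hc' v
      by_cases hv : p'.2 v = 0
      · omega
      · have : c.2 v = e := (mem_filter.1 (k2 v hv)).2
        omega
  · obtain ⟨c, hc', rfl⟩ := mem_image.1 hc
    refine ⟨(mem_filter.1 hc').2.1, fun m hm hA => (mem_filter.1 hc').2.2 (c0 _ hA c.2 fun v => ?_)⟩
    change min (c.2 v + m v) e ≤ c.2 v
    by_cases hv : m v = 0
    · omega
    · have : c.2 v = e := (mem_filter.1 (hm v hv)).2
      omega

theorem act_cnt_coprime (G : Gr ι V Γ) {p : ℕ} (m : Fin p → Mon V)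
    (hdisj : ∀ i j, i ≠ j → Disjoint (m i).support (m j).support) :
    act G.den (G.cnt {x | ∀ j, ¬ m j ≤ x.2}) =
      ⇑((∑ i, q (G.w i)) * ∏ j, (1 - q (Finsupp.weight G.wt (m j)))).coeff := by
  classical
  have key : ∀ s : Finset (Fin p), act G.den (G.cnt {x | ∀ j ∈ s, ¬ m j ≤ x.2}) =
      ⇑((∑ i, q (G.w i)) * ∏ j ∈ s, (1 - q (Finsupp.weight G.wt (m j)))).coeff := by
    intro s
    induction s using Finset.induction_on with
    | empty =>
      have e : {x : ι × Mon V | ∀ j ∈ (∅ : Finset (Fin p)), ¬ m j ≤ x.2} =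
          {x | x.1 ∈ (univ : Finset ι)} := by
        ext x
        simp
      rw [e, cnt_fiber G Prod.fst univ, map_sum, prod_empty, mul_one, AddMonoidAlgebra.coeff_sum,
        Finsupp.coe_finsetSum]
      refine sum_congr rfl fun i _ => ?_
      rw [← cnt_supp G i univ]
      refine congrArg (fun A => act _ (G.cnt A)) (Set.ext fun p => ?_)
      simp
    | insert j s hj ih =>
      rw [← cnt_split G (A := {x | ∀ j ∈ s, ¬ m j ≤ x.2}) (m j), ← act_mul, mul_comm, act_mul, ih,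
        act_coeff, prod_insert hj, mul_left_comm]
      · intro x
        simp only [Set.mem_ofPred_eq, forall_mem_insert, and_comm]
      · intro x
        refine forall₂_congr fun k hk => not_congr ⟨fun h => h.trans le_self_add, fun h v => ?_⟩
        by_cases hv : m k v = 0
        · rw [hv]
          exact Nat.zero_le _
        · have h2 : m j v = 0 := Finsupp.notMem_support_iff.1 (disjoint_left.1
            (hdisj k j fun e => hj (e ▸ hk)) (Finsupp.mem_support_iff.2 hv))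
          have h3 : m k v ≤ x.2 v + m j v := h v
          omega
  simpa only [mem_univ, forall_const] using key univ

end cells

end Vale.Agent.P200.Eq
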