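import Vale.Agent.P200.Eq.Graded

open Module Finset MvPolynomial

namespace Vale.Agent.P200.Eq

universe u v

variable {E ι ι' V Γ : Type*} [DivisionRing E] [AddCommGroup Γ]

namespace KP

theorem co_ext {v v' : ι → Alg E V} (h : ∀ p, co v p = co v' p) : v = v' := by
  funext i
  refine AddMonoidAlgebra.ext (Finsupp.ext fun m => ?_)
  exact h (i, m)

theorem co_add (v v' : ι → Alg E V) (p : ι × Mon V) : co (v + v') p = co v p + co v' p := by
  simp [co]

theorem proj_add (G : Gr ι V Γ) (γ : Γ) (v v' : ι → Alg E V) :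
    G.proj γ (v + v') = G.proj γ v + G.proj γ v' := by
  classical
  refine co_ext fun p => ?_
  rw [co_add, co_proj, co_proj, co_proj, co_add]
  split_ifs <;> simp

theorem proj_self (G : Gr ι V Γ) {γ : Γ} {v : ι → Alg E V} (hv : v ∈ G.piece E γ) :
    G.proj γ v = v := by
  classical
  refine co_ext fun p => ?_
  rw [co_proj]
  split_ifs with h
  · rfl
  · by_contra h'
    exact h (hv p fun h0 => h' h0.symm)

theorem finrank_map_add {M N : Type*} [AddCommGroup M] [Module E M] [AddCommGroup N] [Module E N]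
    (S : Submodule E M) [Module.Finite E S] (f : M →ₗ[E] N) :
    finrank E (S.map f) + finrank E ↥(S ⊓ LinearMap.ker f) = finrank E S := by
  have h := LinearMap.finrank_range_add_finrank_ker (f.domRestrict S)
  rw [LinearMap.range_domRestrict] at h
  have e : finrank E ↥(LinearMap.ker (f.domRestrict S)) = finrank E ↥(S ⊓ LinearMap.ker f) := by
    rw [LinearMap.ker_domRestrict, ← Submodule.finrank_map_subtype_eq, Submodule.map_comap_subtype]
  rw [← e]
  exact h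

theorem rank_count {M N : Type*} [AddCommGroup M] [Module E M] [AddCommGroup N] [Module E N]
    (A : Submodule E M) (B : Submodule E N) [Module.Finite E A] [Module.Finite E B]
    (f : M →ₗ[E] N) :
    finrank E ↥(A.map f ⊔ B) + finrank E ↥(A ⊓ B.comap f) = finrank E A + finrank E B := by
  have h1 := finrank_map_add A (B.mkQ ∘ₗ f)
  have h2 := finrank_map_add (A.map f ⊔ B) B.mkQ
  rw [LinearMap.ker_comp, Submodule.ker_mkQ] at h1
  rw [Submodule.ker_mkQ, inf_eq_right.2 le_sup_right, Submodule.map_sup, Submodule.mkQ_map_self,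
    sup_bot_eq, ← Submodule.map_comp] at h2
  omega

end KP

theorem hf_shift [Finite ι] [Finite ι'] {G : Gr ι V Γ} {G' : Gr ι' V Γ}
    {c : (ι → Alg E V) →ₗ[Alg E V] (ι' → Alg E V)} {δ : Γ} (hc : Hom G G' c δ)
    {U1 : Submodule (Alg E V) (ι → Alg E V)} {U0 : Submodule (Alg E V) (ι' → Alg E V)}
    (h1 : G.Graded U1) (h0 : G'.Graded U0) (γ : Γ) :
    G'.hf (U1.map c ⊔ U0) (γ + δ) - G'.hf U0 (γ + δ) =
      G.hf U1 γ - G.hf (U1 ⊓ U0.comap c) γ := by
  have := finite_piece (E := E) G γ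
  have := finite_piece (E := E) G' (γ + δ)
  set A := U1.restrictScalars E ⊓ G.piece E γ with hA
  set B := U0.restrictScalars E ⊓ G'.piece E (γ + δ) with hB
  have : Module.Finite E A := Submodule.finiteDimensional_of_le (inf_le_right : A ≤ _)
  have : Module.Finite E B := Submodule.finiteDimensional_of_le (inf_le_right : B ≤ _)
  have key := KP.rank_count A B (c.restrictScalars E)
  have e1 : (U1.map c ⊔ U0).restrictScalars E ⊓ G'.piece E (γ + δ) =
      A.map (c.restrictScalars E) ⊔ B := by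
    apply le_antisymm
    · rintro x ⟨hx, hx'⟩
      have hx2 : x ∈ U1.map c ⊔ U0 := hx
      obtain ⟨y, ⟨u, hu, rfl⟩, w, hw, rfl⟩ := Submodule.mem_sup.1 hx2
      have : c u + w = c (G.proj γ u) + G'.proj (γ + δ) w := by
        rw [← hc.proj, ← KP.proj_add, KP.proj_self G' hx']
      rw [this]
      refine Submodule.add_mem_sup ⟨G.proj γ u, ⟨h1 u hu γ, proj_mem_piece G γ u⟩, rfl⟩
        ⟨h0 w hw _, proj_mem_piece G' _ w⟩
    · refine sup_le ?_ ?_
      · rintro _ ⟨u, ⟨hu, hu'⟩, rfl⟩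
        exact ⟨Submodule.mem_sup_left (⟨u, hu, rfl⟩ : _ ∈ U1.map c), hc γ u hu'⟩
      · rintro w ⟨hw, hw'⟩
        exact ⟨Submodule.mem_sup_right (S := U1.map c) hw, hw'⟩
  have e2 : (U1 ⊓ U0.comap c).restrictScalars E ⊓ G.piece E γ =
      A ⊓ B.comap (c.restrictScalars E) := by
    apply le_antisymm
    · rintro x ⟨⟨hx, hx'⟩, hx''⟩
      exact ⟨⟨hx, hx''⟩, hx', hc γ x hx''⟩
    · rintro x ⟨⟨hx, hx''⟩, hx', -⟩
      exact ⟨⟨hx, hx'⟩, hx''⟩
  simp only [Gr.hf]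
  rw [e1, e2, ← hA, ← hB]
  omega

variable [Fintype V]

theorem Gr.IsK.unique {G : Gr ι V Γ} {U1 U0 : Submodule (Alg E V) (ι → Alg E V)} {k k' : ZG Γ}
    (h : G.IsK U1 U0 k) (h' : G.IsK U1 U0 k') : k = k' :=
  coeff_inj (h.symm.trans h')

theorem Gr.IsK.add {G : Gr ι V Γ} {U2 U1 U0 : Submodule (Alg E V) (ι → Alg E V)} {k k' : ZG Γ}
    (h : G.IsK U2 U1 k) (h' : G.IsK U1 U0 k') : G.IsK U2 U0 (k + k') := by
  unfold Gr.IsK at *
  have : G.hf U2 - G.hf U0 = (G.hf U2 - G.hf U1) + (G.hf U1 - G.hf U0) := by abel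
  rw [this, map_add, h, h']
  simp

theorem Gr.IsK.shift [Finite ι] [Finite ι'] {G : Gr ι V Γ} {G' : Gr ι' V Γ} (hwt : G'.wt = G.wt)
    {c : (ι → Alg E V) →ₗ[Alg E V] (ι' → Alg E V)} {δ : Γ} (hc : Hom G G' c δ)
    {U1 : Submodule (Alg E V) (ι → Alg E V)} {U0 : Submodule (Alg E V) (ι' → Alg E V)}
    (h1 : G.Graded U1) (h0 : G'.Graded U0) {k : ZG Γ} (hk : G.IsK U1 (U1 ⊓ U0.comap c) k) :
    G'.IsK (U1.map c ⊔ U0) U0 (q δ * k) := by
  unfold Gr.IsK at *
  have hden : G'.den = G.den := by simp only [Gr.den, hwt]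
  have e : G'.hf (U1.map c ⊔ U0) - G'.hf U0 = act (q δ) (G.hf U1 - G.hf (U1 ⊓ U0.comap c)) := by
    funext γ
    have := hf_shift hc h1 h0 (γ - δ)
    rw [sub_add_cancel] at this
    rw [act_q, Pi.sub_apply, Pi.sub_apply, this]
  rw [hden, e, ← act_mul, mul_comm, act_mul, hk, act_coeff]

namespace KP

omit [Fintype V] in
theorem act_prod_comp (θ : Γ ≃+ Γ) (wt : V → Γ) (s : Finset V) (f : Γ → ℤ) (γ : Γ) :
    act (∏ v ∈ s, (1 - q (θ (wt v)))) f (θ γ) =
      act (∏ v ∈ s, (1 - q (wt v))) (fun x => f (θ x)) γ := by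
  classical
  induction s using Finset.induction_on generalizing γ with
  | empty => simp
  | insert a s ha ih =>
    rw [Finset.prod_insert ha, Finset.prod_insert ha, act_mul, act_mul, act_one_sub_q,
      act_one_sub_q, ← map_sub, ih, ih]

omit [Fintype V] in
theorem hf_inv {G : Gr ι V Γ} (θ : Γ ≃+ Γ) (S : (ι → Alg E V) ≃ₗ[E] (ι → Alg E V))
    (hS : ∀ γ v, v ∈ G.piece E γ ↔ S v ∈ G.piece E (θ γ))
    {U : Submodule (Alg E V) (ι → Alg E V)} (h : ∀ v, v ∈ U ↔ S v ∈ U) (γ : Γ) :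
    G.hf U (θ γ) = G.hf U γ := by
  simp only [Gr.hf]
  have : U.restrictScalars E ⊓ G.piece E (θ γ) =
      (U.restrictScalars E ⊓ G.piece E γ).map (S : (ι → Alg E V) →ₗ[E] (ι → Alg E V)) := by
    apply le_antisymm
    · rintro x ⟨hx, hx'⟩
      obtain ⟨y, rfl⟩ := S.surjective x
      exact ⟨y, ⟨(h y).2 hx, (hS γ y).2 hx'⟩, rfl⟩
    · rintro _ ⟨y, ⟨hy, hy'⟩, rfl⟩
      exact ⟨(h y).1 hy, (hS γ y).1 hy'⟩
  rw [this, LinearEquiv.finrank_map_eq]

end KP

theorem Gr.IsK.invariant {G : Gr ι V Γ} (θ : Γ ≃+ Γ) (π : Equiv.Perm V)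
    (hθ : ∀ v, θ (G.wt v) = G.wt (π v)) (S : (ι → Alg E V) ≃ₗ[E] (ι → Alg E V))
    (hS : ∀ γ v, v ∈ G.piece E γ ↔ S v ∈ G.piece E (θ γ))
    {U1 U0 : Submodule (Alg E V) (ι → Alg E V)} (h1 : ∀ v, v ∈ U1 ↔ S v ∈ U1)
    (h0 : ∀ v, v ∈ U0 ↔ S v ∈ U0) {k : ZG Γ} (hk : G.IsK U1 U0 k) (γ : Γ) :
    k.coeff (θ γ) = k.coeff γ := by
  unfold Gr.IsK at hk
  have hden : G.den = ∏ v, (1 - q (θ (G.wt v))) := by
    simp only [hθ, Gr.den]
    exact (Equiv.prod_comp π fun v => 1 - q (G.wt v)).symm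
  have e : (fun x => (G.hf U1 - G.hf U0) (θ x)) = G.hf U1 - G.hf U0 := by
    funext x
    rw [Pi.sub_apply, Pi.sub_apply, KP.hf_inv θ S hS h1, KP.hf_inv θ S hS h0]
  rw [← hk]
  conv_lhs => rw [hden]
  rw [KP.act_prod_comp, e]
  rfl

end Vale.Agent.P200.Eq
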