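import Vale.Agent.P200.Eq.SDefs

open Finset

namespace Vale.Agent.P200.Eq

section series

variable {Γ : Type*} [AddCommGroup Γ]

theorem ord_iff_dvd (F : PowerSeries ℤ) (j : ℕ) : Ord F j ↔ PowerSeries.X ^ j ∣ F :=
  PowerSeries.X_pow_dvd_iff.symm

theorem Ord.mul_left {F : PowerSeries ℤ} {j : ℕ} (h : Ord F j) (G : PowerSeries ℤ) :
    Ord (G * F) j :=
  (ord_iff_dvd _ _).2 (((ord_iff_dvd _ _).1 h).mul_left G)

theorem Ord.mul {F G : PowerSeries ℤ} {i j : ℕ} (hG : Ord G i) (h : Ord F j) :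
    Ord (G * F) (i + j) := by
  rw [ord_iff_dvd] at *
  rw [pow_add]
  exact mul_dvd_mul hG h

theorem Ord.coeff_mul {F G : PowerSeries ℤ} {i j : ℕ} (hG : Ord G i) (h : Ord F j) :
    PowerSeries.coeff (i + j) (G * F) = PowerSeries.coeff i G * PowerSeries.coeff j F := by
  obtain ⟨G', rfl⟩ := (ord_iff_dvd _ _).1 hG
  obtain ⟨F', rfl⟩ := (ord_iff_dvd _ _).1 h
  have e : ∀ (k : ℕ) (H : PowerSeries ℤ), PowerSeries.coeff k (PowerSeries.X ^ k * H) =
      PowerSeries.constantCoeff H := fun k H => by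
    have := PowerSeries.coeff_X_pow_mul H k 0
    rwa [zero_add, PowerSeries.coeff_zero_eq_constantCoeff_apply] at this
  rw [mul_mul_mul_comm, ← pow_add, e, e, e, map_mul]

theorem ord_zero (F : PowerSeries ℤ) : Ord F 0 := fun _ hi => absurd hi (Nat.not_lt_zero _)

theorem omX_zpow_coeff (z : ℤ) :
    PowerSeries.coeff 0 ((omX ^ z : (PowerSeries ℤ)ˣ) : PowerSeries ℤ) = 1 ∧
      PowerSeries.coeff 1 ((omX ^ z : (PowerSeries ℤ)ˣ) : PowerSeries ℤ) = -z := by
  have key : ∀ z : ℤ,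
      PowerSeries.coeff 0 ((omX ^ (z + 1) : (PowerSeries ℤ)ˣ) : PowerSeries ℤ) =
        PowerSeries.coeff 0 ((omX ^ z : (PowerSeries ℤ)ˣ) : PowerSeries ℤ) ∧
      PowerSeries.coeff 1 ((omX ^ (z + 1) : (PowerSeries ℤ)ˣ) : PowerSeries ℤ) =
        PowerSeries.coeff 1 ((omX ^ z : (PowerSeries ℤ)ˣ) : PowerSeries ℤ) -
          PowerSeries.coeff 0 ((omX ^ z : (PowerSeries ℤ)ˣ) : PowerSeries ℤ) := fun z => by
    rw [zpow_add_one, Units.val_mul, omX_val, mul_sub, mul_one, map_sub, map_sub,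
      PowerSeries.coeff_zero_mul_X, sub_zero, ← PowerSeries.coeff_succ_mul_X 0]
    exact ⟨rfl, rfl⟩
  induction z using Int.induction_on with
  | zero => simp [PowerSeries.coeff_one]
  | succ i ih =>
    obtain ⟨h1, h2⟩ := key i
    rw [h1, h2, ih.1, ih.2]
    exact ⟨rfl, by ring⟩
  | pred i ih =>
    obtain ⟨h1, h2⟩ := key (-i - 1)
    rw [sub_add_cancel] at h1 h2
    rw [ih.1] at h1
    rw [ih.2, ← h1] at h2
    exact ⟨h1.symm, by linarith⟩

theorem Pos.ord_both {F F' : PowerSeries ℤ} (h : Pos F) (h' : Pos F') {j : ℕ}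
    (ho : Ord (F + F') j) : Ord F j ∧ Ord F' j := by
  induction j with
  | zero => exact ⟨ord_zero _, ord_zero _⟩
  | succ j ih =>
    obtain ⟨h1, h2⟩ := ih fun i hi => ho i (Nat.lt_succ_of_lt hi)
    have h3 := h j h1
    have h4 := h' j h2
    have h5 := ho j (Nat.lt_succ_self j)
    rw [map_add] at h5
    refine ⟨fun i hi => ?_, fun i hi => ?_⟩
    · rcases Nat.lt_succ_iff_lt_or_eq.1 hi with hi | rfl
      · exact h1 i hi
      · omega
    · rcases Nat.lt_succ_iff_lt_or_eq.1 hi with hi | rfl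
      · exact h2 i hi
      · omega

theorem Pos.ord_left {F F' : PowerSeries ℤ} (h : Pos F) (h' : Pos F') {j : ℕ}
    (ho : Ord (F + F') j) : Ord F j := (h.ord_both h' ho).1

theorem Pos.add {F F' : PowerSeries ℤ} (h : Pos F) (h' : Pos F') : Pos (F + F') := fun j ho => by
  obtain ⟨h1, h2⟩ := h.ord_both h' ho
  rw [map_add]
  exact add_nonneg (h j h1) (h' j h2)

theorem ord_q_mul (dg : Γ →+ ℤ) (γ : Γ) (F : PowerSeries ℤ) (j : ℕ) :
    Ord (piS dg (q γ) * F) j ↔ Ord F j := by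
  refine ⟨fun h => ?_, fun h => h.mul_left _⟩
  have := h.mul_left (piS dg (q (-γ)))
  rwa [← mul_assoc, ← map_mul, mul_comm (q (-γ)), q_mul_neg, map_one, one_mul] at this

theorem coeff_q_mul (dg : Γ →+ ℤ) (γ : Γ) {F : PowerSeries ℤ} {j : ℕ} (h : Ord F j) :
    PowerSeries.coeff j (piS dg (q γ) * F) = PowerSeries.coeff j F := by
  have := (ord_zero (piS dg (q γ))).coeff_mul h
  rwa [zero_add, piS_q, (omX_zpow_coeff _).1, one_mul, ← piS_q] at this

theorem ord_one_sub_q_mul (dg : Γ →+ ℤ) (γ : Γ) {F : PowerSeries ℤ} {j : ℕ} (h : Ord F j) :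
    Ord (piS dg (1 - q γ) * F) (j + 1) ∧
      PowerSeries.coeff (j + 1) (piS dg (1 - q γ) * F) = dg γ * PowerSeries.coeff j F := by
  have h1 : Ord (piS dg (1 - q γ)) 1 := fun i hi => by
    obtain rfl : i = 0 := by omega
    rw [map_sub, map_one, map_sub, piS_q, (omX_zpow_coeff _).1]
    simp
  have h2 : PowerSeries.coeff 1 (piS dg (1 - q γ)) = dg γ := by
    rw [map_sub, map_one, map_sub, piS_q, (omX_zpow_coeff _).2]
    simp [PowerSeries.coeff_one]
  rw [add_comm j 1]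
  exact ⟨h1.mul h, by rw [h1.coeff_mul h, h2]⟩

theorem pos_cells {ι V : Type*} [Fintype V] (G : Gr ι V Γ) (dg : Γ →+ ℤ)
    (hdg : ∀ v, dg (G.wt v) = 1) (𝒞 : Finset ((ι × Mon V) × Finset V)) :
    Pos (piS dg (∑ c ∈ 𝒞, G.cellK c)) := by
  classical
  induction 𝒞 using Finset.induction_on with
  | empty => intro j _; simp
  | insert c 𝒞 hc ih =>
    rw [Finset.sum_insert hc, map_add]
    refine Pos.add ?_ ih
    have e : ∀ v, piS dg (1 - q (G.wt v)) = PowerSeries.X := fun v => by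
      rw [map_sub, map_one, piS_q, hdg, zpow_one, omX_val, sub_sub_cancel]
    intro j hj
    rw [Gr.cellK, map_mul, map_prod] at hj ⊢
    simp only [e, Finset.prod_const] at hj ⊢
    rw [coeff_q_mul dg _ ((ord_q_mul dg _ _ _).1 hj), PowerSeries.coeff_X_pow]
    split_ifs <;> simp

end series

end Vale.Agent.P200.Eq
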