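import Vale.Agent.P200.Eq.Lead
import Vale.Agent.P200.Eq.Cells
import Vale.Agent.P200.Eq.Series
import Vale.Agent.P200.Eq.KPoly

open Module Finset MvPolynomial

namespace Vale.Agent.P200.Eq

variable {E ι ι' V Γ : Type*} [DivisionRing E] [AddCommGroup Γ]

theorem kc_lead_mono (o : ι → ℕ) (D : Mon V →+ Bo) {U1 U0 : Submodule (Alg E V) (ι → Alg E V)}
    (h : U0 ≤ U1) : Lead o D U0 ⊆ Lead o D U1 :=
  fun _ ⟨u, hu, ht⟩ => ⟨u, h hu, ht⟩

theorem kc_top_single [DecidableEq ι] (o : ι → ℕ) (D : Mon V →+ Bo) (i : ι) {t : Alg E V}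
    {m : Mon V} (hm : t.coeff m ≠ 0) (htop : ∀ m', t.coeff m' ≠ 0 → m' = m ∨ D m' < D m) :
    Top o D (Pi.single i t : ι → Alg E V) (i, m) := by
  refine ⟨by simpa [co] using hm, fun p' hp' => ?_⟩
  by_cases h : p'.1 = i
  · have : t.coeff p'.2 ≠ 0 := by simpa [co, h] using hp'
    rcases htop _ this with h' | h'
    · exact Or.inr ⟨h', by rw [h]⟩
    · exact Or.inl h'
  · exact absurd (by simp [co, Pi.single_eq_of_ne h]) hp'

theorem kc_lead_top (o : ι → ℕ) (D : Mon V →+ Bo) :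
    Lead o D (⊤ : Submodule (Alg E V) (ι → Alg E V)) = Set.univ := by
  classical
  refine Set.eq_univ_of_forall fun p => ⟨Pi.single p.1 (AddMonoidAlgebra.single p.2 1),
    Submodule.mem_top, kc_top_single o D p.1 (by simp) fun m' hm' => Or.inl ?_⟩
  by_contra h
  exact hm' (by simp [Finsupp.single_eq_of_ne h])

theorem kc_cnt_compl (G : Gr ι V Γ) (B : Set (ι × Mon V)) :
    G.cnt Set.univ - G.cnt B = G.cnt Bᶜ := by
  funext γ
  have hfin : {p : ι × Mon V | G.deg p = γ}.Finite := G.fin γ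
  have h1 : {p ∈ (Set.univ : Set (ι × Mon V)) | G.deg p = γ} =
      {p ∈ B | G.deg p = γ} ∪ {p ∈ Bᶜ | G.deg p = γ} := by
    ext p
    by_cases hp : p ∈ B <;> simp [hp]
  have h2 : Disjoint {p ∈ B | G.deg p = γ} {p ∈ Bᶜ | G.deg p = γ} :=
    Set.disjoint_left.2 fun p hp hp' => hp'.1 hp.1
  simp only [Gr.cnt, Pi.sub_apply]
  rw [h1, Set.ncard_union_eq h2 (hfin.subset fun p hp => hp.2) (hfin.subset fun p hp => hp.2)]
  push_cast
  ring

theorem kc_ord_prod (dg : Γ →+ ℤ) {p : ℕ} (γ : Fin p → Γ) :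
    Ord (piS dg (∏ j, (1 - q (γ j)))) p ∧
      PowerSeries.coeff p (piS dg (∏ j, (1 - q (γ j)))) = ∏ j, dg (γ j) := by
  induction p with
  | zero => exact ⟨fun i hi => absurd hi (Nat.not_lt_zero i), by simp⟩
  | succ p ih =>
    obtain ⟨h1, h2⟩ := ih fun j => γ j.succ
    have := ord_one_sub_q_mul dg (γ 0) h1
    rw [Fin.prod_univ_succ, Fin.prod_univ_succ, map_mul, this.2, h2]
    exact ⟨this.1, rfl⟩

theorem kc_dg_weight (dg : Γ →+ ℤ) (wt : V → Γ) (hdg : ∀ v, dg (wt v) = 1) (m : Mon V) :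
    dg (Finsupp.weight wt m) = m.degree := by
  rw [Finsupp.weight_apply, Finsupp.sum, map_sum, Finsupp.degree_apply]
  push_cast
  refine Finset.sum_congr rfl fun v _ => ?_
  rw [map_nsmul, hdg]
  simp

variable [Fintype V]

theorem exists_cells [Fintype ι] (G : Gr ι V Γ) {U1 U0 : Submodule (Alg E V) (ι → Alg E V)}
    (h1 : G.Graded U1) (h0 : G.Graded U0) (h : U0 ≤ U1) :
    ∃ 𝒞 : Finset ((ι × Mon V) × Finset V), G.IsK U1 U0 (∑ c ∈ 𝒞, G.cellK c) ∧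
      ∀ c ∈ 𝒞, ∃ u ∈ U1, ∀ g : Alg E V, g ≠ 0 →
        (∀ m, g.coeff m ≠ 0 → ∀ v, m v ≠ 0 → v ∈ c.2) → g • u ∉ U0 := by
  obtain ⟨o, ho⟩ := exists_injective_nat ι
  obtain ⟨D, hD, -⟩ := exists_key (V := V) fun _ => 0
  obtain ⟨𝒞, hc, hc'⟩ := exists_cells_set G (Lead o D U0) (Lead o D U1) (upper_lead o hD U0)
    (upper_lead o hD U1) (kc_lead_mono o D h)
  refine ⟨𝒞, ?_, fun c hc => ?_⟩
  · rw [Gr.IsK, hf_eq_cnt G ho hD h1, hf_eq_cnt G ho hD h0]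
    exact hc
  · obtain ⟨⟨u, hu, ht⟩, h2⟩ := hc' c hc
    refine ⟨u, hu, fun g hg hs hgu => ?_⟩
    obtain ⟨m, hm, ht'⟩ := ht.smul hD hg
    exact h2 m (hs m hm) ⟨_, hgu, ht'⟩

theorem Gr.IsK.pos [Fintype ι] {G : Gr ι V Γ} {U1 U0 : Submodule (Alg E V) (ι → Alg E V)}
    (h1 : G.Graded U1) (h0 : G.Graded U0) (h : U0 ≤ U1) {k : ZG Γ} (hk : G.IsK U1 U0 k)
    (dg : Γ →+ ℤ) (hdg : ∀ v, dg (G.wt v) = 1) : Pos (piS dg k) := by
  obtain ⟨𝒞, hc, -⟩ := exists_cells G h1 h0 h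
  rw [hk.unique hc]
  exact pos_cells G dg hdg 𝒞

theorem lead_bound [Fintype ι] [DecidableEq ι] (G : Gr ι V Γ) (dg : Γ →+ ℤ)
    (hdg : ∀ v, dg (G.wt v) = 1) {U : Submodule (Alg E V) (ι → Alg E V)} (hU : G.Graded U)
    {p a : ℕ} (t : Fin p → Alg E V) (ω : V → ℕ) (m : Fin p → Mon V)
    (hm : ∀ j, (t j).coeff (m j) ≠ 0)
    (htop : ∀ j m', (t j).coeff m' ≠ 0 → m' = m j ∨ Finsupp.weight ω m' < Finsupp.weight ω (m j))
    (hdisj : ∀ i j, i ≠ j → Disjoint (m i).support (m j).support)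
    (hdeg : ∀ j, (m j).degree = a) (ht : ∀ j i, Pi.single i (t j) ∈ U) {k : ZG Γ}
    (hk : G.IsK ⊤ U k) :
    Ord (piS dg k) p ∧ PowerSeries.coeff p (piS dg k) ≤ Fintype.card ι * a ^ p := by
  obtain ⟨o, ho⟩ := exists_injective_nat ι
  obtain ⟨D, hD, hω⟩ := exists_key (V := V) ω
  have hB : Upper {x : ι × Mon V | ∃ j, m j ≤ x.2} :=
    fun x ⟨j, hj⟩ μ => ⟨j, hj.trans le_self_add⟩
  have hBA : {x : ι × Mon V | ∃ j, m j ≤ x.2} ⊆ Lead o D U := by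
    rintro ⟨i, x⟩ ⟨j, hj⟩
    obtain ⟨μ, rfl⟩ := exists_add_of_le hj
    exact upper_lead o hD U (i, m j) ⟨_, ht j i, kc_top_single o D i (hm j) fun m' hm' =>
      (htop j m' hm').imp id (hω _ _)⟩ μ
  obtain ⟨𝒞, hc, -⟩ := exists_cells_set G _ _ hB (upper_lead o hD U) hBA
  have hpos := Gr.IsK.pos (graded_top G) hU le_top hk dg hdg
  have hpos' := pos_cells G dg hdg 𝒞
  rw [Gr.IsK, hf_eq_cnt G ho hD (graded_top G), hf_eq_cnt G ho hD hU, kc_lead_top] at hk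
  have hco := act_cnt_coprime G m hdisj
  have hcompl : {x : ι × Mon V | ∀ j, ¬ m j ≤ x.2} = {x : ι × Mon V | ∃ j, m j ≤ x.2}ᶜ := by
    ext x; simp
  rw [hcompl, ← kc_cnt_compl, ← sub_add_sub_cancel _ (G.cnt (Lead o D U)), map_add, hk, hc] at hco
  have hsum : k + ∑ c ∈ 𝒞, G.cellK c =
      (∑ i, q (G.w i)) * ∏ j, (1 - q (Finsupp.weight G.wt (m j))) :=
    coeff_inj (by rw [← hco]; simp)
  obtain ⟨o1, o2⟩ := kc_ord_prod dg fun j => Finsupp.weight G.wt (m j)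
  have hS : piS dg k + piS dg (∑ c ∈ 𝒞, G.cellK c) =
      ∑ i, piS dg (q (G.w i)) * piS dg (∏ j, (1 - q (Finsupp.weight G.wt (m j)))) := by
    rw [← map_add, hsum, map_mul, map_sum, Finset.sum_mul]
  have hord : Ord (piS dg k + piS dg (∑ c ∈ 𝒞, G.cellK c)) p := by
    intro i hi
    rw [hS, map_sum]
    exact Finset.sum_eq_zero fun x _ => (ord_q_mul dg _ _ p).2 o1 i hi
  have hcoef : PowerSeries.coeff p (piS dg k + piS dg (∑ c ∈ 𝒞, G.cellK c)) =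
      Fintype.card ι * a ^ p := by
    rw [hS, map_sum, Finset.sum_congr rfl fun x _ => coeff_q_mul dg (G.w x) o1, o2]
    simp [kc_dg_weight dg G.wt hdg, hdeg]
  refine ⟨hpos.ord_left hpos' hord, ?_⟩
  have := hpos' p (hpos'.ord_left hpos (by rwa [add_comm]))
  rw [map_add] at hcoef
  linarith

end Vale.Agent.P200.Eq
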