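import Vale.Agent.P200.Eq.SDefs

open Finset

namespace Vale.Agent.P200.Eq

variable {Γ : Type*} [AddCommGroup Γ]

/-- multiplication of the coefficients by a weight -/
noncomputable def momW (w : Γ → ℤ) (x : ZG Γ) : ZG Γ := AddMonoidAlgebra.ofCoeff (w • x.coeff)

omit [AddCommGroup Γ] in
theorem momW_coeff (w : Γ → ℤ) (x : ZG Γ) (γ : Γ) : (momW w x).coeff γ = w γ * x.coeff γ := rfl

theorem momW_add (w : Γ → ℤ) (x y : ZG Γ) : momW w (x + y) = momW w x + momW w y :=
  AddMonoidAlgebra.ext (Finsupp.ext fun γ => by simp [momW_coeff, mul_add])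

theorem momW_zero (w : Γ → ℤ) : momW w 0 = 0 :=
  AddMonoidAlgebra.ext (Finsupp.ext fun γ => by simp [momW_coeff])

theorem momW_sub (w : Γ → ℤ) (x y : ZG Γ) : momW w (x - y) = momW w x - momW w y :=
  eq_sub_of_add_eq (by rw [← momW_add, sub_add_cancel])

omit [AddCommGroup Γ] in
theorem momW_mul (w w' : Γ → ℤ) (x : ZG Γ) : momW (w * w') x = momW w (momW w' x) :=
  AddMonoidAlgebra.ext (Finsupp.ext fun γ => by simp [momW_coeff, mul_assoc])

omit [AddCommGroup Γ] in
theorem momW_single (w : Γ → ℤ) (γ : Γ) (c : ℤ) :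
    momW w (AddMonoidAlgebra.single γ c) = AddMonoidAlgebra.single γ (w γ * c) := by
  classical
  refine AddMonoidAlgebra.ext (Finsupp.ext fun δ => ?_)
  rw [momW_coeff, AddMonoidAlgebra.coeff_single, AddMonoidAlgebra.coeff_single,
    Finsupp.single_apply, Finsupp.single_apply]
  split_ifs with h
  · rw [h]
  · exact mul_zero _

theorem momW_leibniz (f : Γ →+ ℤ) (x y : ZG Γ) :
    momW f (x * y) = momW f x * y + x * momW f y := by
  induction x using AddMonoidAlgebra.induction_linear with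
  | zero => simp [momW_zero]
  | add a b ha hb => rw [add_mul, momW_add, ha, hb, momW_add]; ring
  | single γ c =>
    induction y using AddMonoidAlgebra.induction_linear with
    | zero => simp [momW_zero]
    | add a b ha hb => rw [mul_add, momW_add, ha, hb, momW_add]; ring
    | single δ d =>
      simp only [momW_single, AddMonoidAlgebra.single_mul_single, map_add]
      rw [← AddMonoidAlgebra.single_add]
      congr 1
      ring

theorem momW_mem_pow (f : Γ →+ ℤ) (I : Ideal (ZG Γ)) (n : ℕ) :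
    ∀ x ∈ I ^ (n + 1), momW f x ∈ I ^ n := by
  induction n with
  | zero => simp
  | succ n ih =>
    intro x hx
    rw [pow_succ] at hx
    refine Submodule.mul_induction_on hx (fun a ha b hb => ?_) fun a b ha hb => ?_
    · rw [momW_leibniz]
      refine add_mem ?_ (Ideal.mul_mem_right _ _ ha)
      rw [pow_succ]
      exact Ideal.mul_mem_mul (ih a ha) hb
    · rw [momW_add]
      exact add_mem ha hb

theorem momW_prod_mem_pow {σ : Type*} (f : σ → Γ →+ ℤ) (I : Ideal (ZG Γ)) (S : Finset σ) :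
    ∀ n, ∀ x ∈ I ^ (n + S.card), momW (∏ s ∈ S, ⇑(f s)) x ∈ I ^ n := by
  classical
  induction S using Finset.induction_on with
  | empty =>
    intro n x hx
    have : momW (∏ s ∈ (∅ : Finset σ), ⇑(f s)) x = x :=
      AddMonoidAlgebra.ext (Finsupp.ext fun γ => by simp [momW_coeff])
    rw [this]
    simpa using hx
  | insert s S hs ih =>
    intro n x hx
    rw [prod_insert hs, momW_mul]
    refine momW_mem_pow _ I n _ (ih (n + 1) x ?_)
    rwa [card_insert_of_notMem hs, add_comm S.card 1, ← add_assoc] at hx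

theorem momW_mul_pow (w : Γ → ℤ) (z : Γ) (hw : ∀ γ, w (γ + z) = w γ) (r : ℕ) :
    ∀ x : ZG Γ, momW w (x * (1 - q z) ^ r) = momW w x * (1 - q z) ^ r := by
  have h : ∀ x : ZG Γ, momW w (x * q z) = momW w x * q z := fun x => by
    induction x using AddMonoidAlgebra.induction_linear with
    | zero => simp [momW_zero]
    | add a b ha hb => rw [add_mul, momW_add, ha, hb, momW_add, add_mul]
    | single γ c => simp only [q, momW_single, AddMonoidAlgebra.single_mul_single, hw, mul_assoc]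
  induction r with
  | zero => simp
  | succ r ih =>
    intro x
    rw [pow_succ, ← mul_assoc, mul_sub, mul_one, momW_sub, h, ih]
    ring

theorem mom_zpow (n : ℤ) : ∃ G : PowerSeries ℤ,
    1 - ((omX ^ n : (PowerSeries ℤ)ˣ) : PowerSeries ℤ) = PowerSeries.X * G ∧
      PowerSeries.constantCoeff G = n := by
  induction n using Int.induction_on with
  | zero => exact ⟨0, by simp, by simp⟩
  | succ n ih =>
    obtain ⟨G, h1, h2⟩ := ih
    have h3 := congrArg PowerSeries.constantCoeff h1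
    simp only [map_sub, map_one, map_mul, PowerSeries.constantCoeff_X, zero_mul] at h3
    refine ⟨G + ((omX ^ (n : ℤ) : (PowerSeries ℤ)ˣ) : PowerSeries ℤ), ?_, ?_⟩
    · rw [zpow_add_one, Units.val_mul, omX_val, mul_add, ← h1]
      ring
    · rw [map_add, h2, ← sub_eq_zero.1 h3]
  | pred n ih =>
    obtain ⟨G, h1, h2⟩ := ih
    have h0 : ((omX ^ (-(n : ℤ)) : (PowerSeries ℤ)ˣ) : PowerSeries ℤ) =
        ((omX ^ (-(n : ℤ) - 1) : (PowerSeries ℤ)ˣ) : PowerSeries ℤ) * (1 - PowerSeries.X) := by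
      rw [← omX_val, ← Units.val_mul, ← zpow_add_one, sub_add_cancel]
    have h3 := congrArg PowerSeries.constantCoeff h1
    rw [h0] at h1 h3
    simp only [map_sub, map_one, map_mul, PowerSeries.constantCoeff_X, zero_mul, sub_zero,
      mul_one] at h3
    refine ⟨G - ((omX ^ (-(n : ℤ) - 1) : (PowerSeries ℤ)ˣ) : PowerSeries ℤ), ?_, ?_⟩
    · rw [mul_sub, ← h1]
      ring
    · rw [map_sub, h2, ← sub_eq_zero.1 h3]

theorem mom_one_sub (dg : Γ →+ ℤ) (γ : Γ) : ∃ G : PowerSeries ℤ,
    piS dg (1 - q γ) = PowerSeries.X * G ∧ PowerSeries.constantCoeff G = dg γ := by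
  rw [map_sub, map_one, piS_q]
  exact mom_zpow _

theorem mom_aug (dg : Γ →+ ℤ) (n : ℕ) {x : ZG Γ} (hx : x ∈ augI Γ ^ n) :
    PowerSeries.X ^ n ∣ piS dg x := by
  have h : (augI Γ).map (piS dg) ≤ Ideal.span {PowerSeries.X} := by
    rw [Ideal.map_le_iff_le_comap, augI, Ideal.span_le]
    rintro _ ⟨γ, rfl⟩
    obtain ⟨G, hG, -⟩ := mom_one_sub dg γ
    exact Ideal.mem_span_singleton.2 ⟨G, hG⟩
  have h1 := Ideal.mem_map_of_mem (piS dg) hx
  rw [Ideal.map_pow] at h1
  have h2 := Ideal.pow_right_mono h n h1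
  rwa [Ideal.span_singleton_pow, Ideal.mem_span_singleton] at h2

theorem mom_reindex (dg : Γ →+ ℤ) (θ : Γ ≃ Γ) (hθ : ∀ γ, dg (θ γ) = dg γ) {x y : ZG Γ}
    (h : ∀ γ, y.coeff (θ γ) = x.coeff γ) : piS dg y = piS dg x := by
  have e : ∀ x : ZG Γ, piS dg x = x.coeff.sum fun γ c => c • piS dg (q γ) := fun x => by
    conv_lhs => rw [← x.sum_coeff_single, map_finsuppSum]
    exact Finsupp.sum_congr fun γ _ => by rw [single_eq_smul_q, map_zsmul]
  have h1 : y.coeff = x.coeff.equivMapDomain θ := Finsupp.ext fun γ => by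
    rw [Finsupp.equivMapDomain_apply, ← h, Equiv.apply_symm_apply]
  rw [e y, e x, h1, Finsupp.sum_equivMapDomain]
  exact Finsupp.sum_congr fun γ _ => by rw [piS_q, piS_q, hθ]

theorem mom_const {σ β : Type*} [Fintype σ] [DecidableEq σ] {a : ℕ} [NeZero a]
    (c : (σ → ZMod a) → β) (h : ∀ t s, c (Function.update t s (t s + 1)) = c t)
    (t : σ → ZMod a) : c t = c 0 := by
  have h1 : ∀ t s (n : ℕ), c (Function.update t s (t s + n)) = c t := fun t s n => by
    induction n with
    | zero => simp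
    | succ n ih =>
      have h2 := h (Function.update t s (t s + n)) s
      rw [Function.update_idem, Function.update_self, ih] at h2
      rw [Nat.cast_succ, ← add_assoc, h2]
  have h2 : ∀ t s u, c (Function.update t s u) = c t := fun t s u => by
    rw [← h1 t s (u - t s).val, ZMod.natCast_zmod_val, add_sub_cancel]
  have h3 : ∀ S : Finset σ, c (S.piecewise t 0) = c 0 := fun S => by
    induction S using Finset.induction_on with
    | empty => simp
    | insert s S _ ih => rw [piecewise_insert, h2, ih]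
  simpa using h3 univ

theorem moment (dg : Γ →+ ℤ) {M a r : ℕ} [NeZero a] (hr : r < M)
    (f : Fin M → ZMod a → Γ →+ ℤ) (k α k' : ZG Γ) (z : Γ) (hz : dg z = -a)
    (hfz : ∀ s t, f s t z = 0) (hk : k = α * (1 - q z) ^ r + k') (hk' : k' ∈ augI Γ ^ (2 * M))
    (hsum : ∀ s γ, k.coeff γ ≠ 0 → ∑ t, f s t γ = 1) (θ : Fin M → Γ ≃ Γ)
    (h1 : ∀ s γ, k.coeff (θ s γ) = k.coeff γ) (h2 : ∀ s γ, dg (θ s γ) = dg γ)
    (h3 : ∀ s t γ, f s (t + 1) (θ s γ) = f s t γ)
    (h4 : ∀ s s' t γ, s' ≠ s → f s' t (θ s γ) = f s' t γ) :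
    ((a : ℤ) ^ (M + r)) ∣ PowerSeries.coeff r (piS dg k) := by
  let w : (Fin M → ZMod a) → Γ → ℤ := fun t => ∏ s, ⇑(f s (t s))
  have hw : ∀ t γ, w t γ = ∏ s, f s (t s) γ := fun t γ => Finset.prod_apply γ _ _
  have e1 : k = ∑ t, momW (w t) k := by
    refine AddMonoidAlgebra.ext (Finsupp.ext fun γ => ?_)
    rw [AddMonoidAlgebra.coeff_sum, Finsupp.finsetSum_apply]
    simp only [momW_coeff, hw]
    rw [← sum_mul]
    by_cases h : k.coeff γ = 0
    · rw [h, mul_zero]
    · have h5 := Finset.prod_univ_sum (fun _ : Fin M => (univ : Finset (ZMod a)))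
        fun s t => f s t γ
      rw [Fintype.piFinset_univ] at h5
      rw [← h5, prod_congr rfl fun s _ => hsum s γ h, prod_const_one, one_mul]
  have e2 : ∀ t, piS dg (momW (w t) k) = piS dg (momW (w 0) k) := by
    refine mom_const (fun t => piS dg (momW (w t) k)) fun t s =>
      mom_reindex dg (θ s) (h2 s) fun γ => ?_
    rw [momW_coeff, momW_coeff, h1, hw, hw]
    refine congrArg (· * _) (prod_congr rfl fun s' _ => ?_)
    rcases eq_or_ne s' s with rfl | hs
    · rw [Function.update_self, h3]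
    · rw [Function.update_of_ne hs, h4 s s' _ γ hs]
  have e3 : (a : ℤ) ^ r ∣ PowerSeries.coeff r (piS dg (momW (w 0) k)) := by
    have h5 : PowerSeries.X ^ M ∣ piS dg (momW (w 0) k') :=
      mom_aug dg M (momW_prod_mem_pow (fun s => f s 0) _ univ M k' (by
        rwa [card_univ, Fintype.card_fin, ← two_mul]))
    obtain ⟨G, hG, hG'⟩ := mom_one_sub dg z
    rw [hk, momW_add, momW_mul_pow _ z fun γ => by simp [hw, hfz], map_add, map_add,
      PowerSeries.X_pow_dvd_iff.1 h5 r hr, add_zero, map_mul, map_pow, hG, mul_pow, mul_left_comm,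
      PowerSeries.coeff_X_pow_mul', if_pos le_rfl, Nat.sub_self,
      PowerSeries.coeff_zero_eq_constantCoeff, map_mul, map_pow, hG', hz]
    exact Dvd.dvd.mul_left (pow_dvd_pow_of_dvd (dvd_neg.2 dvd_rfl) r) _
  rw [e1, map_sum, sum_congr rfl fun t _ => e2 t, sum_const, card_univ, Fintype.card_fun,
    ZMod.card, Fintype.card_fin, map_nsmul, nsmul_eq_mul, Nat.cast_pow, pow_add]
  exact mul_dvd_mul_left _ e3

end Vale.Agent.P200.Eq
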