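import Vale.Agent.P200.Eq.BDefs

open Module Finset MvPolynomial Matrix

namespace Vale.Agent.P200.Eq

variable {M a n : ℕ} [NeZero a] {K E : Type*} [Field K] [DivisionRing E] [Algebra K E]

set_option linter.unusedSectionVars false in
theorem thB_wtB (s : Fin M) (v : Var M a n) : thB s (wtB v) = wtB (piB s v) := by
  obtain ⟨t, k, i⟩ := v
  refine Prod.ext (funext fun t' => funext fun k' => ?_) rfl
  change (Pi.single t (Pi.single k 1 - Pi.single (k + 1) 1) : Fin M → ZMod a → ℤ) t'
      (if t' = s then k' - 1 else k') =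
    (Pi.single t (Pi.single (if t = s then k + 1 else k) 1 -
      Pi.single ((if t = s then k + 1 else k) + 1) 1) : Fin M → ZMod a → ℤ) t' k'
  by_cases h : t' = t
  · subst h
    by_cases h' : t' = s <;> simp [h', Pi.single_apply, sub_eq_iff_eq_add]
  · simp [Pi.single_eq_of_ne h]

omit [NeZero a] in
theorem sig_wB (s : Fin M) (g : Gp M a) : thB s (wB g) = wB (g + Pi.single s 1) := by
  refine Prod.ext (funext fun t => funext fun k => ?_) rfl
  change (Pi.single (g t) 1 : ZMod a → ℤ) (if t = s then k - 1 else k) =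
    (Pi.single ((g + Pi.single s 1 : Gp M a) t) 1 : ZMod a → ℤ) k
  by_cases h : t = s
  · subst h
    simp [Pi.single_apply, sub_eq_iff_eq_add]
  · simp [h]

theorem sig_weight (s : Fin M) (m : Mon (Var M a n)) :
    Finsupp.weight wtB (m.mapDomain (piB s)) = thB s (Finsupp.weight wtB m) := by
  induction m using Finsupp.induction_linear with
  | zero => simp
  | add x y hx hy => rw [Finsupp.mapDomain_add, map_add, map_add, map_add, hx, hy]
  | single v c =>
    rw [Finsupp.mapDomain_single, Finsupp.weight_single, Finsupp.weight_single, map_nsmul,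
      thB_wtB]

omit [NeZero a] in
theorem sig_md_bij (s : Fin M) :
    Function.Bijective (Finsupp.mapDomain (piB s) : Mon (Var M a n) → Mon (Var M a n)) :=
  ⟨Finsupp.mapDomain_injective (piB s).injective, Finsupp.mapDomain_surjective (piB s).surjective⟩

omit [NeZero a] in
theorem sig_coeff (s : Fin M) (x : Alg E (Var M a n)) (m : Mon (Var M a n)) :
    (sgB E n s x).coeff (m.mapDomain (piB s)) = x.coeff m :=
  Finsupp.mapDomain_apply (sig_md_bij s).1 _ _

omit [NeZero a] in
theorem sig_smul (s : Fin M) (e : E) (x : Alg E (Var M a n)) :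
    sgB E n s (e • x) = e • sgB E n s x := by
  ext m
  obtain ⟨m, rfl⟩ := (sig_md_bij s).2 m
  rw [sig_coeff, AddMonoidAlgebra.coeff_smul, AddMonoidAlgebra.coeff_smul, Finsupp.smul_apply,
    Finsupp.smul_apply, sig_coeff]

omit [NeZero a] in
theorem sig_bij (s : Fin M) :
    Function.Bijective (sgB E n s : Alg E (Var M a n) → Alg E (Var M a n)) := by
  refine ⟨AddMonoidAlgebra.mapDomain_injective (sig_md_bij s).1, fun y => ?_⟩
  refine ⟨AddMonoidAlgebra.comapDomain _ (sig_md_bij s).1 y, ?_⟩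
  exact AddMonoidAlgebra.mapDomain_comapDomain (fun m _ => (sig_md_bij s).2 m) _

theorem sig_eta {ζ : K} (hζ : ζ ^ a = 1) (s : Fin M) (g : Gp M a) : etaB ζ s g ≠ 0 := by
  refine pow_ne_zero _ fun h => ?_
  rw [h, zero_pow (NeZero.ne a)] at hζ
  exact zero_ne_one hζ

/-- the semilinear shift -/
noncomputable def sigMap (E : Type*) [DivisionRing E] [Algebra K E] (n : ℕ) (ζ : K) (s : Fin M) :
    (Gp M a → Alg E (Var M a n)) →ₗ[E] (Gp M a → Alg E (Var M a n)) where
  toFun v g := etaB ζ s (g - Pi.single s 1) • sgB E n s (v (g - Pi.single s 1))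
  map_add' v w := funext fun g => by simp only [Pi.add_apply, map_add, smul_add]
  map_smul' e v := funext fun g => by
    simp only [Pi.smul_apply, RingHom.id_apply, sig_smul]
    exact smul_comm _ _ _

set_option linter.unusedSectionVars false in
theorem sigMap_apply (ζ : K) (s : Fin M) (v : Gp M a → Alg E (Var M a n)) (g : Gp M a) :
    sigMap E n ζ s v (g + Pi.single s 1) = etaB ζ s g • sgB E n s (v g) := by
  change etaB ζ s (g + Pi.single s 1 - Pi.single s 1) •
    sgB E n s (v (g + Pi.single s 1 - Pi.single s 1)) = _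
  rw [add_sub_cancel_right]

theorem sigMap_bij {ζ : K} (hζ : ζ ^ a = 1) (s : Fin M) :
    Function.Bijective (sigMap (a := a) E n ζ s) := by
  constructor
  · intro v w h
    funext g
    have := congrFun h (g + Pi.single s 1)
    rw [sigMap_apply, sigMap_apply] at this
    exact (sig_bij s).1 (smul_right_injective _ (sig_eta hζ s g) this)
  · intro w
    choose u hu using fun g : Gp M a =>
      (sig_bij (E := E) s).2 ((etaB ζ s g)⁻¹ • w (g + Pi.single s 1))
    refine ⟨u, funext fun g => ?_⟩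
    obtain ⟨g, rfl⟩ : ∃ g', g = g' + Pi.single s 1 := ⟨g - Pi.single s 1, by simp⟩
    rw [sigMap_apply, hu, smul_inv_smul₀ (sig_eta hζ s g)]

theorem sigMap_co {ζ : K} (hζ : ζ ^ a = 1) (s : Fin M) (v : Gp M a → Alg E (Var M a n))
    (g : Gp M a) (m : Mon (Var M a n)) :
    co (sigMap E n ζ s v) (g + Pi.single s 1, m.mapDomain (piB s)) ≠ 0 ↔ co v (g, m) ≠ 0 := by
  simp only [co]
  rw [sigMap_apply, AddMonoidAlgebra.coeff_smul, Finsupp.smul_apply, sig_coeff, smul_ne_zero_iff]
  exact and_iff_right (sig_eta hζ s g)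

theorem exists_sig {ζ : K} (hζ : ζ ^ a = 1) (G : Gr (Gp M a) (Var M a n) (Gam M a))
    (hw : G.w = wB) (hwt : G.wt = wtB) (s : Fin M) :
    ∃ S : (Gp M a → Alg E (Var M a n)) ≃ₗ[E] (Gp M a → Alg E (Var M a n)),
      (∀ γ v, v ∈ G.piece E γ ↔ S v ∈ G.piece E (thB s γ)) ∧
      ∀ d, ∀ c ∈ cB E M a n ζ d, ∀ v, S (v ᵥ* c) = S v ᵥ* c := by
  have hdeg : ∀ (g : Gp M a) (m : Mon (Var M a n)),
      G.deg (g + Pi.single s 1, m.mapDomain (piB s)) = thB s (G.deg (g, m)) := fun g m => by
    simp only [Gr.deg, hw, hwt]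
    rw [map_add, sig_wB, sig_weight]
  refine ⟨LinearEquiv.ofBijective (sigMap E n ζ s) (sigMap_bij hζ s), fun γ v => ?_,
    fun d c hc v => ?_⟩
  · change (∀ p, co v p ≠ 0 → G.deg p = γ) ↔
      ∀ p, co (sigMap E n ζ s v) p ≠ 0 → G.deg p = thB s γ
    constructor
    · rintro h ⟨g, m⟩ hp
      obtain ⟨g, rfl⟩ : ∃ g', g = g' + Pi.single s 1 := ⟨g - Pi.single s 1, by simp⟩
      obtain ⟨m, rfl⟩ := (sig_md_bij s).2 m
      rw [hdeg, h _ ((sigMap_co hζ s v g m).1 hp)]
    · rintro h ⟨g, m⟩ hp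
      have := h _ ((sigMap_co hζ s v g m).2 hp)
      rw [hdeg] at this
      exact (thB s).injective this
  · change sigMap E n ζ s (v ᵥ* c) = sigMap E n ζ s v ᵥ* c
    funext g'
    obtain ⟨g', rfl⟩ : ∃ g, g' = g + Pi.single s 1 := ⟨g' - Pi.single s 1, by simp⟩
    rw [sigMap_apply]
    simp only [Matrix.vecMul, dotProduct]
    rw [map_sum, Finset.smul_sum]
    refine Fintype.sum_equiv (Equiv.addRight (Pi.single s 1 : Gp M a)) _ _ fun g => ?_
    rw [Equiv.coe_addRight, sigMap_apply, map_mul, ← mul_smul_comm, ← hc.2 s g g', mul_smul_comm,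
      smul_mul_assoc]

end Vale.Agent.P200.Eq
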