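import Vale.Agent.P200.Eq.Fn

/-! P200 Eq: a transcendence degree count. If no nonzero combination of the functionals `lam j`
has a catalecticant of rank at most one, each block of linear forms whose product is killed by
the catalecticant satisfies two independent algebraic relations. -/

open Module Finset MvPolynomial

namespace Vale.Agent.P200.Eq

universe u

section cl
variable (K : Type u) {F : Type u} [Field K] [Field F] [Algebra K F]

/-- the elements which are algebraic over the subalgebra generated by `B` -/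
noncomputable def trCl (B : Set F) : Subalgebra K F :=
  (Subalgebra.algebraicClosure (Algebra.adjoin K B) F).restrictScalars K

theorem trCl_coe (B : Set F) : (trCl K B : Set F) = (AlgebraicIndependent.matroid K F).closure B :=
  AlgebraicIndependent.matroid_closure_eq.symm

variable {K}

theorem trCl_sub {B : Set F} {y : F} (h : y ∈ B) : y ∈ trCl K B := by
  rw [← SetLike.mem_coe, trCl_coe]
  exact (AlgebraicIndependent.matroid K F).subset_closure B (by simp) h

theorem trCl_mono {B B' : Set F} (h : ∀ y ∈ B, y ∈ trCl K B') {y : F} (hy : y ∈ trCl K B) :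
    y ∈ trCl K B' := by
  rw [← SetLike.mem_coe, trCl_coe] at hy ⊢
  refine Matroid.closure_subset_closure_of_subset_closure (fun z hz => ?_) hy
  rw [← trCl_coe]
  exact h z hz

theorem trCl_quad {B : Set F} {y a b c : F} (hy : y ∉ trCl K B) (ha : a ∈ trCl K B)
    (hb : b ∈ trCl K B) (hc : c ∈ trCl K B) (h : a * y ^ 2 + b * y + c = 0) : a = 0 ∧ b = 0 := by
  by_contra hne
  refine hy (trCl_mono (B := (trCl K B : Set F)) (fun _ hz => hz) ?_)
  have hs : ∀ z ∈ trCl K B, z ∈ Algebra.adjoin K (trCl K B : Set F) := fun z hz =>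
    Algebra.subset_adjoin hz
  refine ⟨Polynomial.C ⟨a, hs a ha⟩ * Polynomial.X ^ 2 + Polynomial.C ⟨b, hs b hb⟩ * Polynomial.X +
    Polynomial.C ⟨c, hs c hc⟩, fun e => hne ⟨?_, ?_⟩, ?_⟩
  · simpa [Polynomial.coeff_X, Polynomial.coeff_C] using congrArg (fun p => (p.coeff 2).1) e
  · simpa [Polynomial.coeff_X, Polynomial.coeff_C] using congrArg (fun p => (p.coeff 1).1) e
  · simpa using h

theorem trCl_lin {n : ℕ} {B : Set F} {u v : Fin n → F} {i : Fin n} (hu : ∀ p, u p ∈ trCl K B)
    (hv : ∀ p, p ≠ i → u p = 0 ∨ v p ∈ trCl K B) (hi : u i ≠ 0) (h : ∑ p, u p * v p = 0) :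
    v i ∈ trCl K B := by
  by_contra hy
  rw [← Finset.add_sum_erase _ _ (mem_univ i)] at h
  refine hi (trCl_quad hy (zero_mem _) (hu i) (c := ∑ p ∈ univ.erase i, u p * v p)
    (Subalgebra.sum_mem _ fun p hp => ?_) (by rw [zero_mul, zero_add, h])).2
  rcases hv p (ne_of_mem_erase hp) with e | e
  · rw [e, zero_mul]
    exact zero_mem _
  · exact mul_mem (hu p) e

variable (K) in
/-- the set `Y` lies in the closure of an extension of `B` by `m - a` elements -/
def TrExt (B : Finset F) (Y : Set F) (m a : ℕ) : Prop :=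
  ∃ B' : Finset F, (∀ y ∈ B, y ∈ trCl K (B' : Set F)) ∧ (∀ y ∈ Y, y ∈ trCl K (B' : Set F)) ∧
    B'.card + a ≤ B.card + m

theorem TrExt.trans {B : Finset F} {Y Y' : Set F} {m a m' a' : ℕ} (h : TrExt K B Y m a)
    (h' : ∀ B' : Finset F, (∀ y ∈ B, y ∈ trCl K (B' : Set F)) → (∀ y ∈ Y, y ∈ trCl K (B' : Set F)) →
      TrExt K B' Y' m' a') : TrExt K B (Y ∪ Y') (m + m') (a + a') := by
  obtain ⟨B', h1, h2, h3⟩ := h
  obtain ⟨B'', h4, h5, h6⟩ := h' B' h1 h2
  refine ⟨B'', fun y hy => trCl_mono h4 (h1 y hy), ?_, by omega⟩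
  rintro y (hy | hy)
  exacts [trCl_mono h4 (h2 y hy), h5 y hy]

open Classical in
theorem trExt_of {n : ℕ} (B : Finset F) (v : Fin n → F) (I : Finset (Fin n))
    (h : ∀ i ∈ I, v i ∈ trCl K ((B : Set F) ∪ v '' {p | p ∉ I})) :
    TrExt K B (Set.range v) n I.card := by
  have e : ((B ∪ Iᶜ.image v : Finset F) : Set F) = (B : Set F) ∪ v '' {p | p ∉ I} := by
    rw [coe_union, coe_image, coe_compl]
    rfl
  refine ⟨B ∪ Iᶜ.image v, fun y hy => trCl_sub (mem_coe.2 (mem_union_left _ hy)), ?_, ?_⟩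
  · rintro _ ⟨i, rfl⟩
    rw [e]
    by_cases hi : i ∈ I
    exacts [h i hi, trCl_sub (Or.inr ⟨i, hi, rfl⟩)]
  · have h1 := card_union_le B (Iᶜ.image v)
    have h2 := card_image_le (s := Iᶜ) (f := v)
    have h3 := card_add_card_compl I
    rw [Fintype.card_fin] at h3
    omega

theorem trExt_zero {n : ℕ} (B : Finset F) (v : Fin n → F) : TrExt K B (Set.range v) n 0 :=
  trExt_of B v ∅ (by simp)

theorem trExt_one {n : ℕ} {B : Finset F} {u v : Fin n → F} (hu : ∀ p, u p ∈ trCl K (B : Set F))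
    {i : Fin n} (hi : u i ≠ 0) (h : ∑ p, u p * v p = 0) : TrExt K B (Set.range v) n 1 := by
  refine trExt_of B v {i} fun j hj => ?_
  rw [mem_singleton.1 hj]
  exact trCl_lin (fun p => trCl_mono (fun _ hz => trCl_sub (Or.inl hz)) (hu p))
    (fun p hp => Or.inr (trCl_sub (Or.inr ⟨p, by simpa using hp, rfl⟩))) hi h

theorem trExt_two {n : ℕ} {B : Finset F} {a b v : Fin n → F} (ha : ∀ p, a p ∈ trCl K (B : Set F))
    (hb : ∀ p, b p ∈ trCl K (B : Set F)) {i j : Fin n} (hij : a i * b j ≠ a j * b i)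
    (h1 : ∑ p, a p * v p = 0) (h2 : ∑ p, b p * v p = 0) : TrExt K B (Set.range v) n 2 := by
  have hne : i ≠ j := by
    rintro rfl
    exact hij rfl
  have key : ∀ i' j' : Fin n, a i' * b j' ≠ a j' * b i' → ({i, j} : Finset (Fin n)) = {i', j'} →
      v i' ∈ trCl K ((B : Set F) ∪ v '' {p | p ∉ ({i, j} : Finset (Fin n))}) := by
    intro i' j' h e
    refine trCl_lin (u := fun p => a p * b j' - a j' * b p)
      (fun p => trCl_mono (fun _ hz => trCl_sub (Or.inl hz))
        (sub_mem (mul_mem (ha p) (hb j')) (mul_mem (ha j') (hb p)))) (fun p hp => ?_)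
      (sub_ne_zero.2 h) ?_
    · by_cases hj : p = j'
      · exact Or.inl (by rw [hj, sub_self])
      · exact Or.inr (trCl_sub (Or.inr ⟨p, by simp [e, hp, hj], rfl⟩))
    · have : ∀ p, (a p * b j' - a j' * b p) * v p = b j' * (a p * v p) - a j' * (b p * v p) :=
        fun p => by ring
      simp only [this, sum_sub_distrib, ← mul_sum, h1, h2, mul_zero, sub_zero]
  have := trExt_of (K := K) B v {i, j} fun p hp => by
    rcases mem_insert.1 hp with rfl | hp
    · exact key p j hij rfl
    · rw [mem_singleton.1 hp]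
      exact key j i hij.symm (pair_comm i j)
  rwa [card_pair hne] at this

theorem trExt_quad {n : ℕ} {B : Finset F} {v : Fin n → F} (h : ¬ TrExt K B (Set.range v) n 1)
    {a : Fin n → Fin n → F} (ha : ∀ p q, a p q ∈ trCl K (B : Set F))
    (h0 : ∑ p, ∑ q, a p q * (v p * v q) = 0) (p : Fin n) :
    a p p = 0 ∧ ∀ q, q ≠ p → a p q + a q p = 0 := by
  have hy : v p ∉ trCl K ((B : Set F) ∪ v '' {q | q ∉ ({p} : Finset (Fin n))}) := fun hy =>
    h (trExt_of B v {p} fun j hj => by rwa [mem_singleton.1 hj])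
  have ha' : ∀ q q', a q q' ∈ trCl K ((B : Set F) ∪ v '' {q | q ∉ ({p} : Finset (Fin n))}) :=
    fun q q' => trCl_mono (fun _ hz => trCl_sub (Or.inl hz)) (ha q q')
  have hv : ∀ q ∈ univ.erase p,
      v q ∈ trCl K ((B : Set F) ∪ v '' {q | q ∉ ({p} : Finset (Fin n))}) :=
    fun q hq => trCl_sub (Or.inr ⟨q, by simpa using hq, rfl⟩)
  have key := trCl_quad hy (ha' p p) (b := ∑ q ∈ univ.erase p, (a p q + a q p) * v q)
    (c := ∑ q ∈ univ.erase p, ∑ q' ∈ univ.erase p, a q q' * (v q * v q'))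
    (Subalgebra.sum_mem _ fun q hq => mul_mem (add_mem (ha' _ _) (ha' _ _)) (hv q hq))
    (Subalgebra.sum_mem _ fun q hq => Subalgebra.sum_mem _ fun q' hq' =>
      mul_mem (ha' _ _) (mul_mem (hv q hq) (hv q' hq'))) (by
      rw [← h0]
      simp only [← Finset.add_sum_erase _ _ (mem_univ p), sum_add_distrib, add_mul, sum_mul]
      rw [sum_congr rfl fun q _ => show a p q * v q * v p = a p q * (v p * v q) by ring,
        sum_congr rfl fun q _ => show a q p * v q * v p = a q p * (v q * v p) by ring]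
      ring)
  refine ⟨key.1, fun q hq => ?_⟩
  by_contra hne
  refine h (trExt_one (u := fun q' => if q' = p then 0 else a p q' + a q' p) (fun q' => ?_)
    (i := q) (by simpa [hq] using hne) ?_)
  · split_ifs
    exacts [zero_mem _, add_mem (ha _ _) (ha _ _)]
  · rw [← Finset.add_sum_erase _ _ (mem_univ p), if_pos rfl, zero_mul, zero_add, ← key.2]
    exact sum_congr rfl fun q' hq' => by rw [if_neg (ne_of_mem_erase hq')]

end cl

section contr
variable {F : Type u} [Field F] {n : ℕ}

/-- contraction of a functional with a linear form -/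
noncomputable def trCon (R : (Fin n →₀ ℕ) → F) (v : Fin n → F) (β : Fin n →₀ ℕ) : F :=
  ∑ p, R (β + Finsupp.single p 1) * v p

theorem fn_trCon (R : (Fin n →₀ ℕ) → F) (v : Fin n → F) (f : MvPolynomial (Fin n) F) :
    fn (trCon R v) f = fn R ((∑ i, C (v i) * X i) * f) := by
  induction f using MvPolynomial.induction_on' with
  | monomial β c =>
    rw [fn_monomial, trCon, sum_mul, map_sum, mul_sum]
    refine sum_congr rfl fun i _ => ?_
    rw [X, C_mul_monomial, monomial_mul, fn_monomial, add_comm β]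
    ring
  | add p q hp hq => rw [map_add, mul_add, map_add, hp, hq]

theorem tr_split {β : Fin n →₀ ℕ} {d : ℕ} (h : β.degree = d + 1) :
    ∃ (p : Fin n) (γ : Fin n →₀ ℕ), γ.degree = d ∧ β = γ + Finsupp.single p 1 := by
  obtain ⟨p, hp⟩ : ∃ p, β p ≠ 0 := by
    by_contra hc
    push Not at hc
    rw [show β = 0 from Finsupp.ext hc, map_zero] at h
    omega
  have e : β = (β - Finsupp.single p 1) + Finsupp.single p 1 :=
    (tsub_add_cancel_of_le (Finsupp.single_le_iff.2 (Nat.one_le_iff_ne_zero.2 hp))).symm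
  refine ⟨p, _, ?_, e⟩
  rw [e, map_add, Finsupp.degree_single] at h
  omega

theorem tr_rk1 {R : (Fin n →₀ ℕ) → F} {d : ℕ}
    (h : ∀ (i j : Fin n) (β γ : Fin n →₀ ℕ), β.degree = d + 1 → γ.degree = d + 1 →
      ∀ ω : (Fin n →₀ ℕ) → (Fin n →₀ ℕ) → F, (∀ μ ν, ω μ ν =
        R (μ + Finsupp.single i 1) * R (ν + Finsupp.single j 1) -
          R (μ + Finsupp.single j 1) * R (ν + Finsupp.single i 1)) →
      ∀ p, ω (β + Finsupp.single p 1) (γ + Finsupp.single p 1) = 0 ∧ ∀ q, q ≠ p →
        ω (β + Finsupp.single p 1) (γ + Finsupp.single q 1) +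
          ω (β + Finsupp.single q 1) (γ + Finsupp.single p 1) = 0) : Rk1 R (d + 2) := by
  intro i j μ ν hμ hν
  obtain ⟨p, β, hβ, rfl⟩ := tr_split hμ
  obtain ⟨q, γ, hγ, rfl⟩ := tr_split hν
  obtain ⟨s, δ, hδ, e⟩ := tr_split hβ
  rw [← sub_eq_zero]
  by_contra hne
  have h1 := h i j β γ hβ hγ _ (fun _ _ => rfl)
  have hqp : q ≠ p := by
    rintro rfl
    exact hne (h1 q).1
  have h2 := (h1 p).2 q hqp
  have h3 := (h1 q).1
  have h4 := (h i j (δ + Finsupp.single q 1) (δ + Finsupp.single p 1)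
    (by rw [map_add, hδ, Finsupp.degree_single]) (by rw [map_add, hδ, Finsupp.degree_single]) _
    (fun _ _ => rfl) s).1
  rw [add_right_comm δ _ (Finsupp.single s 1), add_right_comm δ _ (Finsupp.single s 1), ← e] at h4
  have h5 : R (β + Finsupp.single q 1 + Finsupp.single i 1) = 0 := by
    refine (mul_eq_zero.1 ?_).resolve_right hne
    linear_combination R (β + Finsupp.single p 1 + Finsupp.single i 1) * h3 -
      R (γ + Finsupp.single q 1 + Finsupp.single i 1) * h4
  have h6 : R (β + Finsupp.single q 1 + Finsupp.single j 1) = 0 := by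
    refine (mul_eq_zero.1 ?_).resolve_right hne
    linear_combination R (β + Finsupp.single p 1 + Finsupp.single j 1) * h3 -
      R (γ + Finsupp.single q 1 + Finsupp.single j 1) * h4
  rw [h5, h6, zero_mul, zero_mul, sub_zero, add_zero] at h2
  exact hne h2

variable {K : Type u} [Field K] [Algebra K F] {T : Type}

theorem tr_block (l : T → Fin n → F) (s : Finset T) : ∀ (R : (Fin n →₀ ℕ) → F) (B : Finset F),
    (∀ β, R β ∈ trCl K (B : Set F)) → (∀ i, fn R (X i * ∏ t ∈ s, ∑ p, C (l t p) * X p) = 0) →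
    TrExt K B (⋃ t ∈ s, Set.range (l t)) (n * s.card) 0 ∧
    ((∃ β : Fin n →₀ ℕ, β.degree = s.card + 1 ∧ R β ≠ 0) →
      1 ≤ s.card ∧ TrExt K B (⋃ t ∈ s, Set.range (l t)) (n * s.card) 1) ∧
    (¬ Rk1 R s.card → TrExt K B (⋃ t ∈ s, Set.range (l t)) (n * s.card) 2) := by
  classical
  induction s using Finset.induction_on with
  | empty =>
    intro R B _ h0
    refine ⟨⟨B, fun y hy => trCl_sub hy, by simp, by simp⟩, ?_, fun h => absurd ?_ h⟩
    · rintro ⟨β, hβ, hne⟩
      obtain ⟨p, γ, hγ, rfl⟩ := tr_split hβ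
      have := h0 p
      rw [prod_empty, mul_one, X, fn_monomial, one_mul] at this
      rw [(Finsupp.degree_eq_zero_iff γ).1 hγ, zero_add] at hne
      exact absurd this hne
    · intro i j β γ hβ hγ
      rw [(Finsupp.degree_eq_zero_iff β).1 hβ, (Finsupp.degree_eq_zero_iff γ).1 hγ, mul_comm]
  | insert t s ht ih =>
    intro R B hR h0
    have ih' := fun (B' : Finset F) (h1 : ∀ y ∈ B, y ∈ trCl K (B' : Set F))
        (h2 : ∀ y ∈ Set.range (l t), y ∈ trCl K (B' : Set F)) =>
      ih (trCon R (l t)) B' (fun β => Subalgebra.sum_mem _ fun p _ =>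
        mul_mem (trCl_mono h1 (hR _)) (h2 _ ⟨p, rfl⟩)) fun i => by
          rw [fn_trCon, ← h0 i, prod_insert ht, mul_left_comm]
    rw [set_biUnion_insert, card_insert_of_notMem ht, Nat.mul_succ, add_comm _ n]
    refine ⟨(trExt_zero B _).trans fun B' h1 h2 => (ih' B' h1 h2).1, ?_, fun h => ?_⟩
    · rintro ⟨β, hβ, hne⟩
      refine ⟨by omega, ?_⟩
      obtain ⟨p, γ, hγ, rfl⟩ := tr_split hβ
      by_cases hc : trCon R (l t) γ = 0
      · exact (trExt_one (u := fun q => R (γ + Finsupp.single q 1)) (fun q => hR _) hne hc).trans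
          fun B' h1 h2 => (ih' B' h1 h2).1
      · exact (trExt_zero B _).trans fun B' h1 h2 => ((ih' B' h1 h2).2.1 ⟨γ, hγ, hc⟩).2
    · by_cases hk : Rk1 (trCon R (l t)) s.card
      swap
      · exact (trExt_zero B _).trans fun B' h1 h2 => (ih' B' h1 h2).2.2 hk
      by_cases hc : ∃ β : Fin n →₀ ℕ, β.degree = s.card + 1 ∧ trCon R (l t) β ≠ 0
      · refine TrExt.trans (a := 1) (a' := 1) ?_ fun B' h1 h2 => ((ih' B' h1 h2).2.1 hc).2
        by_contra hn
        obtain ⟨B', h1, h2, -⟩ := trExt_zero (K := K) B (l t)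
        obtain ⟨d, hd⟩ : ∃ d, s.card = d + 1 :=
          ⟨s.card - 1, by have := ((ih' B' h1 h2).2.1 hc).1; omega⟩
        rw [hd] at h hk
        refine h (tr_rk1 fun i j β γ hβ hγ ω hω => trExt_quad hn
          (a := fun p q => ω (β + Finsupp.single p 1) (γ + Finsupp.single q 1)) (fun p q => ?_) ?_)
        · rw [hω]
          exact sub_mem (mul_mem (hR _) (hR _)) (mul_mem (hR _) (hR _))
        · have e := sub_eq_zero.2 (hk i j β γ hβ hγ)
          rw [trCon, trCon, trCon, trCon, sum_mul_sum, sum_mul_sum, ← sum_sub_distrib] at e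
          rw [← e]
          refine sum_congr rfl fun p _ => ?_
          rw [← sum_sub_distrib]
          refine sum_congr rfl fun q _ => ?_
          rw [hω, add_right_comm β _ (Finsupp.single i 1), add_right_comm β _ (Finsupp.single j 1),
            add_right_comm γ _ (Finsupp.single i 1), add_right_comm γ _ (Finsupp.single j 1)]
          ring
      · push Not at hc
        unfold Rk1 at h
        push Not at h
        obtain ⟨i, j, β, γ, hβ, hγ, hne⟩ := h
        exact (trExt_two (a := fun p => R (β + Finsupp.single p 1))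
          (b := fun p => R (γ + Finsupp.single p 1)) (fun _ => hR _) (fun _ => hR _) hne (hc β hβ)
          (hc γ hγ)).trans fun B' h1 h2 => (ih' B' h1 h2).1

theorem tr_blocks [Fintype T] {S : Type} (l : S → T → Fin n → F) (R : (Fin n →₀ ℕ) → F)
    (hk : ¬ Rk1 R (Fintype.card T)) (h0 : ∀ s i, fn R (X i * ∏ t, ∑ p, C (l s t p) * X p) = 0)
    (B : Finset F) (hR : ∀ β, R β ∈ trCl K (B : Set F)) (A : Finset S) :
    TrExt K B (⋃ s ∈ A, ⋃ t, Set.range (l s t)) (A.card * (n * Fintype.card T)) (2 * A.card) := by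
  classical
  induction A using Finset.induction_on with
  | empty => exact ⟨B, fun y hy => trCl_sub hy, by simp, by simp⟩
  | insert s A hs ih =>
    rw [set_biUnion_insert, card_insert_of_notMem hs, Nat.succ_mul, Nat.mul_succ, Set.union_comm]
    refine ih.trans fun B' h1 _ => ?_
    simpa using (tr_block (l s) univ R B' (fun β => trCl_mono h1 (hR β)) (h0 s)).2.2 hk

end contr

theorem exists_mem_span {K : Type u} [Field K] {W : Type} {n r : ℕ} {S T : Type} [Fintype S]
    [Fintype T] (lam : Fin r → (Fin n →₀ ℕ) → K)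
    (hlam : ∀ (F : Type u) [Field F] [Algebra K F] (c : Fin r → F), c ≠ 0 →
      ¬ Rk1 (fun β => ∑ j, c j * algebraMap K F (lam j β)) (Fintype.card T))
    (x : S → T → Fin n → W) (χ : Fin r → W) (σ : Finset W)
    (hσ : ∀ v ∈ σ, (∃ s t i, v = x s t i) ∨ ∃ j, v = χ j)
    (hcard : r + Fintype.card S * (n * Fintype.card T) < σ.card + 2 * Fintype.card S)
    (j₀ : Fin r) :
    ∃ (g : MvPolynomial W K) (m : ℕ), g ≠ 0 ∧ g ∈ supported K (σ : Set W) ∧
      X (χ j₀) ^ m * g ∈ Ideal.span (Set.range fun p : S × Fin n =>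
        fn (fun β => ∑ j, (X (χ j) : MvPolynomial W K) * C (lam j β))
          (X p.2 * ∏ t, ∑ i, C (X (x p.1 t i)) * X i)) := by
  classical
  by_contra hcon
  let M : Submonoid (MvPolynomial W K) :=
    { carrier := {f | ∃ (g : MvPolynomial W K) (m : ℕ), g ≠ 0 ∧ g ∈ supported K (σ : Set W) ∧
        X (χ j₀) ^ m * g = f}
      one_mem' := ⟨1, 0, one_ne_zero, one_mem _, by simp⟩
      mul_mem' := by
        rintro _ _ ⟨g, m, h1, h2, rfl⟩ ⟨g', m', h1', h2', rfl⟩
        exact ⟨g * g', m + m', mul_ne_zero h1 h1', mul_mem h2 h2', by ring⟩ }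
  obtain ⟨P, hP, hIP, hd⟩ := Ideal.exists_le_prime_disjoint _ M (Set.disjoint_left.2 (by
    rintro _ hf ⟨g, m, h1, h2, rfl⟩
    exact hcon ⟨g, m, h1, h2, hf⟩))
  let F := FractionRing (MvPolynomial W K ⧸ P)
  let φ : MvPolynomial W K →ₐ[K] F :=
    (IsScalarTower.toAlgHom K (MvPolynomial W K ⧸ P) F).comp (Ideal.Quotient.mkₐ K P)
  have hφ : ∀ f, φ f = 0 ↔ f ∈ P := fun f =>
    (FaithfulSMul.algebraMap_eq_zero_iff (R := MvPolynomial W K ⧸ P) (A := F)).trans
      Ideal.Quotient.eq_zero_iff_mem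
  have hM : ∀ f ∈ M, φ f ≠ 0 := fun f hf e => Set.disjoint_left.1 hd ((hφ f).1 e) hf
  have hind : AlgebraicIndependent K fun v : (σ : Set W) => φ (X v.1) := by
    rw [algebraicIndependent_iff]
    intro p hp
    by_contra hne
    refine hM (rename Subtype.val p) ⟨rename Subtype.val p, 0,
      fun e => hne (rename_injective _ Subtype.val_injective (e.trans (map_zero _).symm)), ?_,
      by simp⟩ ?_
    · rw [supported_eq_range_rename]
      exact ⟨p, rfl⟩
    · rw [← hp]
      exact DFunLike.congr_fun (algHom_ext (f := φ.comp (rename Subtype.val))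
        (g := aeval fun v : (σ : Set W) => φ (X v.1)) fun v => by simp) p
  have hc : (fun j => φ (X (χ j))) ≠ 0 := fun e =>
    hM (X (χ j₀)) ⟨1, 1, one_ne_zero, one_mem _, by simp⟩ (congrFun e j₀)
  obtain ⟨B, h1, h2, h3⟩ := tr_blocks (K := K) (fun s t i => φ (X (x s t i))) _ (hlam F _ hc)
    (fun s i => by
      have e := (hφ _).2 (hIP (Ideal.subset_span ⟨(s, i), rfl⟩))
      have e' := (map_fn (φ : MvPolynomial W K →+* F) _ _).symm.trans e
      simpa [map_prod, map_sum] using e')
    (univ.image fun j => φ (X (χ j))) (fun β => Subalgebra.sum_mem _ fun j _ =>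
      mul_mem (trCl_sub (by simp)) (Subalgebra.algebraMap_mem _ _)) univ
  have h4 : (Set.range fun v : (σ : Set W) => φ (X v.1)) ⊆
      (AlgebraicIndependent.matroid K F).closure B := by
    rw [← trCl_coe]
    rintro _ ⟨v, rfl⟩
    rcases hσ v.1 v.2 with ⟨s, t, i, e⟩ | ⟨j, e⟩
    · exact h2 _ (by simp only [e, Set.mem_iUnion]; exact ⟨s, mem_univ s, t, i, rfl⟩)
    · exact h1 _ (by simp [e])
  have h5 := ((AlgebraicIndependent.matroid_indep_iff.2
    hind.to_subtype_range).encard_le_eRk_of_subset h4).trans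
      (((AlgebraicIndependent.matroid K F).eRk_closure_eq _).trans_le (Matroid.eRk_le_encard _ _))
  rw [← Set.image_univ, hind.injective.encard_image, Set.encard_univ, Set.encard_coe_eq_coe_finsetCard,
    ENat.card_eq_coe_fintype_card, Nat.cast_le] at h5
  have h6 := card_image_le (s := (univ : Finset (Fin r))) (f := fun j => φ (X (χ j)))
  simp only [card_univ, Fintype.card_fin, coe_sort_coe, Fintype.card_coe] at h3 h5 h6
  omega

end Vale.Agent.P200.Eq
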