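import Vale.Agent.P200.Eq.Core
import Vale.Agent.P200.Eq.Trdeg
import Vale.Agent.P200.Eq.Moment
import Vale.Agent.P200.Eq.Sig
import Vale.Agent.P200.Eq.BHom
import Vale.Agent.P200.Eq.KCells

open Module Finset MvPolynomial Matrix

namespace Vale.Agent.P200.Eq

universe u

variable {M a n : ℕ} [NeZero a]

theorem sum_fB_wB (s : Fin M) (g : Gp M a) : ∑ t, fB s t (wB g) = 1 := by
  simp [fB, wB]

theorem sum_fB_wtB (s : Fin M) (v : Var M a n) : ∑ t, fB s t (wtB v) = 0 := by
  obtain ⟨s', k, i⟩ := v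
  by_cases h : s = s'
  · subst h
    simp [fB, wtB, Finset.sum_sub_distrib]
  · simp [fB, wtB, h]

/-- coefficients of a numerator live where the Hilbert function lives -/
theorem coeff_support {ι V Γ : Type*} [AddCommGroup Γ] [Fintype V] (G : Gr ι V Γ) (L : Γ →+ ℤ)
    (hw : ∀ i, L (G.w i) = 1) (hwt : ∀ v, L (G.wt v) = 0)
    (𝒞 : Finset ((ι × Mon V) × Finset V)) (γ : Γ)
    (h : (∑ c ∈ 𝒞, G.cellK c).coeff γ ≠ 0) : L γ = 1 := by
  classical
  let P : ℤ → ZG Γ → Prop := fun z x => ∀ γ, x.coeff γ ≠ 0 → L γ = z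
  have hadd : ∀ z x y, P z x → P z y → P z (x + y) := by
    intro z x y hx hy γ hγ
    by_cases h1 : x.coeff γ = 0
    · refine hy γ fun h2 => hγ ?_
      simp [h1, h2]
    · exact hx γ h1
  have hq : ∀ δ, P (L δ) (q δ) := by
    intro δ γ hγ
    by_contra hne
    refine hγ ?_
    rw [q, AddMonoidAlgebra.coeff_single, Finsupp.single_eq_of_ne]
    rintro rfl
    exact hne rfl
  have hmul : ∀ z x δ, L δ = 0 → P z x → P z (x * (1 - q δ)) := by
    intro z x δ hδ hx γ hγ
    rw [mul_comm, ← act_coeff, act_one_sub_q] at hγ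
    by_cases h1 : x.coeff γ = 0
    · have h2 : x.coeff (γ - δ) ≠ 0 := fun h2 => hγ (by rw [h1, h2, sub_zero])
      have := hx _ h2
      rwa [map_sub, hδ, sub_zero] at this
    · exact hx γ h1
  have hcell : ∀ c, P 1 (G.cellK c) := by
    intro c
    have h1 : L (G.deg c.1) = 1 := by
      rw [Gr.deg, map_add, hw, Finsupp.weight_apply, Finsupp.sum, map_sum]
      simp [hwt]
    rw [Gr.cellK]
    generalize (univ \ c.2 : Finset V) = s
    induction s using Finset.induction_on with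
    | empty => rw [Finset.prod_empty, mul_one, ← h1]; exact hq _
    | insert v s hv ih =>
      rw [Finset.prod_insert hv, mul_comm (1 - q _), ← mul_assoc]
      exact hmul _ _ _ (hwt v) ih
  have hsum : ∀ 𝒟 : Finset ((ι × Mon V) × Finset V), P 1 (∑ c ∈ 𝒟, G.cellK c) := by
    intro 𝒟
    induction 𝒟 using Finset.induction_on with
    | empty => intro γ hγ; simp at hγ
    | insert c s hc ih => rw [Finset.sum_insert hc]; exact hadd _ _ _ (hcell c) ih
  exact hsum 𝒞 γ h

theorem div_block {K E : Type u} [Field K] [DivisionRing E] [Algebra K E] {r : ℕ} (hr : r < M)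
    (lam : Fin r → (Fin n →₀ ℕ) → K)
    (hlam : ∀ (F : Type u) [Field F] [Algebra K F] (c : Fin r → F), c ≠ 0 →
      ¬ Rk1 (fun β => ∑ j, c j * algebraMap K F (lam j β)) (a - 1))
    (G : Gr (Gp M a) (Var M a n) (Gam M a)) (hw : G.w = wB) (hwt : G.wt = wtB)
    {U1 U0 : Submodule (Alg E (Var M a n)) (Gp M a → Alg E (Var M a n))} (h1 : G.Graded U1)
    (h0 : G.Graded U0) (hle : U0 ≤ U1)
    (hφ : ∀ j, ∀ u ∈ U1, inc K E (Var M a n) (phi M a (lam j)) • u ∈ U0)
    (hS : ∀ s, ∃ S : (Gp M a → Alg E (Var M a n)) ≃ₗ[E] (Gp M a → Alg E (Var M a n)),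
      (∀ γ v, v ∈ G.piece E γ ↔ S v ∈ G.piece E (thB s γ)) ∧ (∀ v, v ∈ U1 ↔ S v ∈ U1) ∧
        ∀ v, v ∈ U0 ↔ S v ∈ U0)
    {k : ZG (Gam M a)} (hk : G.IsK U1 U0 k) :
    (a : ℤ) ^ (M + r) ∣ PowerSeries.coeff r (piS (dgB M a) k) := by
  classical
  have ha : 0 < a := Nat.pos_of_ne_zero (NeZero.ne a)
  have hcardT : Fintype.card {k : ZMod a // k ≠ 0} = a - 1 := by
    rw [Fintype.card_subtype_compl, ZMod.card, Fintype.card_unique]
  let Υ : Finset (Var M a n) := univ.filter fun y => y.2.1 = 0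
  have hΥ : Υ.card = M * n := by
    have : Υ = univ.map ⟨fun p : Fin M × Fin n => ((p.1, 0, p.2) : Var M a n), fun p p' h => by
        simp only [Prod.mk.injEq] at h
        exact Prod.ext h.1 h.2.2⟩ := by
      ext ⟨s, k, i⟩
      simp only [Υ, mem_filter, mem_univ, true_and, mem_map, Prod.exists]
      constructor
      · rintro rfl
        exact ⟨s, i, rfl⟩
      · rintro ⟨_, _, h⟩
        exact (congrArg (fun y : Var M a n => y.2.1) h).symm
    rw [this, card_map, card_univ, Fintype.card_prod, Fintype.card_fin, Fintype.card_fin]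
  have hcardV : Fintype.card (Var M a n) = M * n + M * (n * (a - 1)) := by
    simp only [Fintype.card_prod, Fintype.card_fin, ZMod.card]
    obtain ⟨b, rfl⟩ : ∃ b, a = b + 1 := ⟨a - 1, by omega⟩
    simp only [Nat.add_sub_cancel]
    ring
  have hdec : ∃ α k', k = α * (1 - q (-dB M a a)) ^ r + k' ∧ k' ∈ augI (Gam M a) ^ (2 * M) := by
    rcases Nat.eq_zero_or_pos r with rfl | hrpos
    · exact ⟨k, 0, by simp, Submodule.zero_mem _⟩
    have h2 : 2 ≤ n * (a - 1) := by
      have h3 := hlam K (fun _ => 1) (fun h => one_ne_zero (congrFun h ⟨0, hrpos⟩))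
      by_contra hlt
      refine h3 fun i j β γ hβ hγ => ?_
      by_cases hij : i = j
      · rw [hij]
      · have hn : 2 ≤ n := by
          have hi := i.2
          have hj := j.2
          have : (i : ℕ) ≠ j := fun h => hij (Fin.ext h)
          omega
        have ha1 : a - 1 = 0 := by
          by_contra hne
          exact hlt (hn.trans (Nat.le_mul_of_pos_right n (Nat.pos_of_ne_zero hne)))
        rw [ha1, Finsupp.degree_eq_zero_iff] at hβ hγ
        rw [hβ, hγ, mul_comm]
    have h3 : 2 * M ≤ M * (n * (a - 1)) := by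
      rw [mul_comm 2 M]
      exact Nat.mul_le_mul_left M h2
    refine core (K := K) G (dgB M a + (a : ℤ) • hB M a) (hB M a) (0, 0, 1) (dB M a a) rfl rfl
      (fun i => by rw [hw]; rfl) (fun v => by rw [hwt]; rfl) (fun v => ?_) ?_
      (fun j => phi M a (lam j)) Υ (bB lam) ?_ (bB_sum lam)
      (r + M * (n * (a - 1)) - 2 * M) (2 * M) (by rw [hΥ, hcardV]; omega) ?_ h1 h0 hle hφ hk
    · rw [hwt]
      simp [dgB, hB, wtB]
    · simp [dgB, hB, dB]
      omega
    · rintro ⟨s, t, i⟩ hy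
      have ht : t = 0 := by simpa [Υ] using hy
      subst ht
      have := bB_hom lam s i (2 • ((0, 0, 1) : Gam M a) - dB M a a)
      rw [sub_add_cancel] at this
      rw [hwt]
      exact this
    · intro σ hσ hcard j
      obtain ⟨g, m, hg, hg', hm⟩ := exists_mem_span (S := Fin M) (T := {k : ZMod a // k ≠ 0}) lam
        (by rw [hcardT]; exact hlam) (fun s t i => (Sum.inl (s, t.1, i) : Var M a n ⊕ Fin r))
        Sum.inr σ (by
          rintro (⟨s, t, i⟩ | j) hv
          · by_cases ht : t = 0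
            · subst ht
              exact absurd hv (hσ _ (by simp [Υ]))
            · exact Or.inl ⟨s, ⟨t, ht⟩, i, rfl⟩
          · exact Or.inr ⟨j, rfl⟩) (by rw [hcardT, Fintype.card_fin]; omega) j
      refine ⟨g, m, hg, hg', Ideal.span_mono ?_ hm⟩
      rintro _ ⟨⟨s, i⟩, rfl⟩
      exact ⟨(s, 0, i), by simp [Υ], rfl⟩
  obtain ⟨α, k', hk1, hk2⟩ := hdec
  obtain ⟨𝒞, h𝒞, -⟩ := exists_cells G h1 h0 hle
  refine moment (dgB M a) hr fB k α k' (-dB M a a) (by simp [dgB, dB]) (fun s t => by simp [fB, dB])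
    hk1 hk2 (fun s γ hγ => ?_) (fun s => (thB s).toEquiv) (fun s γ => ?_) (fun s γ => rfl)
    (fun s t γ => by simp [fB, thB]) (fun s s' t γ h => by simp [fB, thB, h])
  · rw [hk.unique h𝒞] at hγ
    have := coeff_support G (∑ t, fB s t) (fun g => by
      rw [hw, AddMonoidHom.finsetSum_apply]; exact sum_fB_wB s g) (fun v => by
      rw [hwt, AddMonoidHom.finsetSum_apply]; exact sum_fB_wtB s v) 𝒞 γ hγ
    rwa [AddMonoidHom.finsetSum_apply] at this
  · obtain ⟨S, hS1, hS2, hS3⟩ := hS s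
    exact hk.invariant (thB s) (piB s) (fun v => by rw [hwt]; exact thB_wtB s v) S hS1 hS2 hS3 γ

end Vale.Agent.P200.Eq
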