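import Vale.Agent.P200.Eq.Fn

open Module Finset MvPolynomial

namespace Vale.Agent.P200.Eq

universe u

theorem nr_split {n k : ℕ} (γ : Fin n →₀ ℕ) (h : γ.degree = k + 1) :
    ∃ (i : Fin n) (μ : Fin n →₀ ℕ), μ.degree = k ∧ γ = μ + Finsupp.single i 1 := by
  have h0 : γ ≠ 0 := fun h' => by simp [h'] at h
  obtain ⟨i, hi⟩ := Finsupp.ne_iff.1 h0
  have h1 : γ = (γ - Finsupp.single i 1) + Finsupp.single i 1 :=
    (tsub_add_cancel_of_le (Finsupp.single_le_iff.2 (Nat.one_le_iff_ne_zero.2 hi))).symm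
  refine ⟨i, _, ?_, h1⟩
  rw [h1, map_add, Finsupp.degree_single] at h
  omega

theorem nr_eval {K F : Type*} [Field K] [Field F] [Algebra K F] {n e : ℕ}
    {R : (Fin n →₀ ℕ) → F} (i₀ : Fin n) (η : Fin n → F)
    (h : ∀ (i : Fin n) (ν : Fin n →₀ ℕ), ν.degree = e →
      R (ν + Finsupp.single i 1) = η i * R (ν + Finsupp.single i₀ 1)) (k : ℕ) :
    ∀ (m : ℕ) (γ : Fin n →₀ ℕ), γ.degree = k → k + m = e + 1 →
      R (γ + Finsupp.single i₀ m) =
        aeval η (monomial γ (1 : K)) * R (Finsupp.single i₀ (e + 1)) := by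
  induction k with
  | zero =>
    intro m γ hγ hm
    rw [(Finsupp.degree_eq_zero_iff γ).1 hγ, ← hm]
    simp
  | succ k ih =>
    intro m γ hγ hm
    obtain ⟨i, μ, hμ, rfl⟩ := nr_split γ hγ
    rw [add_right_comm, h i _ (by rw [map_add, Finsupp.degree_single]; omega), add_assoc,
      ← Finsupp.single_add, ih (m + 1) μ hμ (by omega), monomial_add_single, pow_one, map_mul,
      aeval_X]
    ring

theorem not_rk1 {K : Type u} [Field K] {n r p e : ℕ} (w : Fin p → MvPolynomial (Fin n) K)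
    (hw : ∀ l, (w l).IsHomogeneous (e + 1))
    (hb : ∀ i, ∃ N, (X i : MvPolynomial (Fin n) K) ^ N ∈ Ideal.span (Set.range w))
    (lam : Fin r → (Fin n →₀ ℕ) → K) (hkill : ∀ j l, fn (lam j) (w l) = 0)
    (β : Fin r → (Fin n →₀ ℕ)) (hβ : ∀ j, (β j).degree = e + 1)
    (hdual : ∀ j j', lam j (β j') = if j = j' then 1 else 0)
    (F : Type u) [Field F] [Algebra K F] (c : Fin r → F) (hc : c ≠ 0) :
    ¬ Rk1 (fun γ => ∑ j, c j * algebraMap K F (lam j γ)) e := by
  intro hR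
  obtain ⟨R, hRd⟩ : ∃ R : (Fin n →₀ ℕ) → F, ∀ γ, R γ = ∑ j, c j * algebraMap K F (lam j γ) :=
    ⟨_, fun _ => rfl⟩
  rw [← funext hRd] at hR
  obtain ⟨j₀, hj₀⟩ := Function.ne_iff.1 hc
  have h1 : R (β j₀) ≠ 0 := by
    rw [hRd, sum_eq_single j₀ (fun j _ hj => by rw [hdual, if_neg hj, map_zero, mul_zero])
      (fun h => absurd (mem_univ _) h), hdual, if_pos rfl, map_one, mul_one]
    exact hj₀
  obtain ⟨i₀, μ, hμ, hβ₀⟩ := nr_split (β j₀) (hβ j₀)
  have h2 : R (μ + Finsupp.single i₀ 1) ≠ 0 := hβ₀ ▸ h1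
  obtain ⟨η, hη⟩ : ∃ η : Fin n → F,
      ∀ i, η i = R (μ + Finsupp.single i 1) / R (μ + Finsupp.single i₀ 1) := ⟨_, fun _ => rfl⟩
  have h3 : ∀ γ : Fin n →₀ ℕ, γ.degree = e + 1 →
      R γ = aeval η (monomial γ (1 : K)) * R (Finsupp.single i₀ (e + 1)) := fun γ hγ => by
    have := nr_eval (K := K) (R := R) i₀ η (fun i ν hν => by
      rw [hη, div_mul_eq_mul_div, eq_div_iff h2, hR i i₀ ν μ hν hμ, mul_comm]) (e + 1) 0 γ hγ rfl
    rwa [Finsupp.single_zero, add_zero] at this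
  have h4 : R (Finsupp.single i₀ (e + 1)) ≠ 0 := fun h => h1 (by rw [h3 _ (hβ j₀), h, mul_zero])
  have h5 : ∀ l, aeval η (w l) = 0 := fun l => by
    refine (mul_eq_zero.1 ?_).resolve_right h4
    have h6 : aeval η (w l) * R (Finsupp.single i₀ (e + 1)) =
        ∑ γ ∈ (w l).support, algebraMap K F (coeff γ (w l)) * R γ := by
      conv_lhs => rw [(w l).as_sum, map_sum, sum_mul]
      refine sum_congr rfl fun γ hγ => ?_
      rw [h3 γ (by rw [Finsupp.degree_eq_weight_one]; exact hw l (mem_support_iff.1 hγ)),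
        ← mul_assoc, ← aeval_C η, ← map_mul, C_mul_monomial, mul_one]
    rw [h6]
    simp only [hRd, mul_sum]
    rw [sum_comm]
    refine sum_eq_zero fun j _ => ?_
    have h7 := congrArg (fun x => c j * algebraMap K F x) ((fn_eq_sum _ _).symm.trans (hkill j l))
    simp only [map_sum, map_mul, map_zero, mul_zero, mul_sum] at h7
    rw [← h7]
    exact sum_congr rfl fun γ _ => mul_left_comm _ _ _
  obtain ⟨N, hN⟩ := hb i₀
  have h8 : Ideal.span (Set.range w) ≤ RingHom.ker (aeval η : MvPolynomial (Fin n) K →ₐ[K] F) :=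
    Ideal.span_le.2 (Set.range_subset_iff.2 h5)
  have h9 := h8 hN
  rw [RingHom.mem_ker, map_pow, aeval_X, hη, div_self h2, one_pow] at h9
  exact one_ne_zero h9

theorem nr_basis {K V ι : Type*} [Field K] [AddCommGroup V] [Module K V] [Finite ι] {p : ℕ}
    (w : Fin p → V) (hli : LinearIndependent K w) (v : ι → V) :
    ∃ (r : ℕ) (β : Fin r → ι), LinearIndependent K (Sum.elim w (v ∘ β)) ∧
      ∀ i, ∃ c : Fin p ⊕ Fin r → K, ∑ x, c x • Sum.elim w (v ∘ β) x = v i := by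
  obtain ⟨κ, a, ha, h1, h2⟩ := exists_linearIndependent' K
    (fun i => (Submodule.span K (Set.range w)).mkQ (v i))
  have : Finite κ := Finite.of_injective a ha
  obtain ⟨r, ⟨ε⟩⟩ := Finite.exists_equiv_fin κ
  refine ⟨r, a ∘ ε.symm, (linearIndependent_span hli).sumElim_of_quotient _
    (h2.comp ε.symm ε.symm.injective), fun i => ?_⟩
  have h3 : (Submodule.span K (Set.range w)).mkQ (v i) ∈ Submodule.span K
      (Set.range fun j => (Submodule.span K (Set.range w)).mkQ (v (a (ε.symm j)))) := by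
    have h4 := h1.ge (Submodule.subset_span ⟨i, rfl⟩)
    rwa [← ε.symm.surjective.range_comp] at h4
  obtain ⟨c, hc⟩ := (Submodule.mem_span_range_iff_exists_fun K).1 h3
  simp only [← map_smul] at hc
  rw [← map_sum, Submodule.mkQ_apply, Submodule.mkQ_apply, eq_comm, Submodule.Quotient.eq] at hc
  obtain ⟨d, hd⟩ := (Submodule.mem_span_range_iff_exists_fun K).1 hc
  refine ⟨Sum.elim d c, ?_⟩
  rw [Fintype.sum_sum_type]
  exact eq_sub_iff_add_eq.1 hd

/-- dual bases adapted to the span of `w` -/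
theorem exists_dual {K : Type u} [Field K] {n p a : ℕ} (w : Fin p → MvPolynomial (Fin n) K)
    (hw : ∀ l, (w l).IsHomogeneous a) (hli : LinearIndependent K w) :
    ∃ (r : ℕ) (lam : Fin r → (Fin n →₀ ℕ) → K) (θ : Fin p → (Fin n →₀ ℕ) → K)
      (β : Fin r → (Fin n →₀ ℕ)),
      (∀ j, (β j).degree = a) ∧ (∀ j j', lam j (β j') = if j = j' then 1 else 0) ∧
      (∀ l j, θ l (β j) = 0) ∧ (∀ j l, fn (lam j) (w l) = 0) ∧
      (∀ l l', fn (θ l) (w l') = if l = l' then 1 else 0) ∧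
      ∀ γ : Fin n →₀ ℕ, γ.degree = a → monomial γ (1 : K) =
        ∑ l, θ l γ • w l + ∑ j, lam j γ • monomial (β j) 1 := by
  have _ := hw
  have : Finite {γ : Fin n →₀ ℕ | γ.degree = a} := (Finsupp.finite_of_degree_eq a).to_subtype
  obtain ⟨r, β, h1, h2⟩ := nr_basis w hli
    (fun γ : {γ : Fin n →₀ ℕ | γ.degree = a} => monomial γ.1 (1 : K))
  obtain ⟨v, hv⟩ : ∃ v : Fin p ⊕ Fin r → MvPolynomial (Fin n) K, v = Sum.elim w
    ((fun γ : {γ : Fin n →₀ ℕ | γ.degree = a} => monomial γ.1 (1 : K)) ∘ β) := ⟨_, rfl⟩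
  rw [← hv] at h1 h2
  have v1 : ∀ l, w l = v (Sum.inl l) := fun l => by rw [hv]; rfl
  have v2 : ∀ j, monomial (β j).1 (1 : K) = v (Sum.inr j) := fun j => by rw [hv]; rfl
  obtain ⟨g, hg⟩ := (Fintype.linearCombination K v).exists_leftInverse_of_injective
    (LinearMap.ker_eq_bot.2 (linearIndependent_iff_injective_fintypeLinearCombination.1 h1))
  have g1 : ∀ c : Fin p ⊕ Fin r → K, g (∑ x, c x • v x) = c := fun c => LinearMap.congr_fun hg c
  have g2 : ∀ x y, g (v x) y = if y = x then 1 else 0 := fun x y => by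
    have := g1 (Pi.single x 1)
    rw [← Fintype.linearCombination_apply, Fintype.linearCombination_apply_single, one_smul] at this
    rw [this, Pi.single_apply]
  have g3 : ∀ y q, fn (fun γ => g (monomial γ 1) y) q = g q y := fun y q => by
    induction q using MvPolynomial.induction_on' with
    | monomial γ c =>
      rw [fn_monomial, ← smul_eq_mul, ← Pi.smul_apply, ← map_smul, smul_monomial, smul_eq_mul,
        mul_one]
    | add q q' hq hq' => rw [map_add, map_add, Pi.add_apply, hq, hq']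
  refine ⟨r, fun j γ => g (monomial γ 1) (Sum.inr j), fun l γ => g (monomial γ 1) (Sum.inl l),
    fun j => (β j).1, fun j => (β j).2, fun j j' => ?_, fun l j => ?_, fun j l => ?_,
    fun l l' => ?_, fun γ hγ => ?_⟩
  · simp only [v2, g2, Sum.inr.injEq]
  · simp only [v2, g2, reduceCtorEq, if_false]
  · rw [g3, v1, g2, if_neg Sum.inr_ne_inl]
  · simp only [g3, v1, g2, Sum.inl.injEq]
  · obtain ⟨c, hc⟩ := h2 ⟨γ, hγ⟩
    have hc' : monomial γ (1 : K) = ∑ x, c x • v x := hc.symm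
    simp only [v1, v2, hc', g1]
    exact Fintype.sum_sum_type _

end Vale.Agent.P200.Eq
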