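import Mathlib

/-! P200 Eq, task Ore: the associated graded quotient is a domain of polynomial growth, hence a
left Ore domain; its ring of fractions is the required division ring. -/

open Module Finset

namespace Vale.Agent.P200.Eq

universe u

theorem ore_exp (c e m : ℕ) : ∃ k : ℕ, c * (k * e + 1) ^ m < 2 ^ k := by
  have h := tendsto_pow_const_div_const_pow_of_one_lt m (r := 2) one_lt_two
  have hc : (0 : ℝ) < c * (e + 1) ^ m + 1 := by positivity
  obtain ⟨k, hk, hk1⟩ := ((h.eventually_lt_const (inv_pos.2 hc)).and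
    (Filter.eventually_ge_atTop 1)).exists
  refine ⟨k, ?_⟩
  rw [div_lt_iff₀ (by positivity), inv_mul_eq_div, lt_div_iff₀ hc] at hk
  have h1 : k ^ m * (c * (e + 1) ^ m + 1) < 2 ^ k := by exact_mod_cast hk
  have h2 : (k * e + 1) ^ m ≤ k ^ m * (e + 1) ^ m := by
    rw [← mul_pow]
    exact Nat.pow_le_pow_left (by nlinarith) m
  calc c * (k * e + 1) ^ m ≤ c * (k ^ m * (e + 1) ^ m) := Nat.mul_le_mul_left c h2
    _ ≤ k ^ m * (c * (e + 1) ^ m + 1) := by nlinarith [Nat.zero_le (k ^ m)]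
    _ < 2 ^ k := h1

theorem ore_of_growth {E S : Type*} [DivisionRing E] [Ring S] [Nontrivial S] [NoZeroDivisors S]
    [Module E S] [IsScalarTower E S S] (F : ℕ → Submodule E S) [∀ d, Module.Finite E (F d)]
    (h1 : (1 : S) ∈ F 0) (hr : ∀ r : S, ∃ n, ∀ e, n ≤ e → ∀ d, ∀ u ∈ F d, u * r ∈ F (d + e))
    (N m : ℕ) (hgr : ∀ d, finrank E (F d) ≤ N * (d + 1) ^ m) (r s : S) (hs : s ≠ 0) :
    ∃ r' s' : S, s' ≠ 0 ∧ s' * r = r' * s := by
  by_contra hcon
  push Not at hcon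
  obtain ⟨n, hn⟩ := hr r
  obtain ⟨n', hn'⟩ := hr s
  have hstep : ∀ d, 2 * finrank E (F d) ≤ finrank E (F (d + (n + n'))) := by
    intro d
    let L : (F d × F d) →ₗ[E] F (d + (n + n')) := LinearMap.codRestrict _
      ((LinearMap.mulRight E r ∘ₗ (F d).subtype).coprod
        (-LinearMap.mulRight E s ∘ₗ (F d).subtype)) fun x =>
      add_mem (hn _ (by omega) d _ x.1.2) (neg_mem (hn' _ (by omega) d _ x.2.2))
    have hL : Function.Injective L := by
      refine (injective_iff_map_eq_zero L).2 fun x hx => ?_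
      have h2 : (x.1 : S) * r + -((x.2 : S) * s) = 0 := congrArg Subtype.val hx
      have h3 : (x.1 : S) = 0 := by
        by_contra h4
        exact hcon x.2 x.1 h4 (add_neg_eq_zero.1 h2)
      rw [h3, zero_mul, zero_add, neg_eq_zero, mul_eq_zero, or_iff_left hs] at h2
      exact Prod.ext (Subtype.ext h3) (Subtype.ext h2)
    have := LinearMap.finrank_le_finrank_of_injective hL
    rwa [finrank_prod, ← two_mul] at this
  have hpow : ∀ k, 2 ^ k ≤ finrank E (F (k * (n + n'))) := by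
    intro k
    induction k with
    | zero =>
      have : Nontrivial (F 0) := ⟨⟨1, h1⟩, 0, fun h => one_ne_zero (congrArg Subtype.val h)⟩
      rw [zero_mul]
      exact finrank_pos
    | succ k ih =>
      have := hstep (k * (n + n'))
      rw [Nat.succ_mul, pow_succ]
      omega
  obtain ⟨k, hk⟩ := ore_exp N (n + n') m
  exact absurd ((hpow k).trans (hgr _)) (not_le.2 hk)

section

variable {E R : Type u} [DivisionRing E] [Ring R] [Module E R] (C J : ℕ → Submodule E R)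

open Polynomial in
theorem ore_gr (hC1 : (1 : R) ∈ C 0)
    (hmul : ∀ d e, ∀ x ∈ C d, ∀ y ∈ C e, x * y ∈ C (d + e))
    (hJl : ∀ d e, ∀ x ∈ J d, ∀ y ∈ C e, x * y ∈ J (d + e))
    (hJr : ∀ d e, ∀ x ∈ C d, ∀ y ∈ J e, x * y ∈ J (d + e))
    (hprime : ∀ d e, ∀ x ∈ C d, ∀ y ∈ C e, x * y ∈ J (d + e) → x ∈ J d ∨ y ∈ J e)
    (h1 : (1 : R) ∉ J 0) :
    ∃ (S : Type u) (_ : Ring S) (_ : Nontrivial S) (_ : NoZeroDivisors S) (Ψ : ℕ → R → S),
      (∀ d, ∀ x ∈ C d, ∀ y ∈ C d, Ψ d (x + y) = Ψ d x + Ψ d y) ∧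
      (∀ d e, ∀ x ∈ C d, ∀ y ∈ C e, Ψ (d + e) (x * y) = Ψ d x * Ψ e y) ∧
      Ψ 0 1 = 1 ∧ (∀ d, ∀ x ∈ C d, Ψ d x = 0 ↔ x ∈ J d) ∧
      ∀ s : S, ∃ (n : ℕ) (x : ℕ → R), (∀ i, x i ∈ C i) ∧ s = ∑ i ∈ range n, Ψ i (x i) := by
  classical
  have hmon : ∀ (K : ℕ → Submodule E R) (d : ℕ) (x : R),
      (∀ i, (monomial d x).coeff i ∈ K i) ↔ x ∈ K d := fun K d x =>
    ⟨fun h => by simpa using h d, fun h i => by
      rw [coeff_monomial]
      split_ifs with hi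
      exacts [hi ▸ h, zero_mem _]⟩
  let A : Subring R[X] :=
    { carrier := {p | ∀ d, p.coeff d ∈ C d}
      mul_mem' := fun {p q} hp hq d => by
        rw [coeff_mul]
        exact sum_mem fun x hx => HasAntidiagonal.mem_antidiagonal.1 hx ▸ hmul _ _ _ (hp _) _ (hq _)
      one_mem' := (hmon C 0 1).2 hC1
      add_mem' := fun {p q} hp hq d => by
        rw [coeff_add]
        exact add_mem (hp d) (hq d)
      zero_mem' := fun d => zero_mem _
      neg_mem' := fun {p} hp d => by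
        rw [coeff_neg]
        exact neg_mem (hp d) }
  let I : Ideal A :=
    { carrier := {p | ∀ d, p.1.coeff d ∈ J d}
      add_mem' := fun {p q} hp hq d => by
        rw [Subring.coe_add, coeff_add]
        exact add_mem (hp d) (hq d)
      zero_mem' := fun d => zero_mem _
      smul_mem' := fun q p hp d => by
        rw [smul_eq_mul, Subring.coe_mul, coeff_mul]
        exact sum_mem fun x hx => HasAntidiagonal.mem_antidiagonal.1 hx ▸ hJr _ _ _ (q.2 _) _ (hp _) }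
  have : I.IsTwoSided := ⟨fun {p} q hp d => by
    rw [Subring.coe_mul, coeff_mul]
    exact sum_mem fun x hx => HasAntidiagonal.mem_antidiagonal.1 hx ▸ hJl _ _ _ (hp _) _ (q.2 _)⟩
  have hI : I.IsPrime := by
    refine ⟨(Ideal.ne_top_iff_one I).2 fun h => h1 ((hmon J 0 1).1 h), fun {p q} h => ?_⟩
    by_contra hcon
    obtain ⟨hp, hq⟩ := not_or.1 hcon
    have hp' : ∃ d, p.1.coeff d ∉ J d := not_forall.1 hp
    have hq' : ∃ d, q.1.coeff d ∉ J d := not_forall.1 hq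
    have h2 := h (Nat.find hp' + Nat.find hq')
    rw [Subring.coe_mul, coeff_mul, ← add_sum_erase _ _
      (HasAntidiagonal.mem_antidiagonal.2 rfl : (Nat.find hp', Nat.find hq') ∈ _)] at h2
    refine (hprime _ _ _ (p.2 _) _ (q.2 _) ((Submodule.add_mem_iff_left _ ?_).1 h2)).elim
      (Nat.find_spec hp') (Nat.find_spec hq')
    refine sum_mem fun x hx => ?_
    obtain ⟨h3, h4⟩ := mem_erase.1 hx
    rw [HasAntidiagonal.mem_antidiagonal] at h4
    rw [Ne, Prod.ext_iff] at h3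
    rw [← h4]
    rcases lt_or_ge x.1 (Nat.find hp') with h5 | h5
    · exact hJl _ _ _ (not_not.1 (Nat.find_min hp' h5)) _ (q.2 _)
    · exact hJr _ _ _ (p.2 _) _ (not_not.1 (Nat.find_min hq' (by omega)))
  let Ψ : ℕ → R → A ⧸ I := fun d x =>
    if h : x ∈ C d then Ideal.Quotient.mk I ⟨monomial d x, (hmon C d x).2 h⟩ else 0
  have hΨ : ∀ d x (h : x ∈ C d), Ψ d x = Ideal.Quotient.mk I ⟨monomial d x, (hmon C d x).2 h⟩ :=
    fun d x h => dif_pos h
  refine ⟨A ⧸ I, inferInstance, Ideal.Quotient.nontrivial_iff.2 hI.1, inferInstance, Ψ,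
    fun d x hx y hy => ?_, fun d e x hx y hy => ?_, ?_, fun d x hx => ?_, fun s => ?_⟩
  · rw [hΨ _ _ hx, hΨ _ _ hy, hΨ _ _ (add_mem hx hy), ← RingHom.map_add]
    exact congrArg _ (Subtype.ext (map_add _ x y))
  · rw [hΨ _ _ hx, hΨ _ _ hy, hΨ _ _ (hmul _ _ _ hx _ hy), ← RingHom.map_mul]
    exact congrArg _ (Subtype.ext (monomial_mul_monomial _ _ x y).symm)
  · exact (hΨ _ _ hC1).trans (RingHom.map_one _)
  · rw [hΨ _ _ hx, Ideal.Quotient.eq_zero_iff_mem]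
    exact hmon J d x
  · obtain ⟨p, rfl⟩ := Ideal.Quotient.mk_surjective s
    refine ⟨p.1.natDegree + 1, p.1.coeff, p.2, ?_⟩
    rw [sum_congr rfl fun i _ => hΨ i _ (p.2 i)]
    refine Eq.trans (congrArg _ (Subtype.ext ?_)) (@map_sum _ A (A ⧸ I) _ _ (A →+* A ⧸ I) _
      RingHomClass.toAddMonoidHomClass (Ideal.Quotient.mk I) _ _)
    rw [AddSubmonoidClass.coe_finsetSum]
    exact p.1.as_sum_range

theorem ore_cond (j : E →+* R) (hj : ∀ ε x, ε • x = j ε * x) (hj0 : ∀ ε, j ε ∈ C 0)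
    (hmul : ∀ d e, ∀ x ∈ C d, ∀ y ∈ C e, x * y ∈ C (d + e))
    (N m : ℕ) (hfin : ∀ d, Module.Finite E (C d)) (hgr : ∀ d, finrank E (C d) ≤ N * (d + 1) ^ m)
    {S : Type u} [Ring S] [Nontrivial S] [NoZeroDivisors S] (Ψ : ℕ → R → S)
    (hadd : ∀ d, ∀ x ∈ C d, ∀ y ∈ C d, Ψ d (x + y) = Ψ d x + Ψ d y)
    (hm : ∀ d e, ∀ x ∈ C d, ∀ y ∈ C e, Ψ (d + e) (x * y) = Ψ d x * Ψ e y) (h1 : Ψ 0 1 = 1)
    (hgen : ∀ s : S, ∃ (n : ℕ) (x : ℕ → R), (∀ i, x i ∈ C i) ∧ s = ∑ i ∈ range n, Ψ i (x i))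
    (r s : S) (hs : s ≠ 0) : ∃ r' s' : S, s' ≠ 0 ∧ s' * r = r' * s := by
  let φ : E →+* S := RingHom.mk'
    { toFun := fun ε => Ψ 0 (j ε)
      map_one' := by rw [map_one, h1]
      map_mul' := fun a b => by rw [map_mul, ← hm 0 0 _ (hj0 a) _ (hj0 b)] }
    fun a b => (congrArg (Ψ 0) (map_add j a b)).trans (hadd 0 _ (hj0 a) _ (hj0 b))
  let : Module E S := Module.compHom S φ
  have : IsScalarTower E S S := ⟨fun ε x y => mul_assoc (φ ε) x y⟩
  let ψ : ∀ d, C d →ₗ[E] S := fun d =>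
    { toFun := fun x => Ψ d x
      map_add' := fun x y => hadd d _ x.2 _ y.2
      map_smul' := fun ε x => by
        have h := hm 0 d _ (hj0 ε) _ x.2
        rw [zero_add, ← hj] at h
        exact h }
  let F : ℕ → Submodule E S := fun d => (range (d + 1)).sup fun i => LinearMap.range (ψ i)
  have hF : ∀ i d, i ≤ d → ∀ x ∈ C i, Ψ i x ∈ F d := fun i d hi x hx =>
    le_sup (f := fun i => LinearMap.range (ψ i)) (mem_range.2 (Nat.lt_succ_of_le hi))
      ⟨⟨x, hx⟩, rfl⟩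
  have hdim : ∀ d n, n ≤ d + 1 →
      finrank E ↥((range n).sup fun i => LinearMap.range (ψ i)) ≤ n * (N * (d + 1) ^ m) := by
    intro d n hn
    induction n with
    | zero => rw [range_zero, sup_empty, finrank_bot, zero_mul]
    | succ n ih =>
      rw [range_add_one, sup_insert, Nat.succ_mul, add_comm (n * _)]
      refine (Submodule.finrank_add_le_finrank_add_finrank _ _).trans (add_le_add ?_ (ih (by omega)))
      exact ((ψ n).finrank_range_le.trans (hgr n)).trans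
        (Nat.mul_le_mul_left N (Nat.pow_le_pow_left hn m))
  refine ore_of_growth F (h1 ▸ hF 0 0 le_rfl 1 (map_one j ▸ hj0 1)) (fun r => ?_) N (m + 1)
    (fun d => (hdim d _ le_rfl).trans_eq (by ring)) r s hs
  obtain ⟨n, x, hx, rfl⟩ := hgen r
  refine ⟨n, fun e he d => ?_⟩
  change F d ≤ (F (d + e)).comap (LinearMap.mulRight E _)
  refine Finset.sup_le fun i hi => ?_
  rintro _ ⟨y, rfl⟩
  change Ψ i y * _ ∈ F (d + e)
  rw [mul_sum]
  refine sum_mem fun l hl => ?_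
  rw [mem_range] at hi hl
  rw [← hm _ _ _ y.2 _ (hx l)]
  exact hF _ _ (by omega) _ (hmul _ _ _ y.2 _ (hx l))

end

open nonZeroDivisors OreLocalization in
theorem exists_ore {E R : Type u} [DivisionRing E] [Ring R] [Module E R] (j : E →+* R)
    (hj : ∀ ε x, ε • x = j ε * x) (C J : ℕ → Submodule E R) (hJC : ∀ d, J d ≤ C d)
    (hj0 : ∀ ε, j ε ∈ C 0)
    (hmul : ∀ d e, ∀ x ∈ C d, ∀ y ∈ C e, x * y ∈ C (d + e))
    (hJl : ∀ d e, ∀ x ∈ J d, ∀ y ∈ C e, x * y ∈ J (d + e))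
    (hJr : ∀ d e, ∀ x ∈ C d, ∀ y ∈ J e, x * y ∈ J (d + e))
    (hprime : ∀ d e, ∀ x ∈ C d, ∀ y ∈ C e, x * y ∈ J (d + e) → x ∈ J d ∨ y ∈ J e)
    (h1 : (1 : R) ∉ J 0) (N m : ℕ) (hfin : ∀ d, Module.Finite E (C d))
    (hgr : ∀ d, finrank E (C d) ≤ N * (d + 1) ^ m) :
    ∃ (D : Type u) (_ : DivisionRing D) (Φ : ℕ → R → D),
      (∀ d, ∀ x ∈ C d, ∀ y ∈ C d, Φ d (x + y) = Φ d x + Φ d y) ∧
      (∀ d e, ∀ x ∈ C d, ∀ y ∈ C e, Φ (d + e) (x * y) = Φ d x * Φ e y) ∧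
      Φ 0 1 = 1 ∧ (∀ d, ∀ x ∈ C d, Φ d x = 0 ↔ x ∈ J d) ∧
      ∀ y : D, (∀ d, ∀ x ∈ C d, Commute y (Φ d x)) → ∀ z, Commute y z := by
  have _ := hJC
  obtain ⟨S, _, _, _, Ψ, h2, h3, h4, h5, h6⟩ :=
    ore_gr C J (map_one j ▸ hj0 1) hmul hJl hJr hprime h1
  obtain ⟨_⟩ : Nonempty (OreSet S⁰) := nonempty_oreSet_iff_of_noZeroDivisors.2 fun r s => by
    obtain ⟨r', s', h7, h8⟩ := ore_cond C j hj hj0 hmul N m hfin hgr Ψ h2 h3 h4 h6 r s
      (nonZeroDivisors.coe_ne_zero s)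
    exact ⟨r', ⟨s', mem_nonZeroDivisors_of_ne_zero h7⟩, h8⟩
  let ι : S →+* S[S⁰⁻¹] := numeratorRingHom
  have hι : Function.Injective ι := numeratorHom_inj inf_le_left
  refine ⟨S[S⁰⁻¹], inferInstance, fun d x => ι (Ψ d x), fun d x hx y hy => ?_,
    fun d e x hx y hy => ?_, ?_, fun d x hx => ?_, fun y hy z => ?_⟩
  · exact (congrArg ι (h2 d x hx y hy)).trans (ι.map_add _ _)
  · exact (congrArg ι (h3 d e x hx y hy)).trans (ι.map_mul _ _)
  · exact (congrArg ι h4).trans ι.map_one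
  · exact (map_eq_zero_iff ι hι).trans (h5 d x hx)
  · have h7 : ∀ s, Commute y (ι s) := fun s => by
      obtain ⟨n, x, hx, rfl⟩ := h6 s
      rw [map_sum]
      exact Commute.sum_right _ _ _ fun i _ => hy i _ (hx i)
    induction z using OreLocalization.ind with | _ r s
    have h8 : ι s * (r /ₒ s) = ι r := OreLocalization.mul_cancel
    have h9 : ι s ≠ 0 := (map_ne_zero_iff ι hι).2 (nonZeroDivisors.coe_ne_zero s)
    rw [(eq_inv_mul_iff_mul_eq₀ h9).2 h8]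
    exact (h7 s).inv_right₀.mul_right (h7 r)

end Vale.Agent.P200.Eq
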