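import Vale.Agent.P200.Eq.BDefs
import Vale.Agent.P200.Eq.KCells

open Module Finset MvPolynomial Matrix

namespace Vale.Agent.P200.Eq

theorem philead_exists_aux {T : Type*} [DecidableEq T] {n : ℕ} (i0 : Fin n) (s : Finset T) :
    ∀ β : Fin n →₀ ℕ, β.degree = s.card →
      ∃ f : T → Fin n, ∑ k ∈ s, Finsupp.single (f k) 1 = β := by
  induction s using Finset.induction_on with
  | empty =>
    intro β h
    exact ⟨fun _ => i0, by rw [sum_empty, (Finsupp.degree_eq_zero_iff β).1 h]⟩
  | insert k s hk ih =>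
    intro β h
    rw [card_insert_of_notMem hk] at h
    obtain ⟨i, hi⟩ : ∃ i, β i ≠ 0 := by
      by_contra h'
      push Not at h'
      rw [show β = 0 from Finsupp.ext h', map_zero] at h
      omega
    obtain ⟨β', rfl⟩ := exists_add_of_le (show Finsupp.single i 1 ≤ β from
      Finsupp.single_le_iff.2 (Nat.one_le_iff_ne_zero.2 hi))
    rw [map_add, Finsupp.degree_single] at h
    obtain ⟨f, hf⟩ := ih β' (by omega)
    refine ⟨Function.update f k i, ?_⟩
    rw [sum_insert hk, Function.update_self, ← hf]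
    congr 1
    exact sum_congr rfl fun t ht => by rw [Function.update_of_ne (ne_of_mem_of_not_mem ht hk)]

variable {M a n : ℕ} [NeZero a] {E : Type*} [DivisionRing E]

theorem philead_exists (β : Fin n →₀ ℕ) (h : β.degree = a) : ∃ f : ZMod a → Fin n, bet f = β := by
  obtain ⟨i, -⟩ : ∃ i, β i ≠ 0 := by
    by_contra h'
    push Not at h'
    rw [show β = 0 from Finsupp.ext h', map_zero] at h
    exact NeZero.ne a h.symm
  exact philead_exists_aux i univ β (by rw [h, card_univ, ZMod.card])

theorem philead_mon_apply (s s' : Fin M) (f : ZMod a → Fin n) (k : ZMod a) (i : Fin n) :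
    mon s f (s', k, i) = if s = s' ∧ f k = i then 1 else 0 := by
  unfold mon
  rw [Finsupp.finsetSum_apply, Finset.sum_eq_single k]
  · simp [Finsupp.single_apply]
  · intro k' _ hk
    simp [hk]
  · simp

theorem philead_mon_inj {s s' : Fin M} {f f' : ZMod a → Fin n} (h : mon s f = mon s' f') :
    s = s' ∧ f = f' := by
  have key : ∀ k, s' = s ∧ f' k = f k := fun k => by
    have h1 := philead_mon_apply s s f k (f k)
    rw [h, philead_mon_apply, if_pos (⟨rfl, rfl⟩ : s = s ∧ f k = f k)] at h1
    by_contra h2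
    rw [if_neg h2] at h1
    exact zero_ne_one h1
  exact ⟨(key 0).1.symm, funext fun k => (key k).2.symm⟩

theorem philead_coeff (R : (Fin n →₀ ℕ) → E) (s : Fin M) (f : ZMod a → Fin n) :
    (phi M a R).coeff (mon s f) = R (bet f) := by
  unfold phi
  simp only [AddMonoidAlgebra.coeff_sum, Finsupp.finsetSum_apply, AddMonoidAlgebra.coeff_single]
  rw [Finset.sum_eq_single s, Finset.sum_eq_single f, Finsupp.single_eq_same]
  · intro f' _ hf
    exact Finsupp.single_eq_of_ne fun h => hf (philead_mon_inj h).2.symm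
  · simp
  · intro s' _ hs
    exact sum_eq_zero fun f' _ => Finsupp.single_eq_of_ne fun h => hs (philead_mon_inj h).1.symm
  · simp

theorem philead_supp (R : (Fin n →₀ ℕ) → E) {m : Mon (Var M a n)}
    (h : (phi M a R).coeff m ≠ 0) : ∃ s f, m = mon s f := by
  by_contra h'
  push Not at h'
  refine h ?_
  unfold phi
  simp only [AddMonoidAlgebra.coeff_sum, Finsupp.finsetSum_apply, AddMonoidAlgebra.coeff_single]
  exact sum_eq_zero fun s _ => sum_eq_zero fun f _ => Finsupp.single_eq_of_ne (h' s f)

theorem philead_weight (ω : Var M a n → ℕ) (s : Fin M) (f : ZMod a → Fin n) :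
    Finsupp.weight ω (mon s f) = ∑ k, ω (s, k, f k) := by
  unfold mon
  rw [map_sum]
  exact sum_congr rfl fun k _ => by rw [Finsupp.weight_single, one_smul]

theorem philead_lt {f g : ZMod a → Fin n} (h : f ≠ g) (c : ℕ) :
    ∑ k, (if f k = g k then c else 0) + c ≤ a * c := by
  obtain ⟨k, hk⟩ := Function.ne_iff.1 h
  have h1 : ∑ k : ZMod a, c = a * c := by rw [sum_const, card_univ, ZMod.card, smul_eq_mul]
  rw [← h1, ← add_sum_erase _ _ (mem_univ k), ← add_sum_erase _ (fun _ => c) (mem_univ k),
    if_neg hk, zero_add, add_comm]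
  exact Nat.add_le_add_left (sum_le_sum fun _ _ => by split_ifs <;> omega) _

theorem philead_num {a p j c x : ℕ} (ha : 0 < a) (hj : j < p) (hc : c ≤ a * p)
    (h : x + c ≤ a * c) : x < a * (a * p - j) := by
  obtain ⟨d, hd⟩ := Nat.exists_eq_add_of_le (hj.le.trans (Nat.le_mul_of_pos_left p ha))
  obtain ⟨b, rfl⟩ : ∃ b, a = b + 1 := ⟨a - 1, by omega⟩
  have h2 : (b + 1) * p - j = d := by omega
  have h3 := Nat.mul_le_mul_left b hc
  rw [h2]
  nlinarith

theorem phi_bound (G : Gr (Gp M a) (Var M a n) (Gam M a)) (hwt : G.wt = wtB)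
    {U : Submodule (Alg E (Var M a n)) (Gp M a → Alg E (Var M a n))} (hU : G.Graded U)
    {p : ℕ} (hp : p ≤ M) (R : Fin p → (Fin n →₀ ℕ) → E) (β : Fin p → (Fin n →₀ ℕ))
    (hβ : ∀ j, (β j).degree = a) (hR : ∀ j, R j (β j) ≠ 0)
    (htri : ∀ j j', j' < j → R j (β j') = 0)
    (ht : ∀ (j : Fin p) (g : Gp M a), Pi.single g (phi M a (R j)) ∈ U) {k : ZG (Gam M a)} (hk : G.IsK ⊤ U k) :
    Ord (piS (dgB M a) k) p ∧ PowerSeries.coeff p (piS (dgB M a) k) ≤ (a : ℤ) ^ (M + p) := by
  choose f hf using fun j => philead_exists (β j) (hβ j)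
  have ha : 0 < a := Nat.pos_of_ne_zero (NeZero.ne a)
  let ω : Var M a n → ℕ := fun v =>
    if h : v.1.1 < p then (if v.2.2 = f ⟨v.1.1, h⟩ v.2.1 then a * p - v.1.1 else 0) else 0
  have hω : ∀ (j : Fin p) (g : ZMod a → Fin n), Finsupp.weight ω (mon (Fin.castLE hp j) g) =
      ∑ k, if g k = f j k then a * p - j else 0 := fun j g => by
    rw [philead_weight]
    exact sum_congr rfl fun k _ => dif_pos j.2
  have hω' : ∀ j : Fin p, Finsupp.weight ω (mon (Fin.castLE hp j) (f j)) = a * (a * p - j) :=
    fun j => by rw [hω]; simp [ZMod.card]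
  have hap : p ≤ a * p := Nat.le_mul_of_pos_left p ha
  have h := lead_bound G (dgB M a) (fun v => by rw [hwt]; rfl) hU (a := a)
    (fun j => phi M a (R j)) ω (fun j => mon (Fin.castLE hp j) (f j))
    (fun j => by rw [philead_coeff, hf]; exact hR j) (fun j m hm => ?_) (fun i j hij => ?_)
    (fun j => by simp [mon, ZMod.card]) ht hk
  · refine ⟨h.1, h.2.trans (le_of_eq ?_)⟩
    rw [Fintype.card_fun, ZMod.card, Fintype.card_fin, pow_add]
    push_cast
    rfl
  · obtain ⟨s, g, rfl⟩ := philead_supp _ hm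
    rw [philead_coeff] at hm
    have hj := j.2
    rw [hω']
    by_cases hs : s.1 < p
    · obtain ⟨s, rfl⟩ : ∃ s' : Fin p, s = Fin.castLE hp s' := ⟨⟨s.1, hs⟩, rfl⟩
      have hs' := s.2
      by_cases hg : g = f s
      · subst hg
        rw [hf] at hm
        rcases lt_trichotomy s j with h1 | rfl | h1
        · exact absurd (htri _ _ h1) hm
        · exact Or.inl rfl
        · right
          rw [hω']
          have h2 : j.1 < s.1 := h1
          exact (Nat.mul_lt_mul_left ha).2 (by omega)
      · right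
        rw [hω]
        have h1 := philead_lt hg (a * p - s.1)
        have h2 := philead_num (x := ∑ k, if g k = f s k then a * p - s.1 else 0) ha hj
          (Nat.sub_le _ _) h1
        exact h2
    · right
      rw [philead_weight, sum_eq_zero fun k _ => dif_neg hs]
      exact Nat.mul_pos ha (by omega)
  · refine Finset.disjoint_left.2 fun ⟨s, k, i'⟩ h1 h2 => hij ?_
    rw [Finsupp.mem_support_iff, philead_mon_apply] at h1 h2
    have h3 : Fin.castLE hp i = s := by_contra fun h => h1 (if_neg fun h' => h h'.1)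
    have h4 : Fin.castLE hp j = s := by_contra fun h => h2 (if_neg fun h' => h h'.1)
    exact Fin.castLE_injective hp (h3.trans h4.symm)

end Vale.Agent.P200.Eq
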