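import Mathlib

/-! The binomial theorem for elements that commute up to a root of unity. -/

open Finset

namespace Vale.Agent.P200.Eq

universe u v

section
variable {K : Type u} [Field K] {R : Type v} [Ring R] [Algebra K R] {ζ : K} {A B : R}

/-- Gaussian binomial coefficients -/
private def qb (ζ : K) : ℕ → ℕ → K
  | _, 0 => 1
  | 0, _ + 1 => 0
  | n + 1, k + 1 => ζ ^ (k + 1) * qb ζ n (k + 1) + qb ζ n k

private theorem qb_gt : ∀ n k, n < k → qb ζ n k = 0
  | 0, _ + 1, _ => rfl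
  | n + 1, k + 1, h => by rw [qb, qb_gt n _ (by omega), qb_gt n _ (by omega), mul_zero, add_zero]

private theorem qb_self : ∀ n, qb ζ n n = 1
  | 0 => rfl
  | n + 1 => by rw [qb, qb_gt n _ n.lt_succ_self, qb_self n, mul_zero, zero_add]

private theorem qb_zero (n : ℕ) : qb ζ n 0 = 1 := by cases n <;> rfl

private theorem qb_rec : ∀ n k,
    qb ζ n (k + 1) * (1 - ζ ^ (k + 1)) * ζ ^ k = qb ζ n k * (ζ ^ k - ζ ^ n)
  | 0, 0 => by simp [qb]
  | 0, _ + 1 => by simp [qb]
  | n + 1, 0 => by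
    have := qb_rec n 0
    rw [qb_zero] at this
    rw [qb_zero, qb, qb_zero]
    linear_combination ζ * this
  | n + 1, k + 1 => by
    rw [qb, qb]
    linear_combination ζ ^ (k + 2) * qb_rec n (k + 1) + ζ * qb_rec n k

private theorem qb_comm (h : A * B = ζ • (B * A)) (k : ℕ) : A * B ^ k = ζ ^ k • (B ^ k * A) := by
  induction k with
  | zero => simp
  | succ k ih => rw [pow_succ, ← mul_assoc, ih, smul_mul_assoc, mul_assoc, h, mul_smul_comm,
      smul_smul, ← mul_assoc, ← pow_succ]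

private theorem qb_pow (h : A * B = ζ • (B * A)) (n : ℕ) :
    (A + B) ^ n = ∑ k ∈ range (n + 1), qb ζ n k • (B ^ k * A ^ (n - k)) := by
  induction n with
  | zero => simp [qb]
  | succ n ih =>
    have h1 : A * ∑ k ∈ range (n + 1), qb ζ n k • (B ^ k * A ^ (n - k)) =
        ∑ k ∈ range (n + 1 + 1), (ζ ^ k * qb ζ n k) • (B ^ k * A ^ (n + 1 - k)) := by
      rw [sum_range_succ _ (n + 1), qb_gt n _ n.lt_succ_self, mul_zero, zero_smul, add_zero, mul_sum]
      refine sum_congr rfl fun k hk => ?_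
      rw [mul_smul_comm, ← mul_assoc, qb_comm h, smul_mul_assoc, smul_smul, mul_comm (qb ζ n k),
        mul_assoc, ← pow_succ', Nat.succ_sub (mem_range_succ_iff.1 hk)]
    rw [pow_succ', ih, add_mul, h1, sum_range_succ', sum_range_succ' _ (n + 1), add_right_comm,
      mul_sum, ← sum_add_distrib, pow_zero, one_mul, qb_zero, qb_zero]
    congr 1
    refine sum_congr rfl fun k _ => ?_
    rw [qb, add_smul, mul_smul_comm, ← mul_assoc, ← pow_succ', Nat.add_sub_add_right]

private theorem qb_add {m : ℕ} (hm : m ≠ 0) (hζ : IsPrimitiveRoot ζ m)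
    (h : A * B = ζ • (B * A)) : (A + B) ^ m = A ^ m + B ^ m := by
  obtain ⟨n, rfl⟩ := Nat.exists_eq_succ_of_ne_zero hm
  have h2 : ∀ k < n, qb ζ (n + 1) k * (ζ ^ k - ζ ^ (n + 1)) = 0 → qb ζ (n + 1) (k + 1) = 0 :=
    fun k hk e => (mul_eq_zero.1 ((mul_eq_zero.1 ((qb_rec _ k).trans e)).resolve_right
      (pow_ne_zero _ (hζ.ne_zero hm)))).resolve_right
      (sub_ne_zero.2 (hζ.pow_ne_one_of_pos_of_lt k.succ_ne_zero (by omega)).symm)
  have h0 : ∀ k < n, qb ζ (n + 1) (k + 1) = 0 := fun k => by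
    induction k with
    | zero => exact fun hk => h2 0 hk (by rw [hζ.pow_eq_one, pow_zero, sub_self, mul_zero])
    | succ k ih => exact fun hk => h2 _ hk (by rw [ih (by omega), zero_mul])
  rw [qb_pow h, sum_range_succ, sum_range_succ', sum_eq_zero fun k hk => by
    rw [h0 k (mem_range.1 hk), zero_smul], qb_zero, qb_self]
  simp

end

theorem exists_zeta (K : Type u) [Field K] [IsAlgClosed K] (a : ℕ) (ha : 0 < a) :
    ∃ ζ : K, ζ ^ a = 1 ∧ ∀ (R : Type v) [Ring R] [Algebra K R] (M : ℕ) (Y : Fin M → R),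
      (∀ s t, s < t → Y s * Y t = ζ • (Y t * Y s)) → (∑ s, Y s) ^ a = ∑ s, Y s ^ a := by
  obtain ⟨p, hp⟩ := ExpChar.exists K
  obtain ⟨e, m, hm, rfl⟩ : ∃ e m : ℕ, (m : K) ≠ 0 ∧ a = m * p ^ e := by
    cases hp with
    | zero => exact ⟨0, a, Nat.cast_ne_zero.2 ha.ne', by simp⟩
    | prime hp =>
      obtain ⟨e, m, h1, h2⟩ := Nat.exists_eq_pow_mul_and_not_dvd ha.ne' p hp.ne_one
      exact ⟨e, m, fun h => h1 ((CharP.cast_eq_zero_iff K p m).1 h), h2.trans (mul_comm _ _)⟩
  have := NeZero.mk hm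
  have hm0 : m ≠ 0 := fun h => hm (by rw [h, Nat.cast_zero])
  have := NeZero.mk hm0
  obtain ⟨ζ, hζ⟩ := HasEnoughRootsOfUnity.exists_primitiveRoot K m
  refine ⟨ζ, by rw [pow_mul, hζ.pow_eq_one, one_pow], fun R _ _ M => ?_⟩
  rcases subsingleton_or_nontrivial R with _ | _
  · exact fun _ _ => Subsingleton.elim _ _
  have := expChar_of_injective_algebraMap (algebraMap K R).injective p
  induction M with
  | zero => simp [ha.ne']
  | succ M ih =>
    intro Y h
    have h1 : (∑ s : Fin M, Y s.castSucc) * Y (Fin.last M) =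
        ζ • (Y (Fin.last M) * ∑ s : Fin M, Y s.castSucc) := by
      rw [sum_mul, mul_sum, smul_sum]
      exact sum_congr rfl fun s _ => h _ _ s.castSucc_lt_last
    have h2 := qb_comm h1 m
    rw [hζ.pow_eq_one, one_smul] at h2
    rw [Fin.sum_univ_castSucc, Fin.sum_univ_castSucc, ← ih _ fun s t hst => h _ _ hst, pow_mul,
      qb_add hm0 hζ h1, add_pow_expChar_pow_of_commute _ _ (Commute.pow_left h2 m), pow_mul, pow_mul]

end Vale.Agent.P200.Eq
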