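import Vale.Agent.P200.Eq.KCells

open Module Finset MvPolynomial

namespace Vale.Agent.P200.Eq

section rho

variable {E ι V Γ : Type*} [DivisionRing E] [AddCommGroup Γ] [Fintype ι] [Fintype V]

theorem rho_exK (G : Gr ι V Γ) {U1 U0 : Submodule (Alg E V) (ι → Alg E V)}
    (h1 : G.Graded U1) (h0 : G.Graded U0) (h : U0 ≤ U1) : ∃ k, G.IsK U1 U0 k :=
  let ⟨_, hc, _⟩ := exists_cells G h1 h0 h
  ⟨_, hc⟩

theorem exists_rho (G : Gr ι V Γ) (dg : Γ →+ ℤ) (hdg : ∀ v, dg (G.wt v) = 1)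
    {U0 : Submodule (Alg E V) (ι → Alg E V)} (h0 : G.Graded U0) {r : ℕ}
    (hr : ∀ k, G.IsK ⊤ U0 k → Ord (piS dg k) r) :
    ∃ ρ : Submodule (Alg E V) (ι → Alg E V) → ℤ,
      (∀ U, G.Graded U → U0 ≤ U → ∃ k, G.IsK U U0 k ∧ ρ U = PowerSeries.coeff r (piS dg k)) ∧
      (∀ U, G.Graded U → U0 ≤ U → 0 ≤ ρ U) ∧
      (∀ U U', G.Graded U → G.Graded U' → U0 ≤ U → U ≤ U' → ρ U ≤ ρ U') ∧
      (∀ U U', G.Graded U → G.Graded U' → U0 ≤ U → U0 ≤ U' → ρ (U ⊔ U') ≤ ρ U + ρ U') ∧
      (∀ U c δ, G.Graded U → U0 ≤ U → Hom G G c δ → U0 ≤ U0.comap c →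
        ρ (U.map c ⊔ U0) + ρ (U ⊓ U0.comap c) = ρ U) ∧
      ∀ U k, G.Graded U → U0 ≤ U → G.IsK ⊤ U k → Ord (piS dg k) (r + 1) → ρ U = ρ ⊤ := by
  classical
  obtain ⟨ρ, hρ⟩ : ∃ ρ : Submodule (Alg E V) (ι → Alg E V) → ℤ,
      ∀ U k, G.IsK U U0 k → ρ U = PowerSeries.coeff r (piS dg k) :=
    ⟨fun U => if h : ∃ k, G.IsK U U0 k then PowerSeries.coeff r (piS dg h.choose) else 0,
      fun U k hk => by
        have h : ∃ k, G.IsK U U0 k := ⟨k, hk⟩
        simp only [dif_pos h]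
        rw [h.choose_spec.unique hk]⟩
  have key : ∀ U U' k, G.Graded U → G.Graded U' → U0 ≤ U → U ≤ U' → G.IsK U' U k →
      Ord (piS dg k) r ∧ 0 ≤ PowerSeries.coeff r (piS dg k) ∧
        ρ U' = PowerSeries.coeff r (piS dg k) + ρ U := by
    intro U U' k hU hU' h1 h2 hk
    obtain ⟨k1, hk1⟩ := rho_exK G (graded_top G) hU' le_top
    obtain ⟨k2, hk2⟩ := rho_exK G hU h0 h1
    have p := hk.pos hU' hU h2 dg hdg
    have p1 := hk1.pos (graded_top G) hU' le_top dg hdg
    have p2 := hk2.pos hU h0 h1 dg hdg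
    have h3 := hr _ (hk1.add (hk.add hk2))
    rw [map_add, map_add] at h3
    have h4 := p.ord_left p2 (p1.ord_both (p.add p2) h3).2
    refine ⟨h4, p r h4, ?_⟩
    rw [hρ _ _ (hk.add hk2), hρ _ _ hk2, map_add, map_add]
  have pos : ∀ U, G.Graded U → U0 ≤ U → 0 ≤ ρ U := fun U hU h => by
    obtain ⟨k, hk⟩ := rho_exK G hU h0 h
    rw [hρ _ _ hk]
    exact (key U0 U k h0 hU le_rfl h hk).2.1
  refine ⟨ρ, fun U hU h => ?_, pos, fun U U' hU hU' h1 h2 => ?_, fun U U' hU hU' h1 h2 => ?_,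
    fun U c δ hU h1 hc h2 => ?_, fun U k hU h1 hk ho => ?_⟩
  · obtain ⟨k, hk⟩ := rho_exK G hU h0 h
    exact ⟨k, hk, hρ _ _ hk⟩
  · obtain ⟨k, hk⟩ := rho_exK G hU' hU h2
    obtain ⟨-, h3, h4⟩ := key U U' k hU hU' h1 h2 hk
    linarith
  · obtain ⟨k, hk⟩ := rho_exK G hU (hU.inf hU') inf_le_left
    have hid : Hom G G (LinearMap.id : (ι → Alg E V) →ₗ[Alg E V] (ι → Alg E V)) 0 :=
      fun γ v hv => by simpa using hv
    have h3 := Gr.IsK.shift rfl hid hU hU' (k := k) (by simpa using hk)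
    rw [Submodule.map_id, q_zero, one_mul] at h3
    have h4 := (key U' _ k hU' (hU.sup hU') h2 le_sup_right h3).2.2
    have h5 := (key _ U k (hU.inf hU') hU (le_inf h1 h2) inf_le_left hk).2.2
    have h6 := pos _ (hU.inf hU') (le_inf h1 h2)
    linarith
  · have hW := hU.inf (Gr.Graded.comap hc h0)
    obtain ⟨k, hk⟩ := rho_exK G hU hW inf_le_left
    obtain ⟨h3, -, h4⟩ := key _ U k hW hU (le_inf h1 h2) inf_le_left hk
    rw [hρ _ _ (Gr.IsK.shift rfl hc hU h0 hk), map_mul, coeff_q_mul dg δ h3, h4]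
  · rw [(key U ⊤ k hU (graded_top G) h1 le_top hk).2.2, ho r (Nat.lt_succ_self r), zero_add]

theorem rho_top_bot (G : Gr ι V Γ) :
    G.IsK (⊤ : Submodule (Alg E V) (ι → Alg E V)) ⊥ (∑ i, q (G.w i)) := by
  obtain ⟨o, ho⟩ := exists_injective_nat ι
  obtain ⟨D, hD, -⟩ := exists_key (V := V) fun _ => 0
  have h1 : G.hf (⊥ : Submodule (Alg E V) (ι → Alg E V)) = 0 := by
    funext γ
    rw [Gr.hf, Submodule.restrictScalars_bot, bot_inf_eq, finrank_bot]
    rfl
  have h2 := act_cnt_coprime G (p := 0) Fin.elim0 fun i => i.elim0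
  rw [Gr.IsK, h1, sub_zero, hf_eq_cnt G ho hD (graded_top G), kc_lead_top]
  simpa using h2

theorem not_ord_top [Nonempty ι] (G : Gr ι V Γ) (dg : Γ →+ ℤ) (hdg : ∀ v, dg (G.wt v) = 1)
    {r : ℕ} (c : Fin r → (ι → Alg E V) →ₗ[Alg E V] (ι → Alg E V)) (z : Γ) (hz : 0 < dg z)
    (hc : ∀ j, Hom G G (c j) z) (hcomm : ∀ i j v, c i (c j v) = c j (c i v)) {k : ZG Γ}
    (hk : G.IsK ⊤ (univ.sup fun j => LinearMap.range (c j)) k) :
    ¬ Ord (piS dg k) (r + 1) := by
  classical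
  have key : ∀ s : Finset (Fin r), G.Graded (s.sup fun j => LinearMap.range (c j)) ∧
      ∀ k, G.IsK ⊤ (s.sup fun j => LinearMap.range (c j)) k →
        ¬ Ord (piS dg k) (s.card + 1) := by
    intro s
    induction s using Finset.induction_on with
    | empty =>
      refine ⟨graded_bot G, fun k hk ho => ?_⟩
      have h1 := ho 0 (by simp)
      rw [hk.unique (rho_top_bot G), map_sum, map_sum] at h1
      simp only [piS_q, (omX_zpow_coeff _).1, sum_const, card_univ, nsmul_eq_mul, mul_one,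
        Nat.cast_eq_zero] at h1
      exact Fintype.card_ne_zero h1
    | insert j s hj ih =>
      obtain ⟨hU, ih⟩ := ih
      rw [sup_insert, card_insert_of_notMem hj, LinearMap.range_eq_map]
      refine ⟨(Gr.Graded.map (hc j) (graded_top G)).sup hU, fun k hk ho => ?_⟩
      have hle : (s.sup fun j => LinearMap.range (c j)) ≤
          ⊤ ⊓ (s.sup fun j => LinearMap.range (c j)).comap (c j) := by
        refine le_inf le_top (Finset.sup_le fun i hi => ?_)
        rintro _ ⟨v, rfl⟩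
        rw [Submodule.mem_comap, hcomm]
        exact le_sup (f := fun j => LinearMap.range (c j)) hi ⟨_, rfl⟩
      have hW := (graded_top G).inf (Gr.Graded.comap (hc j) hU)
      obtain ⟨k1, hk1⟩ := rho_exK G (graded_top G) hW le_top
      obtain ⟨k2, hk2⟩ := rho_exK G hW hU hle
      have h0 := hk1.add hk2
      have h1 := h0.unique (hk.add (Gr.IsK.shift rfl (hc j) (graded_top G) hU hk1))
      have h2 : k = (1 - q z) * (k1 + k2) + q z * k2 := by linear_combination -h1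
      have h3 : ∃ i, PowerSeries.coeff i (piS dg (k1 + k2)) ≠ 0 := by
        by_contra h
        push Not at h
        exact ih _ h0 fun i _ => h i
      have h4 : Ord (piS dg (k1 + k2)) (Nat.find h3) := fun i hi =>
        not_not.1 (Nat.find_min h3 hi)
      have h5 : Nat.find h3 ≤ s.card := by
        by_contra h
        exact ih _ h0 fun i hi => h4 i (by omega)
      have h6 := lt_of_le_of_ne (h0.pos (graded_top G) hU le_top dg hdg _ h4)
        (Nat.find_spec h3).symm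
      obtain ⟨h7, h8⟩ := ord_one_sub_q_mul dg z h4
      rw [h2, map_add, map_mul, map_mul] at ho
      have h9 : Ord (piS dg k2) (Nat.find h3 + 1) := by
        refine (ord_q_mul dg z _ _).1 fun i hi => ?_
        have := ho i (by omega)
        rwa [map_add, h7 i hi, zero_add] at this
      have h10 := ho (Nat.find h3 + 1) (by omega)
      rw [map_add, h8, coeff_q_mul dg z h9] at h10
      have h11 := hk2.pos hW hU hle dg hdg _ h9
      have h12 := mul_pos hz h6
      linarith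
  have := (key univ).2 k hk
  rwa [card_univ, Fintype.card_fin] at this

end rho

end Vale.Agent.P200.Eq
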