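import Vale.Agent.P200.Eq.YPow
import Vale.Agent.P200.Eq.Div
import Vale.Agent.P200.Eq.Rho
import Vale.Agent.P200.Eq.CMem
import Vale.Agent.P200.Eq.PhiLead
import Vale.Agent.P200.Eq.Ore
import Vale.Agent.P200.Eq.NotRk
import Vale.Agent.P200.Eq.QBin

open Module Finset MvPolynomial Matrix

namespace Vale.Agent.P200.Eq

universe u

theorem inc_comm {K E V : Type*} [Field K] [DivisionRing E] [Algebra K E] (p : MvPolynomial V K)
    (x : Alg E V) : inc K E V p * x = x * inc K E V p := by
  induction p using AddMonoidAlgebra.induction_linear with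
  | zero => simp
  | add a b ha hb => rw [map_add, add_mul, mul_add, ha, hb]
  | single m c =>
    induction x using AddMonoidAlgebra.induction_linear with
    | zero => simp
    | add a b ha hb => rw [add_mul, mul_add, ha, hb]
    | single m' c' =>
      simp only [inc, AddMonoidAlgebra.mapRingHom_single, AddMonoidAlgebra.single_mul_single,
        add_comm m m', Algebra.commutes]

variable {M a n : ℕ} [NeZero a]

theorem inc_phi {K E : Type*} [Field K] [DivisionRing E] [Algebra K E] (R : (Fin n →₀ ℕ) → K) :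
    inc K E (Var M a n) (phi M a R) = phi M a fun γ => algebraMap K E (R γ) := by
  simp only [phi, map_sum, inc, AddMonoidAlgebra.mapRingHom_single]

theorem degree_bet (f : ZMod a → Fin n) : (bet f).degree = a := by
  simp [bet, map_sum, ZMod.card]

theorem phi_congr {A : Type*} [Semiring A] {R R' : (Fin n →₀ ℕ) → A}
    (h : ∀ γ : Fin n →₀ ℕ, γ.degree = a → R γ = R' γ) : phi M a R = phi M a R' := by
  simp only [phi, h _ (degree_bet _)]

theorem phi_sum {A ι : Type*} [Semiring A] (s : Finset ι) (c : ι → A) (R : ι → (Fin n →₀ ℕ) → A) :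
    phi M a (fun γ => ∑ l ∈ s, c l * R l γ) = ∑ l ∈ s, c l • phi M a (R l) := by
  simp only [phi, Finset.smul_sum, AddMonoidAlgebra.smul_single, smul_eq_mul]
  rw [Finset.sum_comm (s := s)]
  refine Finset.sum_congr rfl fun t _ => ?_
  rw [Finset.sum_comm (s := s)]
  refine Finset.sum_congr rfl fun f _ => ?_
  exact map_sum (AddMonoidAlgebra.singleAddHom (mon t f)) _ _

theorem phi_add {A : Type*} [Semiring A] (R R' : (Fin n →₀ ℕ) → A) :
    phi M a (fun γ => R γ + R' γ) = phi M a R + phi M a R' := by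
  simp only [phi, AddMonoidAlgebra.single_add, Finset.sum_add_distrib]

theorem scalar_smul {E A ι : Type*} [Semiring E] [Semiring A] [Module E A] [Fintype ι]
    [DecidableEq ι] (e : E) (x : A) : Matrix.scalar ι (e • x) = e • Matrix.scalar ι x := by
  ext i j
  simp only [Matrix.scalar_apply, Matrix.smul_apply, Matrix.diagonal_apply]
  split_ifs <;> simp

theorem single_vecMul_scalar {A ι : Type*} [Semiring A] [Fintype ι] [DecidableEq ι] (g : ι)
    (x : A) : Pi.single g (1 : A) ᵥ* Matrix.scalar ι x = Pi.single g x := by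
  funext i
  rw [Matrix.scalar_apply, Matrix.vecMul_diagonal]
  by_cases h : i = g
  · subst h; simp
  · simp [h]

/-- the rank function and the completely prime ideal -/
theorem exists_prime {K E : Type u} [Field K] [DivisionRing E] [Algebra K E] {ζ : K}
    (hζ : ζ ^ a = 1) {r : ℕ} (hr : r < M) (lam : Fin r → (Fin n →₀ ℕ) → K)
    (hlam : ∀ (F : Type u) [Field F] [Algebra K F] (c : Fin r → F), c ≠ 0 →
      ¬ Rk1 (fun β => ∑ j, c j * algebraMap K F (lam j β)) (a - 1))
    (β : Fin r → (Fin n →₀ ℕ)) (hβ : ∀ j, (β j).degree = a)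
    (hdual : ∀ j j', lam j (β j') = if j = j' then 1 else 0) :
    ∃ J : ℕ → Submodule E (Matrix (Gp M a) (Gp M a) (Alg E (Var M a n))),
      (∀ d, J d ≤ cB E M a n ζ d) ∧
      (∀ d e, ∀ x ∈ J d, ∀ y ∈ cB E M a n ζ e, x * y ∈ J (d + e)) ∧
      (∀ d e, ∀ x ∈ cB E M a n ζ d, ∀ y ∈ J e, x * y ∈ J (d + e)) ∧
      (∀ d e, ∀ x ∈ cB E M a n ζ d, ∀ y ∈ cB E M a n ζ e, x * y ∈ J (d + e) →
        x ∈ J d ∨ y ∈ J e) ∧ 1 ∉ J 0 ∧
      (∀ j, Matrix.scalar (Gp M a) (phi M a fun γ => algebraMap K E (lam j γ)) ∈ J a) ∧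
      ∀ (R : (Fin n →₀ ℕ) → E) (γ : Fin n →₀ ℕ), γ.degree = a → R γ ≠ 0 → (∀ j, R (β j) = 0) →
        Matrix.scalar (Gp M a) (phi M a R) ∉ J a := by
  classical
  have ha : 0 < a := Nat.pos_of_ne_zero (NeZero.ne a)
  have hdg : ∀ v : Var M a n, dgB M a (wtB v) = 1 := fun v => rfl
  let G : Gr (Gp M a) (Var M a n) (Gam M a) :=
    ⟨wB, wtB, fin_of_pos wB wtB (dgB M a) fun v => by rw [hdg]; exact one_pos⟩
  let A := Alg E (Var M a n)
  let L : Matrix (Gp M a) (Gp M a) A → (Gp M a → A) →ₗ[A] (Gp M a → A) := Matrix.vecMulLinear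
  have hL : ∀ c v, L c v = v ᵥ* c := fun _ _ => rfl
  have hLL : ∀ x y v, L y (L x v) = L (x * y) v := fun x y v => Matrix.vecMul_vecMul v x y
  have hhom : ∀ d, ∀ c ∈ cB E M a n ζ d, Hom G G (L c) (dB M a d) := fun d c hc =>
    hom_vecMul G G rfl c _ hc.1
  let ph : Fin r → Matrix (Gp M a) (Gp M a) A := fun j =>
    Matrix.scalar (Gp M a) (phi M a fun γ => algebraMap K E (lam j γ))
  have hph : ∀ j, ph j ∈ cB E M a n ζ a := fun j => scalar_phi_mem ζ _
  have hphc : ∀ j c, ph j * c = c * ph j := fun j c =>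
    Matrix.scalar_commute _ (fun x => by rw [← inc_phi]; exact inc_comm _ x) c
  let U0 : Submodule A (Gp M a → A) := univ.sup fun j => LinearMap.range (L (ph j))
  have hgr : ∀ d, ∀ c ∈ cB E M a n ζ d, G.Graded (LinearMap.range (L c)) := by
    intro d c hc
    rw [LinearMap.range_eq_map]
    exact (graded_top G).map (hhom d c hc)
  have hU0 : G.Graded U0 := by
    refine Finset.sup_induction (p := fun U => G.Graded U) (graded_bot G)
      (fun _ h _ h' => h.sup h') fun j _ => hgr a _ (hph j)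
  have hphU : ∀ j, LinearMap.range (L (ph j)) ≤ U0 := fun j =>
    Finset.le_sup (f := fun j => LinearMap.range (L (ph j))) (mem_univ j)
  have hU0c : ∀ c, U0 ≤ U0.comap (L c) := by
    intro c
    refine Finset.sup_le fun j _ => ?_
    rintro _ ⟨v, rfl⟩
    refine hphU j ⟨L c v, ?_⟩
    rw [hLL, hLL, hphc]
  have hsing : ∀ (R : (Fin n →₀ ℕ) → E) (g : Gp M a), Pi.single g (phi M a R) ∈
      LinearMap.range (L (Matrix.scalar (Gp M a) (phi M a R))) := fun R g =>
    ⟨Pi.single g 1, single_vecMul_scalar g _⟩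
  have hbound : ∀ k, G.IsK ⊤ U0 k → Ord (piS (dgB M a) k) r ∧
      PowerSeries.coeff r (piS (dgB M a) k) ≤ (a : ℤ) ^ (M + r) := fun k hk =>
    phi_bound G rfl hU0 hr.le (fun j γ => algebraMap K E (lam j γ)) β hβ
      (fun j => by simp [hdual]) (fun j j' h => by simp [hdual, h.ne'])
      (fun j g => hphU j (hsing _ g)) hk
  obtain ⟨ρ, r1, r2, r3, r4, r5, r6⟩ := exists_rho G (dgB M a) hdg hU0 fun k hk => (hbound k hk).1
  have hρ0 : ρ U0 = 0 := by
    obtain ⟨k, hk, h⟩ := r1 U0 hU0 le_rfl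
    have : G.IsK U0 U0 0 := by simp [Gr.IsK]
    rw [h, hk.unique this, map_zero, map_zero]
  have hρtop : 0 < ρ ⊤ ∧ ρ ⊤ ≤ (a : ℤ) ^ (M + r) := by
    obtain ⟨k, hk, h⟩ := r1 ⊤ (graded_top G) le_top
    refine ⟨lt_of_le_of_ne (r2 ⊤ (graded_top G) le_top) fun h0 => ?_, h ▸ (hbound k hk).2⟩
    refine not_ord_top G (dgB M a) hdg (fun j => L (ph j)) (dB M a a)
      (by simpa [dgB, dB] using ha) (fun j => hhom a _ (hph j)) (fun i j v => ?_) hk ?_
    · rw [hLL, hLL, hphc]
    · intro i hi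
      rcases Nat.lt_succ_iff_lt_or_eq.1 hi with hi | rfl
      · exact (hbound k hk).1 i hi
      · rw [← h, ← h0]
  let W : Matrix (Gp M a) (Gp M a) A → Submodule A (Gp M a → A) := fun c =>
    LinearMap.range (L c) ⊔ U0
  have hW : ∀ d, ∀ c ∈ cB E M a n ζ d, G.Graded (W c) := fun d c hc => (hgr d c hc).sup hU0
  have hWle : ∀ c, U0 ≤ W c := fun c => le_sup_right
  have hdiv : ∀ d, ∀ c ∈ cB E M a n ζ d, ρ (W c) = 0 ∨ ρ (W c) = ρ ⊤ := by
    intro d c hc
    obtain ⟨k, hk, h⟩ := r1 (W c) (hW d c hc) (hWle c)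
    have h1 : (a : ℤ) ^ (M + r) ∣ ρ (W c) := by
      rw [h]
      refine div_block hr lam hlam G rfl rfl (hW d c hc) hU0 (hWle c) (fun j u _ => ?_)
        (fun s => ?_) hk
      · refine hphU j ⟨u, ?_⟩
        funext g
        simp only [hL, ph, Matrix.scalar_apply, Matrix.vecMul_diagonal, Pi.smul_apply, smul_eq_mul]
        rw [← inc_phi, inc_comm]
      · obtain ⟨S, hS1, hS2⟩ := exists_sig (E := E) hζ G rfl rfl s
        have key : ∀ d, ∀ c ∈ cB E M a n ζ d, ((LinearMap.range (L c)).restrictScalars E).map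
            S.toLinearMap = (LinearMap.range (L c)).restrictScalars E := by
          intro d c hc
          apply le_antisymm
          · rintro _ ⟨_, ⟨v, rfl⟩, rfl⟩
            exact ⟨S v, (hS2 d c hc v).symm⟩
          · rintro _ ⟨v, rfl⟩
            refine ⟨_, ⟨S.symm v, rfl⟩, ?_⟩
            change S (S.symm v ᵥ* c) = v ᵥ* c
            rw [hS2 d c hc, S.apply_symm_apply]
        let P : Submodule A (Gp M a → A) → Prop := fun U =>
          (U.restrictScalars E).map S.toLinearMap = U.restrictScalars E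
        have hsup : ∀ U, P U → ∀ U', P U' → P (U ⊔ U') := by
          intro U h U' h'
          simp only [P] at h h' ⊢
          rw [Submodule.restrictScalars_sup, Submodule.map_sup, h, h']
        have hP0 : P U0 := Finset.sup_induction (p := P) (by simp [P]) hsup
          fun j _ => key a _ (hph j)
        have hiff : ∀ U, P U → ∀ v, v ∈ U ↔ S v ∈ U := by
          intro U h v
          constructor
          · intro hv
            have : S v ∈ (U.restrictScalars E).map S.toLinearMap := ⟨v, hv, rfl⟩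
            rwa [h] at this
          · intro hv
            have : S v ∈ (U.restrictScalars E).map S.toLinearMap := by rw [h]; exact hv
            obtain ⟨v', hv', h'⟩ := this
            rwa [← S.injective h']
        exact ⟨S, hS1, hiff _ (hsup _ (key d c hc) _ hP0), hiff _ hP0⟩
    have h2 := r2 _ (hW d c hc) (hWle c)
    have h3 := r3 _ ⊤ (hW d c hc) (graded_top G) (hWle c) le_top
    rcases h2.eq_or_lt with h4 | h4
    · exact Or.inl h4.symm
    · exact Or.inr (le_antisymm h3 (hρtop.2.trans (Int.le_of_dvd h4 h1)))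
  have hsmall : ∀ d, ∀ c ∈ cB E M a n ζ d, ∀ U, G.Graded U → W c ≤ U → ρ U ≤ 0 → ρ (W c) = 0 :=
    fun d c hc U hU h h' => le_antisymm ((r3 _ _ (hW d c hc) hU (hWle c) h).trans h')
      (r2 _ (hW d c hc) (hWle c))
  have hWmul : ∀ x y, W (x * y) = (W x).map (L y) ⊔ U0 := by
    intro x y
    have h1 : LinearMap.range (L (x * y)) = (LinearMap.range (L x)).map (L y) := by
      rw [← LinearMap.range_comp]
      congr 1
      exact LinearMap.ext fun v => (hLL x y v).symm
    simp only [W]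
    rw [h1, Submodule.map_sup, sup_assoc, sup_eq_right.2 (Submodule.map_le_iff_le_comap.2 (hU0c y))]
  let J : ℕ → Submodule E (Matrix (Gp M a) (Gp M a) A) := fun d =>
    { carrier := {c | c ∈ cB E M a n ζ d ∧ ρ (W c) = 0}
      add_mem' := by
        rintro x y ⟨hx, hx'⟩ ⟨hy, hy'⟩
        refine ⟨add_mem hx hy, hsmall d _ (add_mem hx hy) (W x ⊔ W y)
          ((hW d x hx).sup (hW d y hy)) (sup_le ?_ ((hWle x).trans le_sup_left)) ?_⟩
        · rintro _ ⟨v, rfl⟩
          rw [hL, Matrix.vecMul_add]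
          exact Submodule.add_mem_sup (Submodule.mem_sup_left ⟨v, rfl⟩)
            (Submodule.mem_sup_left ⟨v, rfl⟩)
        · have := r4 _ _ (hW d x hx) (hW d y hy) (hWle x) (hWle y)
          omega
      zero_mem' := by
        refine ⟨zero_mem _, hsmall d _ (zero_mem _) U0 hU0 (sup_le ?_ le_rfl) hρ0.le⟩
        rintro _ ⟨v, rfl⟩
        rw [hL, Matrix.vecMul_zero]
        exact zero_mem _
      smul_mem' := by
        rintro e x ⟨hx, hx'⟩
        refine ⟨Submodule.smul_mem _ e hx, hsmall d _ (Submodule.smul_mem _ e hx) (W x) (hW d x hx)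
          (sup_le ?_ (hWle x)) hx'.le⟩
        rintro _ ⟨v, rfl⟩
        refine Submodule.mem_sup_left ⟨fun g => v g * AddMonoidAlgebra.single 0 e, ?_⟩
        funext g
        simp only [hL, Matrix.vecMul, dotProduct, Matrix.smul_apply, mul_assoc]
        refine Finset.sum_congr rfl fun g' _ => ?_
        congr 1
        ext m
        simp [A, AddMonoidAlgebra.coeff_single_zero_mul] }
  refine ⟨J, fun d c hc => hc.1, ?_, ?_, ?_, ?_, fun j => ?_, ?_⟩
  · rintro d e x ⟨hx, hx'⟩ y hy
    refine ⟨cB_mul ζ hx hy, hsmall _ _ (cB_mul ζ hx hy) _ (hW _ _ (cB_mul ζ hx hy)) le_rfl ?_⟩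
    have h1 := r5 (W x) (L y) _ (hW d x hx) (hWle x) (hhom e y hy) (hU0c y)
    have h2 := r2 _ ((hW d x hx).inf (hU0.comap (hhom e y hy))) (le_inf (hWle x) (hU0c y))
    rw [hWmul]
    omega
  · rintro d e x hx y ⟨hy, hy'⟩
    refine ⟨cB_mul ζ hx hy, hsmall _ _ (cB_mul ζ hx hy) (W y) (hW e y hy)
      (sup_le ?_ (hWle y)) hy'.le⟩
    rintro _ ⟨v, rfl⟩
    exact Submodule.mem_sup_left ⟨L x v, hLL x y v⟩
  · rintro d e x hx y hy ⟨-, hxy⟩
    rcases hdiv d x hx with h | h
    · exact Or.inl ⟨hx, h⟩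
    rcases hdiv e y hy with h' | h'
    · exact Or.inr ⟨hy, h'⟩
    exfalso
    have h1 := r5 (W x) (L y) _ (hW d x hx) (hWle x) (hhom e y hy) (hU0c y)
    have h2 := r5 ⊤ (L y) _ (graded_top G) le_top (hhom e y hy) (hU0c y)
    have h3 := r3 _ _ ((hW d x hx).inf (hU0.comap (hhom e y hy)))
      ((graded_top G).inf (hU0.comap (hhom e y hy))) (le_inf (hWle x) (hU0c y))
      (inf_le_inf_right _ le_top)
    rw [← LinearMap.range_eq_map] at h2
    rw [← hWmul] at h1
    have h4 : ρ (LinearMap.range (L y) ⊔ U0) = ρ ⊤ := h'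
    omega
  · rintro ⟨-, h⟩
    have : W 1 = ⊤ := by
      refine top_unique fun v _ => Submodule.mem_sup_left ⟨v, ?_⟩
      rw [hL, Matrix.vecMul_one]
    rw [this] at h
    omega
  · exact ⟨hph j, hsmall a _ (hph j) U0 hU0 (sup_le (hphU j) le_rfl) hρ0.le⟩
  · rintro R γ hγ hR hRβ ⟨hc, h⟩
    obtain ⟨𝒞, hk, -⟩ := exists_cells G (graded_top G) (hW a _ hc) le_top
    have h1 := (phi_bound G rfl (hW a _ hc) (p := r + 1) hr
      (Fin.snoc (α := fun _ => (Fin n →₀ ℕ) → E) (fun j γ => algebraMap K E (lam j γ)) R)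
      (Fin.snoc (α := fun _ => Fin n →₀ ℕ) β γ) ?_ ?_ ?_ ?_ hk).1
    · have := r6 _ _ (hW a _ hc) (hWle _) hk h1
      omega
    · intro j
      induction j using Fin.lastCases with
      | last => simpa using hγ
      | cast j => simpa using hβ j
    · intro j
      induction j using Fin.lastCases with
      | last => simpa using hR
      | cast j => simp [hdual]
    · intro j j' hj
      induction j' using Fin.lastCases with
      | last => exact absurd hj (not_lt.2 (Fin.le_last _))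
      | cast j' =>
        induction j using Fin.lastCases with
        | last => simpa using hRβ j'
        | cast j =>
          have : j ≠ j' := by rintro rfl; exact lt_irrefl _ hj
          simp [hdual, this]
    · intro j g
      induction j using Fin.lastCases with
      | last => rw [Fin.snoc_last]; exact Submodule.mem_sup_left (hsing R g)
      | cast j => rw [Fin.snoc_castSucc]; exact hWle _ (hphU j (hsing _ g))

theorem exists_step {K E : Type u} [Field K] [IsAlgClosed K] [DivisionRing E] [Algebra K E]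
    {n p a : ℕ} (ha : 0 < a) (w : Fin p → MvPolynomial (Fin n) K)
    (hw : ∀ l, (w l).IsHomogeneous a) (hli : LinearIndependent K w)
    (hb : ∀ i, ∃ N, (X i : MvPolynomial (Fin n) K) ^ N ∈ Ideal.span (Set.range w)) :
    ∃ (D : Type u) (_ : DivisionRing D) (_ : Algebra K D) (j : E →ₐ[K] D) (e : Fin n → D)
      (τ : Fin p → D), (∀ i x, Commute (e i) (j x)) ∧ (∀ l x, Commute (τ l) (j x)) ∧
      (∀ ξ : Fin n → K, (∑ i, ξ i • e i) ^ a = ∑ l, eval ξ (w l) • τ l) ∧
      ∀ θ : Fin p → E, ∑ l, j (θ l) * τ l = 0 → θ = 0 := by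
  classical
  have : NeZero a := ⟨ha.ne'⟩
  obtain ⟨ζ, hζ, hq⟩ := exists_zeta.{u, u} K a ha
  obtain ⟨r, lam, θ, β, hβ, hdual, hθβ, hkill, hθw, hexp⟩ := exists_dual w hw hli
  have ha1 : a - 1 + 1 = a := by omega
  let M := r + 1
  obtain ⟨J, hJC, hJl, hJr, hprime, h1, hJφ, hJn⟩ := exists_prime (E := E) (M := M) hζ
    (Nat.lt_succ_self r) lam (fun F _ _ c hc => not_rk1 w (by rw [ha1]; exact hw) hb lam hkill β
      (by rw [ha1]; exact hβ) hdual F c hc) β hβ hdual
  let A := Alg E (Var M a n)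
  let j : E →+* Matrix (Gp M a) (Gp M a) A :=
    (Matrix.scalar (Gp M a)).comp AddMonoidAlgebra.singleZeroRingHom
  have hj : ∀ (ε : E) (x : Matrix (Gp M a) (Gp M a) A), ε • x = j ε * x := by
    intro ε x
    ext g g' m
    simp [j, A, AddMonoidAlgebra.coeff_single_zero_mul]
  have hj0 : ∀ ε, j ε ∈ cB E M a n ζ 0 := fun ε => scalar_single_mem ζ ε
  obtain ⟨N, m, hgr⟩ := cB_growth (E := E) (M := M) (a := a) (n := n) ζ
  obtain ⟨D, _, Φ, Φadd, Φmul, Φone, Φker, Φgen⟩ := exists_ore j hj (cB E M a n ζ) J hJC hj0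
    (fun d e x hx y hy => cB_mul ζ hx hy) hJl hJr hprime h1 N m (fun d => (hgr d).1)
    (fun d => (hgr d).2)
  have Φzero : ∀ d, Φ d 0 = 0 := fun d => (Φker d 0 (zero_mem _)).2 (zero_mem _)
  have Φsum : ∀ d {ι : Type} (s : Finset ι) (x : ι → Matrix (Gp M a) (Gp M a) A),
      (∀ i, x i ∈ cB E M a n ζ d) → Φ d (∑ i ∈ s, x i) = ∑ i ∈ s, Φ d (x i) := by
    intro d ι s x hx
    induction s using Finset.induction_on with
    | empty => simpa using Φzero d
    | insert i s hi ih =>
      rw [Finset.sum_insert hi, Finset.sum_insert hi, Φadd d _ (hx i) _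
        (Submodule.sum_mem _ fun i _ => hx i), ih]
  let jD : E →+* D :=
    { toFun := fun ε => Φ 0 (j ε)
      map_one' := by rw [map_one, Φone]
      map_mul' := fun x y => by rw [map_mul]; exact Φmul 0 0 _ (hj0 x) _ (hj0 y)
      map_zero' := by rw [map_zero, Φzero]
      map_add' := fun x y => by rw [map_add]; exact Φadd 0 _ (hj0 x) _ (hj0 y) }
  have Φsmul : ∀ d (ε : E), ∀ x ∈ cB E M a n ζ d, Φ d (ε • x) = jD ε * Φ d x := by
    intro d ε x hx
    have := Φmul 0 d _ (hj0 ε) x hx
    rwa [zero_add, ← hj] at this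
  have Φcomm : ∀ d (ε : E), ∀ x ∈ cB E M a n ζ d, x * j ε = j ε * x →
      Commute (Φ d x) (jD ε) := by
    intro d ε x hx h
    have h2 := Φmul d 0 x hx _ (hj0 ε)
    rw [add_zero, h, ← hj, Φsmul d ε x hx] at h2
    exact h2.symm
  have hincj : ∀ (y : Matrix (Gp M a) (Gp M a) (MvPolynomial (Var M a n) K)) (ε : E),
      (inc K E (Var M a n)).mapMatrix y * j ε = j ε * (inc K E (Var M a n)).mapMatrix y := by
    intro y ε
    refine Matrix.ext fun g g' => ?_
    simp only [j, RingHom.comp_apply, Matrix.scalar_apply, Matrix.mul_diagonal,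
      Matrix.diagonal_mul, RingHom.mapMatrix_apply, Matrix.map_apply]
    exact inc_comm (E := E) (y g g') _
  have hjK : ∀ c : K, j (algebraMap K E c) = Matrix.scalar (Gp M a) (inc K E _ (C c)) := by
    intro c
    simp only [j, RingHom.comp_apply, inc]
    congr 1
    exact (AddMonoidAlgebra.mapRingHom_single _ _ _).symm
  let : Algebra K D := (jD.comp (algebraMap K E)).toAlgebra' fun c x =>
    Φgen _ (fun d y hy => (Φcomm d _ y hy (by
      rw [hjK]
      exact (Matrix.scalar_commute _ (fun z => inc_comm _ z) y).symm)).symm) x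
  have hsm : ∀ (c : K) (x : D), c • x = jD (algebraMap K E c) * x := fun c x => rfl
  let Y : Fin n → Matrix (Gp M a) (Gp M a) A := fun i =>
    (inc K E (Var M a n)).mapMatrix (yB M a ζ i)
  have hY : ∀ i, Y i ∈ cB E M a n ζ 1 := fun i => yB_mem hζ i
  let T : Fin p → Matrix (Gp M a) (Gp M a) A := fun l =>
    Matrix.scalar (Gp M a) (phi M a fun γ => algebraMap K E (θ l γ))
  have hT : ∀ l, T l ∈ cB E M a n ζ a := fun l => scalar_phi_mem ζ _
  have hscal : ∀ x : MvPolynomial (Var M a n) K, (inc K E (Var M a n)).mapMatrix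
      (Matrix.scalar (Gp M a) x) = Matrix.scalar (Gp M a) (inc K E _ x) := by
    intro x
    simp only [Matrix.scalar_apply, RingHom.mapMatrix_apply]
    rw [Matrix.diagonal_map (map_zero _)]
  refine ⟨D, inferInstance, inferInstance, ⟨jD, fun c => rfl⟩, fun i => Φ 1 (Y i),
    fun l => Φ a (T l), fun i x => Φcomm 1 x _ (hY i) (hincj _ x),
    fun l x => Φcomm a x _ (hT l) ?_, fun ξ => ?_, fun t ht => ?_⟩
  · simp only [T]
    rw [← inc_phi, ← hscal]
    exact hincj _ x
  · have hpow : ∀ x ∈ cB E M a n ζ 1, ∀ k, x ^ k ∈ cB E M a n ζ k ∧ Φ k (x ^ k) = Φ 1 x ^ k := by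
      intro x hx k
      induction k with
      | zero => rw [pow_zero, pow_zero, ← map_one j]; exact ⟨hj0 1, by rw [map_one, Φone]⟩
      | succ k ih =>
        rw [pow_succ, pow_succ, ← ih.2]
        exact ⟨cB_mul ζ ih.1 hx, Φmul k 1 _ ih.1 _ hx⟩
    let x : Matrix (Gp M a) (Gp M a) A := ∑ i, algebraMap K E (ξ i) • Y i
    have hx : x ∈ cB E M a n ζ 1 := Submodule.sum_mem _ fun i _ => Submodule.smul_mem _ _ (hY i)
    have hx1 : Φ 1 x = ∑ i, ξ i • Φ 1 (Y i) := by
      rw [Φsum 1 _ _ fun i => Submodule.smul_mem _ _ (hY i)]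
      exact Finset.sum_congr rfl fun i _ => Φsmul 1 _ _ (hY i)
    have hx2 : x = (inc K E (Var M a n)).mapMatrix (∑ i, ξ i • yB M a ζ i) := by
      rw [map_sum]
      refine Finset.sum_congr rfl fun i _ => ?_
      rw [hj, hjK, ← hscal, ← map_mul]
      congr 1
      ext g g' : 2
      rw [Matrix.scalar_apply, Matrix.diagonal_mul, Matrix.smul_apply, smul_eq_C_mul]
    have hx3 : x ^ a = ∑ l, algebraMap K E (eval ξ (w l)) • T l +
        ∑ i, algebraMap K E (eval ξ (monomial (β i) (1 : K))) •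
          Matrix.scalar (Gp M a) (phi M a fun γ => algebraMap K E (lam i γ)) := by
      rw [hx2, ← map_pow, yB_pow hζ (hq _ M), hscal, inc_phi]
      simp only [T, ← scalar_smul, ← map_sum, ← map_add]
      congr 1
      refine Eq.trans ?_ (congrArg₂ (· + ·) (phi_sum _ _ _) (phi_sum _ _ _))
      rw [← phi_add]
      refine phi_congr fun γ hγ => ?_
      rw [hexp γ hγ]
      simp only [map_add, map_sum, smul_eval]
      simp only [← map_mul, mul_comm]
    have hJ' : ∀ i, Matrix.scalar (Gp M a) (phi M a fun γ => algebraMap K E (lam i γ)) ∈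
        cB E M a n ζ a := fun i => hJC a (hJφ i)
    rw [← hx1, ← (hpow x hx a).2, hx3, Φadd a _ (Submodule.sum_mem _ fun l _ =>
      Submodule.smul_mem _ _ (hT l)) _ (Submodule.sum_mem _ fun i _ =>
      Submodule.smul_mem _ _ (hJ' i)), (Φker a _ (Submodule.sum_mem _ fun i _ =>
      Submodule.smul_mem _ _ (hJ' i))).2 (Submodule.sum_mem _ fun i _ =>
      Submodule.smul_mem _ _ (hJφ i)), add_zero,
      Φsum a _ _ fun l => Submodule.smul_mem _ _ (hT l)]
    exact Finset.sum_congr rfl fun l _ => Φsmul a _ _ (hT l)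
  · let R : (Fin n →₀ ℕ) → E := fun γ => ∑ l, t l * algebraMap K E (θ l γ)
    have h2 : Matrix.scalar (Gp M a) (phi M a R) = ∑ l, t l • T l := by
      simp only [T, R, ← scalar_smul, ← map_sum]
      exact congrArg _ (phi_sum _ _ _)
    have h3 : Matrix.scalar (Gp M a) (phi M a R) ∈ J a := by
      refine (Φker a _ (scalar_phi_mem ζ R)).1 ?_
      rw [h2, Φsum a _ _ fun l => Submodule.smul_mem _ _ (hT l), ← ht]
      exact Finset.sum_congr rfl fun l _ => Φsmul a _ _ (hT l)
    have h4 : ∀ γ : Fin n →₀ ℕ, γ.degree = a → R γ = 0 := by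
      intro γ hγ
      by_contra hne
      exact hJn R γ hγ hne (fun i => by simp [R, hθβ]) h3
    funext l
    have h5 : ∑ γ ∈ (w l).support, R γ * algebraMap K E (coeff γ (w l)) = t l := by
      simp only [R, Finset.sum_mul]
      rw [Finset.sum_comm]
      have h6 : ∀ l', ∑ γ ∈ (w l).support, t l' * algebraMap K E (θ l' γ) *
          algebraMap K E (coeff γ (w l)) = t l' * algebraMap K E (fn (θ l') (w l)) := by
        intro l'
        rw [fn_eq_sum, map_sum, Finset.mul_sum]
        refine Finset.sum_congr rfl fun γ _ => ?_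
        rw [mul_assoc, ← map_mul, mul_comm (θ l' γ)]
      simp only [h6, hθw]
      simp
    rw [← h5]
    refine Finset.sum_eq_zero fun γ hγ => ?_
    rw [h4 γ, zero_mul]
    by_contra hne
    exact (mem_support_iff.1 hγ) ((hw l).coeff_eq_zero hne)

end Vale.Agent.P200.Eq
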