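import Mathlib

open Module Finset MvPolynomial

namespace Vale.Agent.P200.Eq

universe u

section TowerAux

variable {D ι κ : Type*} [DivisionRing D]

/-- the left linear map given by a submatrix -/
noncomputable def twMap (R : Finset ι) (S : Finset κ) (τ : ι → κ → D) : (R → D) →ₗ[D] (S → D) where
  toFun b l := ∑ i : R, b i * τ i l
  map_add' b b' := by
    funext l
    simp only [Pi.add_apply, add_mul, sum_add_distrib]
  map_smul' d b := by
    funext l
    simp only [Pi.smul_apply, smul_eq_mul, RingHom.id_apply, mul_sum, mul_assoc]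

theorem twMap_ext (R : Finset ι) (S : Finset κ) (τ : ι → κ → D) (b : R → D) (l : S) :
    ∑ i ∈ R, Function.extend Subtype.val b 0 i * τ i l = twMap R S τ b l := by
  rw [← sum_coe_sort]
  exact sum_congr rfl fun i _ => by rw [Subtype.val_injective.extend_apply]

theorem twMap_inj {R : Finset ι} {S : Finset κ} {τ : ι → κ → D}
    (h : ∀ b : ι → D, (∀ l ∈ S, ∑ i ∈ R, b i * τ i l = 0) → ∀ i ∈ R, b i = 0) :
    Function.Injective (twMap R S τ) := by
  refine (injective_iff_map_eq_zero _).2 fun b hb => funext fun i => ?_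
  have := h (Function.extend Subtype.val b 0)
    (fun l hl => (twMap_ext R S τ b ⟨l, hl⟩).trans (congrFun hb _)) i i.2
  rwa [Subtype.val_injective.extend_apply] at this

theorem tw_right [DecidableEq ι] {R : Finset ι} {S : Finset κ} {τ : ι → κ → D}
    (h : ∀ b : ι → D, (∀ l ∈ S, ∑ i ∈ R, b i * τ i l = 0) → ∀ i ∈ R, b i = 0) :
    ∃ u : κ → ι → D, ∀ i ∈ R, ∀ i' ∈ R, ∑ l ∈ S, τ i l * u l i' = if i = i' then 1 else 0 := by
  classical
  obtain ⟨g, hg⟩ := (twMap R S τ).exists_leftInverse_of_injective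
    (LinearMap.ker_eq_bot.2 (twMap_inj h))
  refine ⟨Function.extend Subtype.val
    (fun l : S => Function.extend Subtype.val (g (Pi.single l 1)) 0) 0, fun i hi i' hi' => ?_⟩
  have h1 : twMap R S τ (Pi.single ⟨i, hi⟩ 1) = ∑ l : S, τ i l • Pi.single l (1 : D) := by
    funext l
    simp [twMap, Pi.single_apply, Finset.sum_apply]
  have h2 := congrFun (LinearMap.congr_fun hg (Pi.single ⟨i, hi⟩ 1)) ⟨i', hi'⟩
  rw [LinearMap.comp_apply, h1, map_sum, Finset.sum_apply, LinearMap.id_apply,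
    Pi.single_apply] at h2
  rw [← sum_coe_sort]
  refine (sum_congr rfl fun l _ => ?_).trans (h2.trans ?_)
  · rw [Subtype.val_injective.extend_apply, map_smul, Pi.smul_apply, smul_eq_mul]
    exact congrArg _ (Subtype.val_injective.extend_apply _ _ (⟨i', hi'⟩ : R))
  · simp only [Subtype.mk.injEq, eq_comm]

theorem tw_inj [DecidableEq ι] {R : Finset ι} {S : Finset κ} {τ : ι → κ → D} {u : κ → ι → D}
    (hu : ∀ i ∈ R, ∀ i' ∈ R, ∑ l ∈ S, τ i l * u l i' = if i = i' then 1 else 0)
    (b : ι → D) (hb : ∀ l ∈ S, ∑ i ∈ R, b i * τ i l = 0) : ∀ i ∈ R, b i = 0 := by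
  intro i' hi'
  have h1 : ∑ l ∈ S, (∑ i ∈ R, b i * τ i l) * u l i' = 0 :=
    sum_eq_zero fun l hl => by rw [hb l hl, zero_mul]
  simp only [sum_mul, mul_assoc] at h1
  rw [sum_comm, sum_congr rfl fun i hi => by rw [← mul_sum, hu i hi i' hi']] at h1
  simpa [hi'] using h1

theorem tw_left [DecidableEq κ] {R : Finset ι} {S : Finset κ} {τ : ι → κ → D}
    (h : ∀ b : ι → D, (∀ l ∈ S, ∑ i ∈ R, b i * τ i l = 0) → ∀ i ∈ R, b i = 0)
    (hc : R.card = S.card) : ∀ l ∈ S,
      ∃ b : ι → D, ∀ l' ∈ S, ∑ i ∈ R, b i * τ i l' = if l' = l then 1 else 0 := by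
  intro l hl
  obtain ⟨b, hb⟩ := (LinearMap.injective_iff_surjective_of_finrank_eq_finrank
    (by simp [hc])).1 (twMap_inj h) (Pi.single ⟨l, hl⟩ 1)
  refine ⟨Function.extend Subtype.val b 0, fun l' hl' => (twMap_ext R S τ b ⟨l', hl'⟩).trans ?_⟩
  rw [hb, Pi.single_apply]
  simp only [Subtype.mk.injEq]

theorem tw_ker_left {R : Finset ι} {S : Finset κ} (τ : ι → κ → D) (hc : S.card < R.card) :
    ∃ b : ι → D, b ≠ 0 ∧ (∀ i, i ∉ R → b i = 0) ∧ ∀ l ∈ S, ∑ i ∈ R, b i * τ i l = 0 := by
  obtain ⟨b, hb, hb'⟩ := (Submodule.ne_bot_iff _).1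
    (LinearMap.ker_ne_bot_of_finrank_lt (f := twMap R S τ) (by simpa using hc))
  refine ⟨Function.extend Subtype.val b 0, fun h => hb' (funext fun i => ?_), fun i hi => ?_,
    fun l hl => (twMap_ext R S τ b ⟨l, hl⟩).trans (congrFun hb _)⟩
  · have := congrFun h i
    rwa [Subtype.val_injective.extend_apply] at this
  · exact Function.extend_apply' _ _ _ fun ⟨a, ha⟩ => hi (ha ▸ a.2)

theorem tw_ker_right {R : Finset ι} {S : Finset κ} (τ : ι → κ → D) (hc : R.card < S.card) :
    ∃ θ : κ → D, θ ≠ 0 ∧ (∀ l, l ∉ S → θ l = 0) ∧ ∀ i ∈ R, ∑ l ∈ S, τ i l * θ l = 0 := by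
  obtain ⟨b, h1, h2, h3⟩ := tw_ker_left (fun l i => MulOpposite.op (τ i l)) hc
  refine ⟨fun l => (b l).unop, fun h => h1 (funext fun l => MulOpposite.unop_injective
    (congrFun h l)), fun l hl => congrArg MulOpposite.unop (h2 l hl), fun i hi => ?_⟩
  simpa [Finset.unop_sum] using congrArg MulOpposite.unop (h3 i hi)

theorem tw_step {E : Type*} [DivisionRing E] [DecidableEq ι] [Fintype κ] (j : E →+* D)
    (τ : ι → κ → E) (τ' : κ → D) (c : ι) (hc : ∀ l x, Commute (τ' l) (j x))
    (hind : ∀ θ : κ → E, ∑ l, j (θ l) * τ' l = 0 → θ = 0) {R : Finset ι} {S : Finset κ}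
    (hRS : R.card ≤ S.card) {u : κ → ι → E} (hu : ∀ i ∈ R.erase c, ∀ i' ∈ R.erase c,
      ∑ l ∈ S, τ i l * u l i' = if i = i' then 1 else 0) (b : ι → D)
    (hb : ∀ l ∈ S, ∑ i ∈ R, b i * Function.update (fun i l => j (τ i l)) c τ' i l = 0) :
    ∀ i ∈ R, b i = 0 := by
  have h1 : ∀ l, ∑ i ∈ R.erase c, b i * Function.update (fun i l => j (τ i l)) c τ' i l =
      ∑ i ∈ R.erase c, b i * j (τ i l) := fun l =>
    sum_congr rfl fun i hi => by rw [Function.update_of_ne (ne_of_mem_erase hi)]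
  have h2 : c ∈ R → b c = 0 := fun hcR => by
    obtain ⟨θ, t1, t2, t3⟩ := tw_ker_right τ ((card_erase_lt_of_mem hcR).trans_le hRS)
    have h3 : ∑ l ∈ S, (b c * τ' l + ∑ i ∈ R.erase c, b i * j (τ i l)) * j (θ l) = 0 :=
      sum_eq_zero fun l hl => by
        have := hb l hl
        rw [← add_sum_erase _ _ hcR, h1, Function.update_self] at this
        rw [this, zero_mul]
    have h4 : ∑ l ∈ S, (∑ i ∈ R.erase c, b i * j (τ i l)) * j (θ l) = 0 := by
      simp only [sum_mul, mul_assoc, ← map_mul]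
      rw [sum_comm]
      exact sum_eq_zero fun i hi => by rw [← mul_sum, ← map_sum, t3 i hi, map_zero, mul_zero]
    simp only [add_mul, sum_add_distrib, h4, add_zero, mul_assoc, ← mul_sum] at h3
    refine (mul_eq_zero.1 h3).resolve_right fun h5 => t1 (hind θ ?_)
    rw [← h5, ← sum_subset (subset_univ S) fun l _ hl => by rw [t2 l hl, map_zero, zero_mul]]
    exact sum_congr rfl fun l _ => (hc l _).eq.symm
  have h3 : ∀ i ∈ R.erase c, b i = 0 := by
    refine tw_inj (τ := fun i l => j (τ i l)) (S := S) (u := fun l i => j (u l i))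
      (fun i hi i' hi' => ?_) b fun l hl => ?_
    · simp only [← map_mul]
      rw [← map_sum, hu i hi i' hi']
      split_ifs
      exacts [map_one j, map_zero j]
    · rw [← h1, ← hb l hl]
      by_cases hcR : c ∈ R
      · rw [← add_sum_erase _ _ hcR, h2 hcR, zero_mul, zero_add]
      · rw [erase_eq_of_notMem hcR]
  intro i hi
  by_cases hic : i = c
  · exact hic ▸ h2 (hic ▸ hi)
  · exact h3 i (mem_erase.2 ⟨hic, hi⟩)

end TowerAux

theorem exists_tower {K : Type u} [Field K] {n p a : ℕ} (w : Fin p → MvPolynomial (Fin n) K)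
    (hstep : ∀ (E : Type u) [DivisionRing E] [Algebra K E],
      ∃ (D : Type u) (_ : DivisionRing D) (_ : Algebra K D) (j : E →ₐ[K] D) (e : Fin n → D)
        (τ : Fin p → D), (∀ i x, Commute (e i) (j x)) ∧ (∀ l x, Commute (τ l) (j x)) ∧
        (∀ ξ : Fin n → K, (∑ i, ξ i • e i) ^ a = ∑ l, eval ξ (w l) • τ l) ∧
        ∀ θ : Fin p → E, ∑ l, j (θ l) * τ l = 0 → θ = 0) (c : ℕ) :
    ∃ (D : Type u) (_ : DivisionRing D) (_ : Algebra K D) (e : ℕ → Fin n → D)
      (τ : ℕ → Fin p → D),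
      (∀ i < c, ∀ i' < c, i ≠ i' → ∀ x y, Commute (e i x) (e i' y)) ∧
      (∀ i < c, ∀ ξ : Fin n → K, (∑ x, ξ x • e i x) ^ a = ∑ l, eval ξ (w l) • τ i l) ∧
      ∀ (R : Finset ℕ) (S : Finset (Fin p)), (∀ i ∈ R, i < c) → R.card = S.card → ∀ l ∈ S,
        ∃ b : ℕ → D, ∀ l' ∈ S, ∑ i ∈ R, b i * τ i l' = if l' = l then 1 else 0 := by
  have key : ∃ (D : Type u) (_ : DivisionRing D) (_ : Algebra K D) (e : ℕ → Fin n → D)
      (τ : ℕ → Fin p → D),
      (∀ i < c, ∀ i' < c, i ≠ i' → ∀ x y, Commute (e i x) (e i' y)) ∧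
      (∀ i < c, ∀ ξ : Fin n → K, (∑ x, ξ x • e i x) ^ a = ∑ l, eval ξ (w l) • τ i l) ∧
      ∀ (R : Finset ℕ) (S : Finset (Fin p)), (∀ i ∈ R, i < c) → R.card ≤ S.card →
        ∀ b : ℕ → D, (∀ l ∈ S, ∑ i ∈ R, b i * τ i l = 0) → ∀ i ∈ R, b i = 0 := by
    induction c with
    | zero =>
      exact ⟨K, inferInstance, inferInstance, 0, 0, fun i hi => absurd hi i.not_lt_zero,
        fun i hi => absurd hi i.not_lt_zero,
        fun R S hR _ b _ i hi => absurd (hR i hi) i.not_lt_zero⟩
    | succ c ih =>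
      obtain ⟨E, _, _, e, τ, h1, h2, h3⟩ := ih
      obtain ⟨D, _, _, j, e', τ', g1, g2, g3, g4⟩ := hstep E
      refine ⟨D, inferInstance, inferInstance, Function.update (fun i x => j (e i x)) c e',
        Function.update (fun i l => j (τ i l)) c τ', fun i hi i' hi' hne x y => ?_,
        fun i hi ξ => ?_, fun R S hR hRS => ?_⟩
      · by_cases hic : i = c
        · subst hic
          rw [Function.update_self, Function.update_of_ne hne.symm]
          exact g1 _ _
        · by_cases hic' : i' = c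
          · subst hic'
            rw [Function.update_self, Function.update_of_ne hne]
            exact (g1 _ _).symm
          · rw [Function.update_of_ne hic, Function.update_of_ne hic']
            exact (h1 i (by omega) i' (by omega) hne x y).map j
      · by_cases hic : i = c
        · subst hic
          rw [Function.update_self, Function.update_self]
          exact g3 ξ
        · rw [Function.update_of_ne hic, Function.update_of_ne hic]
          simpa only [map_pow, map_sum, map_smul] using congrArg j (h2 i (by omega) ξ)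
      · obtain ⟨u, hu⟩ := tw_right (h3 (R.erase c) S (fun i hi => by
          have := hR i (mem_of_mem_erase hi)
          have := ne_of_mem_erase hi
          omega) (card_erase_le.trans hRS))
        exact tw_step (j : E →+* D) τ τ' c g2 g4 hRS hu
  obtain ⟨D, _, _, e, τ, h1, h2, h3⟩ := key
  exact ⟨D, inferInstance, inferInstance, e, τ, h1, h2,
    fun R S hR hRS => tw_left (h3 R S hR hRS.le) hRS⟩

end Vale.Agent.P200.Eq
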