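import Mathlib

open Module Finset

namespace Vale.Agent.P200.Eq

/-- exponent vectors -/
abbrev Mon (V : Type*) := V →₀ ℕ

/-- polynomials in central variables over a division ring -/
abbrev Alg (E V : Type*) [Semiring E] := AddMonoidAlgebra E (V →₀ ℕ)

/-- the integral group ring -/
abbrev ZG (Γ : Type*) := AddMonoidAlgebra ℤ Γ

section group

variable {Γ : Type*} [AddCommGroup Γ]

/-- a group element in the group ring -/
noncomputable def q (γ : Γ) : ZG Γ := AddMonoidAlgebra.single γ 1

theorem q_add (γ δ : Γ) : q (γ + δ) = q γ * q δ := by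
  simp [q, AddMonoidAlgebra.single_mul_single]

@[simp] theorem q_zero : q (0 : Γ) = 1 := rfl

theorem q_mul_neg (γ : Γ) : q γ * q (-γ) = 1 := by rw [← q_add, add_neg_cancel, q_zero]

theorem isUnit_q (γ : Γ) : IsUnit (q γ) := IsUnit.of_mul_eq_one _ (q_mul_neg γ)

theorem single_eq_smul_q (γ : Γ) (z : ℤ) : AddMonoidAlgebra.single γ z = z • q γ := by
  simp [q]

/-- translation of functions -/
def tr (δ : Γ) : Module.End ℤ (Γ → ℤ) where
  toFun f γ := f (γ - δ)
  map_add' _ _ := rfl
  map_smul' _ _ := rfl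

/-- the group ring acts on all integer functions on the group -/
noncomputable def act : ZG Γ →ₐ[ℤ] Module.End ℤ (Γ → ℤ) :=
  AddMonoidAlgebra.lift ℤ (Module.End ℤ (Γ → ℤ)) Γ
    { toFun := fun δ => tr δ.toAdd
      map_one' := by ext f γ; simp [tr]
      map_mul' := fun a b => by
        refine LinearMap.ext fun f => funext fun γ => ?_
        simp [tr, sub_sub] }

@[simp] theorem act_q (δ : Γ) (f : Γ → ℤ) (γ : Γ) : act (q δ) f γ = f (γ - δ) := by
  simp [act, q, tr]

theorem act_mul (x y : ZG Γ) (f : Γ → ℤ) : act (x * y) f = act x (act y f) := by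
  rw [map_mul]; rfl

theorem act_one_sub_q (δ : Γ) (f : Γ → ℤ) (γ : Γ) :
    act (1 - q δ) f γ = f γ - f (γ - δ) := by
  rw [map_sub, map_one, LinearMap.sub_apply, Pi.sub_apply, act_q]; rfl

theorem act_coeff (x k : ZG Γ) : act x ⇑k.coeff = ⇑(x * k).coeff := by
  induction x using AddMonoidAlgebra.induction_linear with
  | zero => simp
  | add a b ha hb => rw [map_add, LinearMap.add_apply, ha, hb, add_mul]; simp
  | single δ z =>
    funext γ
    rw [single_eq_smul_q, map_smul, LinearMap.smul_apply, Pi.smul_apply, act_q, smul_mul_assoc,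
      AddMonoidAlgebra.coeff_smul, Finsupp.smul_apply, q,
      AddMonoidAlgebra.coeff_single_mul_apply, one_mul, neg_add_eq_sub]

omit [AddCommGroup Γ] in
theorem coeff_inj {k k' : ZG Γ} (h : (⇑k.coeff : Γ → ℤ) = ⇑k'.coeff) : k = k' :=
  AddMonoidAlgebra.ext (DFunLike.coe_injective h)

end group

/-- a grading of the free module with basis `ι` over the polynomial ring in the variables `V` -/
structure Gr (ι V Γ : Type*) [AddCommGroup Γ] where
  w : ι → Γ
  wt : V → Γ
  fin : ∀ γ, {p : ι × Mon V | w p.1 + Finsupp.weight wt p.2 = γ}.Finite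

variable {E ι V Γ : Type*} [DivisionRing E] [AddCommGroup Γ]

/-- degree of a basis monomial -/
noncomputable def Gr.deg (G : Gr ι V Γ) (p : ι × Mon V) : Γ := G.w p.1 + Finsupp.weight G.wt p.2

/-- coefficient of a basis monomial -/
def co (v : ι → Alg E V) (p : ι × Mon V) : E := (v p.1).coeff p.2

/-- the homogeneous elements of degree `γ` -/
def Gr.piece (G : Gr ι V Γ) (E : Type*) [DivisionRing E] (γ : Γ) : Submodule E (ι → Alg E V) where
  carrier := {v | ∀ p, co v p ≠ 0 → G.deg p = γ}
  add_mem' := fun {a b} ha hb p hp => by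
    by_cases h : co a p = 0
    · refine hb p fun h' => hp ?_
      simp only [co] at h h' ⊢
      simp [h, h']
    · exact ha p h
  zero_mem' := fun p hp => absurd rfl hp
  smul_mem' := fun c v hv p hp => hv p fun h => hp (by
    simp only [co] at h ⊢
    simp [h])

open Classical in
/-- the component of degree `γ` -/
noncomputable def Gr.proj (G : Gr ι V Γ) (γ : Γ) (v : ι → Alg E V) : ι → Alg E V :=
  fun i => AddMonoidAlgebra.ofCoeff ((v i).coeff.filter fun m => G.deg (i, m) = γ)

/-- a graded submodule -/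
def Gr.Graded (G : Gr ι V Γ) (U : Submodule (Alg E V) (ι → Alg E V)) : Prop :=
  ∀ v ∈ U, ∀ γ, G.proj γ v ∈ U

/-- the Hilbert function of a submodule -/
noncomputable def Gr.hf (G : Gr ι V Γ) (U : Submodule (Alg E V) (ι → Alg E V)) (γ : Γ) : ℤ :=
  finrank E ↥(U.restrictScalars E ⊓ G.piece E γ)

/-- the denominator of Hilbert series -/
noncomputable def Gr.den [Fintype V] (G : Gr ι V Γ) : ZG Γ := ∏ v, (1 - q (G.wt v))

/-- `k` is the numerator of the Hilbert series of the subquotient `U1 / U0` -/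
def Gr.IsK [Fintype V] (G : Gr ι V Γ) (U1 U0 : Submodule (Alg E V) (ι → Alg E V)) (k : ZG Γ) :
    Prop :=
  act G.den (G.hf U1 - G.hf U0) = ⇑k.coeff

/-- number of basis monomials of degree `γ` in a set -/
noncomputable def Gr.cnt (G : Gr ι V Γ) (A : Set (ι × Mon V)) (γ : Γ) : ℤ :=
  {p ∈ A | G.deg p = γ}.ncard

open Classical in
/-- numerator of the Hilbert series of a cell `p + ℕ ^ σ` -/
noncomputable def Gr.cellK [Fintype V] (G : Gr ι V Γ) (c : (ι × Mon V) × Finset V) : ZG Γ :=
  q (G.deg c.1) * ∏ v ∈ univ \ c.2, (1 - q (G.wt v))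

/-- a linear map between free modules that is homogeneous of degree `δ` -/
def Hom {ι' : Type*} (G : Gr ι V Γ) (G' : Gr ι' V Γ)
    (c : (ι → Alg E V) →ₗ[Alg E V] (ι' → Alg E V)) (δ : Γ) : Prop :=
  ∀ γ, ∀ v ∈ G.piece E γ, c v ∈ G'.piece E (γ + δ)

/-- a polynomial all of whose monomials have weight `δ` -/
def HomA (wt : V → Γ) (g : Alg E V) (δ : Γ) : Prop :=
  ∀ m, g.coeff m ≠ 0 → Finsupp.weight wt m = δ

/-- a set of basis monomials closed under multiplication by monomials -/
def Upper (A : Set (ι × Mon V)) : Prop := ∀ p ∈ A, ∀ m, (p.1, p.2 + m) ∈ A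

/-- polynomials with coefficients in the central field -/
noncomputable def inc (K E V : Type*) [Field K] [DivisionRing E] [Algebra K E] :
    MvPolynomial V K →+* Alg E V :=
  AddMonoidAlgebra.mapRingHom (V →₀ ℕ) (algebraMap K E)

end Vale.Agent.P200.Eq
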