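import Mathlib

open MvPolynomial Finset

namespace Vale.Agent.P200.Eq

/-- the linear functional on polynomials with prescribed values on monomials -/
noncomputable def fn {A : Type*} [CommRing A] {n : ℕ} (R : (Fin n →₀ ℕ) → A) :
    MvPolynomial (Fin n) A →ₗ[A] A :=
  (basisMonomials (Fin n) A).constr A R

theorem fn_monomial {A : Type*} [CommRing A] {n : ℕ} (R : (Fin n →₀ ℕ) → A) (β : Fin n →₀ ℕ)
    (c : A) : fn R (monomial β c) = c * R β := by
  have h : monomial β c = c • basisMonomials (Fin n) A β := by
    rw [coe_basisMonomials, smul_monomial, smul_eq_mul, mul_one]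
  rw [h, map_smul, fn, Module.Basis.constr_basis, smul_eq_mul]

theorem fn_eq_sum {A : Type*} [CommRing A] {n : ℕ} (R : (Fin n →₀ ℕ) → A)
    (p : MvPolynomial (Fin n) A) : fn R p = ∑ β ∈ p.support, coeff β p * R β := by
  conv_lhs => rw [p.as_sum, map_sum]
  simp only [fn_monomial]

theorem map_fn {A B : Type*} [CommRing A] [CommRing B] {n : ℕ} (ψ : A →+* B)
    (R : (Fin n →₀ ℕ) → A) (p : MvPolynomial (Fin n) A) :
    ψ (fn R p) = fn (fun β => ψ (R β)) (MvPolynomial.map ψ p) := by
  induction p using MvPolynomial.induction_on' with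
  | monomial β c => rw [map_monomial, fn_monomial, fn_monomial, map_mul]
  | add p q hp hq => rw [map_add, map_add, hp, hq, map_add, map_add]

/-- the catalecticant `S_1 × S_e → F` of the functional with values `R` has rank at most one -/
def Rk1 {F : Type*} [CommRing F] {n : ℕ} (R : (Fin n →₀ ℕ) → F) (e : ℕ) : Prop :=
  ∀ (i j : Fin n) (β γ : Fin n →₀ ℕ), β.degree = e → γ.degree = e →
    R (β + Finsupp.single i 1) * R (γ + Finsupp.single j 1) =
      R (β + Finsupp.single j 1) * R (γ + Finsupp.single i 1)

end Vale.Agent.P200.Eq
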