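import Vale.Agent.P200.Eq.SDefs
import Vale.Agent.P200.Eq.Fn

open Finset MvPolynomial

namespace Vale.Agent.P200.Eq

/-- the variables `ℓ_{s,k,i}` -/
abbrev Var (M a n : ℕ) := Fin M × ZMod a × Fin n

/-- index set of the matrices -/
abbrev Gp (M a : ℕ) := Fin M → ZMod a

/-- the grading group: block weights, degree, homological degree -/
abbrev Gam (M a : ℕ) := (Fin M → ZMod a → ℤ) × ℤ × ℤ

variable {M a n : ℕ}

/-- weight of a variable -/
def wtB (v : Var M a n) : Gam M a :=
  (Pi.single v.1 (Pi.single v.2.1 1 - Pi.single (v.2.1 + 1) 1), 1, 0)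

/-- weight of a basis vector -/
def wB (g : Gp M a) : Gam M a := (fun s => Pi.single (g s) 1, 0, 0)

/-- the degree -/
def dgB (M a : ℕ) : Gam M a →+ ℤ := (AddMonoidHom.fst ℤ ℤ).comp (AddMonoidHom.snd _ _)

/-- the homological degree -/
def hB (M a : ℕ) : Gam M a →+ ℤ := (AddMonoidHom.snd ℤ ℤ).comp (AddMonoidHom.snd _ _)

/-- the weight `d` times the degree generator -/
def dB (M a : ℕ) (d : ℕ) : Gam M a := (0, d, 0)

/-- coordinate of the block weight -/
def fB (s : Fin M) (t : ZMod a) : Gam M a →+ ℤ where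
  toFun γ := γ.1 s t
  map_zero' := rfl
  map_add' _ _ := rfl

/-- cyclic shift of the weights of the block `s` -/
def thB (s : Fin M) : Gam M a ≃+ Gam M a where
  toFun γ := (fun t k => γ.1 t (if t = s then k - 1 else k), γ.2)
  invFun γ := (fun t k => γ.1 t (if t = s then k + 1 else k), γ.2)
  left_inv γ := by
    refine Prod.ext (funext fun t => funext fun k => ?_) rfl
    by_cases h : t = s <;> simp [h]
  right_inv γ := by
    refine Prod.ext (funext fun t => funext fun k => ?_) rfl
    by_cases h : t = s <;> simp [h]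
  map_add' _ _ := rfl

/-- cyclic shift of the variables of the block `s` -/
def piB (s : Fin M) : Equiv.Perm (Var M a n) where
  toFun v := (v.1, if v.1 = s then v.2.1 + 1 else v.2.1, v.2.2)
  invFun v := (v.1, if v.1 = s then v.2.1 - 1 else v.2.1, v.2.2)
  left_inv v := by
    obtain ⟨t, k, i⟩ := v
    by_cases h : t = s <;> simp [h]
  right_inv v := by
    obtain ⟨t, k, i⟩ := v
    by_cases h : t = s <;> simp [h]

/-- the shift on polynomials -/
noncomputable def sgB (A : Type*) [Semiring A] (n : ℕ) (s : Fin M) :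
    Alg A (Var M a n) →+* Alg A (Var M a n) :=
  AddMonoidAlgebra.mapDomainRingHom A (Finsupp.mapDomain.addMonoidHom (piB s))

variable [NeZero a]

/-- the monomial `∏ₖ ℓ_{s,k,f k}` -/
noncomputable def mon (s : Fin M) (f : ZMod a → Fin n) : Mon (Var M a n) :=
  ∑ k, Finsupp.single (s, k, f k) 1

/-- the monomial `∏ₖ x_{f k}` -/
noncomputable def bet (f : ZMod a → Fin n) : Fin n →₀ ℕ := ∑ k, Finsupp.single (f k) 1

/-- the functional with values `R` applied to the universal form `∑ₛ ∏ₖ ℓ_{s,k}` -/
noncomputable def phi (M a : ℕ) [NeZero a] {A : Type*} [Semiring A] (R : (Fin n →₀ ℕ) → A) :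
    Alg A (Var M a n) :=
  ∑ s : Fin M, ∑ f : ZMod a → Fin n, AddMonoidAlgebra.single (mon s f) (R (bet f))

variable {K : Type*} [Field K]

/-- the character of `ZMod a` with value `ζ` at `1` -/
def chi (ζ : K) (x : ZMod a) : K := ζ ^ x.val

/-- the twisting factor of the semilinear shift -/
def etaB (ζ : K) (s : Fin M) (g : Gp M a) : K := chi ζ (∑ t ∈ Ioi s, g t)

/-- the cyclic matrix of the block `s` -/
noncomputable def ymat (ζ : K) (s : Fin M) (L : ZMod a → MvPolynomial (Var M a n) K) :
    Matrix (Gp M a) (Gp M a) (MvPolynomial (Var M a n) K) :=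
  Matrix.of fun g g' =>
    if g' = g + Pi.single s 1 then C (chi ζ (∑ t ∈ Iio s, g t)) * L (g s) else 0

/-- the coefficient of `x_i` in the universal matrix factorization -/
noncomputable def yB (M a : ℕ) [NeZero a] (ζ : K) (i : Fin n) :
    Matrix (Gp M a) (Gp M a) (MvPolynomial (Var M a n) K) :=
  ∑ s, ymat ζ s fun k => X (s, k, i)

/-- the partner of the variable `ℓ_{s,0,i}` in the matrix factorization of `∑ χⱼ φⱼ` -/
noncomputable def bB {r : ℕ} (lam : Fin r → (Fin n →₀ ℕ) → K) (y : Var M a n) :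
    MvPolynomial (Var M a n ⊕ Fin r) K :=
  fn (fun β => ∑ j, (X (Sum.inr j) : MvPolynomial (Var M a n ⊕ Fin r) K) * C (lam j β))
    (X y.2.2 * ∏ t : {k : ZMod a // k ≠ 0}, ∑ i, C (X (Sum.inl (y.1, t.1, i))) * X i)

variable {E : Type*} [DivisionRing E] [Algebra K E]

/-- homogeneous matrices of degree `d` commuting with the semilinear shifts -/
def cB (E : Type*) [DivisionRing E] [Algebra K E] (M a n : ℕ) [NeZero a] (ζ : K) (d : ℕ) :
    Submodule E (Matrix (Gp M a) (Gp M a) (Alg E (Var M a n))) where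
  carrier := {c | (∀ g g', HomA wtB (c g g') (dB M a d + wB g - wB g')) ∧
    ∀ s g g', etaB ζ s g • c (g + Pi.single s 1) (g' + Pi.single s 1) =
      etaB ζ s g' • sgB E n s (c g g')}
  add_mem' := by
    rintro x y ⟨h1, h2⟩ ⟨h3, h4⟩
    refine ⟨fun g g' m hm => ?_, fun s g g' => ?_⟩
    · by_cases h : (x g g').coeff m = 0
      · refine h3 g g' m fun h' => hm ?_
        simp [h, h']
      · exact h1 g g' m h
    · simp only [Matrix.add_apply, smul_add, map_add, h2, h4]
  zero_mem' := ⟨fun g g' m hm => absurd rfl hm, fun s g g' => by simp⟩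
  smul_mem' := by
    rintro e x ⟨h1, h2⟩
    refine ⟨fun g g' m hm => h1 g g' m fun h => hm ?_, fun s g g' => ?_⟩
    · simp [h]
    · have h3 : ∀ y : Alg E (Var M a n), e • y = AddMonoidAlgebra.single 0 e * y := by
        intro y
        ext m
        simp [AddMonoidAlgebra.coeff_single_zero_mul]
      have h4 : sgB E n s (AddMonoidAlgebra.single (0 : Mon (Var M a n)) e) =
          AddMonoidAlgebra.single 0 e := by simp [sgB]
      simp only [Matrix.smul_apply]
      rw [h3, h3, map_mul, h4, ← mul_smul_comm, ← mul_smul_comm, h2]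

end Vale.Agent.P200.Eq
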