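import Vale.Agent.P200.Eq.Lead
import Vale.Agent.P200.Eq.Cells

/-! Extension of graded submodules to more variables and several copies. -/

open Module Finset MvPolynomial

namespace Vale.Agent.P200.Eq

variable {E ι V W Λ Γ : Type*} [DivisionRing E] [AddCommGroup Γ]

theorem big_inj {m m' : Mon V} {μ μ' : Mon W} :
    m.sumElim μ = m'.sumElim μ' ↔ m = m' ∧ μ = μ' :=
  Finsupp.sumFinsuppEquivProdFinsupp.symm.injective.eq_iff (a := (m, μ)) (b := (m', μ'))
    |>.trans Prod.mk_inj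

theorem big_surj (a : Mon (V ⊕ W)) : ∃ (m : Mon V) (μ : Mon W), a = m.sumElim μ :=
  ⟨_, _, (Finsupp.comapDomain_sumElim_comapDomain a).symm⟩

/-- the coefficient of the monomial `μ` in the new variables -/
noncomputable def bigSl (μ : Mon W) (x : Alg E (V ⊕ W)) : Alg E V :=
  .ofCoeff (Finsupp.comapDomain (fun m : Mon V => m.sumElim μ) x.coeff
    fun _ _ _ _ h => (big_inj.1 h).1)

theorem bigSl_coeff (μ : Mon W) (x : Alg E (V ⊕ W)) (m : Mon V) :
    (bigSl μ x).coeff m = x.coeff (m.sumElim μ) := rfl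

theorem bigSl_zero (μ : Mon W) : bigSl μ (0 : Alg E (V ⊕ W)) = 0 := by ext; rfl

theorem bigSl_add (μ : Mon W) (x y : Alg E (V ⊕ W)) : bigSl μ (x + y) = bigSl μ x + bigSl μ y := by
  ext; rfl

theorem bigSl_mul (m : Mon V) (ν μ : Mon W) (r : E) (x : Alg E (V ⊕ W)) :
    bigSl (ν + μ) (AddMonoidAlgebra.single (m.sumElim ν) r * x) =
      AddMonoidAlgebra.single m r * bigSl μ x := by
  ext m'
  rw [bigSl_coeff]
  by_cases h : ∃ d, m + d = m'
  · obtain ⟨d, rfl⟩ := h
    rw [Finsupp.sumElim_add, AddMonoidAlgebra.coeff_single_mul_add,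
      AddMonoidAlgebra.coeff_single_mul_add, bigSl_coeff]
  · rw [AddMonoidAlgebra.coeff_single_mul_of_forall_add_ne _ _ (not_exists.1 h),
      AddMonoidAlgebra.coeff_single_mul_of_forall_add_ne]
    intro d hd
    obtain ⟨d, μ', rfl⟩ := big_surj d
    rw [← Finsupp.sumElim_add] at hd
    exact h ⟨d, (big_inj.1 hd).1⟩

theorem bigSl_mul' (m : Mon V) {ν μ : Mon W} (h : ¬ ∃ d, ν + d = μ) (r : E) (x : Alg E (V ⊕ W)) :
    bigSl μ (AddMonoidAlgebra.single (m.sumElim ν) r * x) = 0 := by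
  ext m'
  rw [bigSl_coeff, AddMonoidAlgebra.coeff_single_mul_of_forall_add_ne]
  · rfl
  · intro d hd
    obtain ⟨d, μ', rfl⟩ := big_surj d
    rw [← Finsupp.sumElim_add] at hd
    exact h ⟨μ', (big_inj.1 hd).2⟩

theorem big_inc {K : Type*} [Field K] [Algebra K E] (a : Mon V) (c : K) :
    inc K E V (monomial a c) = AddMonoidAlgebra.single a (algebraMap K E c) :=
  AddMonoidAlgebra.mapRingHom_single _ _ _

theorem bigSl_inc {K : Type*} [Field K] [Algebra K E] (p : MvPolynomial V K) (μ : Mon W)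
    (x : Alg E (V ⊕ W)) :
    bigSl μ (inc K E (V ⊕ W) (rename Sum.inl p) * x) = inc K E V p * bigSl μ x := by
  induction p using MvPolynomial.induction_on' with
  | add p p' hp hp' => simp only [map_add, add_mul, bigSl_add, hp, hp']
  | monomial m c =>
    have h2 := bigSl_mul m 0 μ (algebraMap K E c) x
    rw [zero_add, Finsupp.sumElim_eq_add, Finsupp.mapDomain_zero, add_zero] at h2
    rw [rename_monomial, big_inc, big_inc, h2]

/-- multiplication by the monomial `μ` in the new variables -/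
noncomputable def bigEm (μ : Mon W) (y : Alg E V) : Alg E (V ⊕ W) :=
  .ofCoeff (y.coeff.embDomain ⟨fun m : Mon V => m.sumElim μ, fun _ _ h => (big_inj.1 h).1⟩)

theorem bigSl_em (μ : Mon W) (y : Alg E V) : bigSl μ (bigEm μ y) = y := by
  ext m
  exact Finsupp.embDomain_apply_self _ _ m

theorem bigSl_em' {μ μ' : Mon W} (h : μ' ≠ μ) (y : Alg E V) : bigSl μ' (bigEm μ y) = 0 := by
  ext m
  exact Finsupp.embDomain_notin_range _ _ _ fun ⟨_, e⟩ => h (big_inj.1 e).2.symm

/-- the extended submodule -/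
def bigU (W Λ : Type*) (U : Submodule (Alg E V) (ι → Alg E V)) :
    Submodule (Alg E (V ⊕ W)) (ι × Λ → Alg E (V ⊕ W)) where
  carrier := {v | ∀ l μ, (fun i => bigSl μ (v (i, l))) ∈ U}
  add_mem' := fun {a b} ha hb l μ => by
    simp only [Pi.add_apply, bigSl_add]
    exact U.add_mem (ha l μ) (hb l μ)
  zero_mem' := fun l μ => by
    simp only [Pi.zero_apply, bigSl_zero]
    exact U.zero_mem
  smul_mem' := fun g v hv l μ => by
    simp only [Pi.smul_apply, smul_eq_mul]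
    induction g using AddMonoidAlgebra.induction_linear with
    | zero =>
      simp only [zero_mul, bigSl_zero]
      exact U.zero_mem
    | add a b ha hb =>
      simp only [add_mul, bigSl_add]
      exact U.add_mem ha hb
    | single a r =>
      obtain ⟨m, ν, rfl⟩ := big_surj a
      by_cases h : ∃ d, ν + d = μ
      · obtain ⟨d, rfl⟩ := h
        simp only [bigSl_mul]
        exact U.smul_mem _ (hv l d)
      · simp only [bigSl_mul' m h]
        exact U.zero_mem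

theorem big_deg (G : Gr ι V Γ) (G' : Gr (ι × Λ) (V ⊕ W) Γ) (wΛ : Λ → Γ)
    (hw : ∀ i l, G'.w (i, l) = G.w i + wΛ l) (hwt : ∀ v, G'.wt (Sum.inl v) = G.wt v)
    (i : ι) (l : Λ) (m : Mon V) (μ : Mon W) : G'.deg ((i, l), m.sumElim μ) =
      G.deg (i, m) + (wΛ l + Finsupp.weight (fun w => G'.wt (Sum.inr w)) μ) := by
  simp only [Gr.deg, hw, Finsupp.weight_apply, Finsupp.sum_sumElim, Function.comp_def, hwt]
  abel

theorem big_graded (G : Gr ι V Γ) (G' : Gr (ι × Λ) (V ⊕ W) Γ) (wΛ : Λ → Γ)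
    (hw : ∀ i l, G'.w (i, l) = G.w i + wΛ l) (hwt : ∀ v, G'.wt (Sum.inl v) = G.wt v)
    {U : Submodule (Alg E V) (ι → Alg E V)} (h : G.Graded U) : G'.Graded (bigU W Λ U) := by
  intro v hv γ l μ
  have e : (fun i => bigSl μ (G'.proj γ v (i, l))) =
      G.proj (γ - (wΛ l + Finsupp.weight (fun w => G'.wt (Sum.inr w)) μ))
        fun i => bigSl μ (v (i, l)) := by
    ext i m
    classical
    simp only [bigSl_coeff, Gr.proj, Finsupp.filter_apply]
    refine if_congr ?_ rfl rfl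
    rw [big_deg G G' wΛ hw hwt, eq_sub_iff_add_eq]
  rw [e]
  exact h _ (hv l μ) _

/-- inclusion of the old monomials -/
noncomputable def bigIn (V W : Type*) : Mon V →+ Mon (V ⊕ W) where
  toFun m := m.sumElim 0
  map_zero' := Finsupp.sumElim_zero_zero
  map_add' a b := by rw [← Finsupp.sumElim_add, add_zero]

theorem big_D (D : Mon (V ⊕ W) →+ Bo) (m : Mon V) (μ : Mon W) :
    D (m.sumElim μ) = D.comp (bigIn V W) m + D ((0 : Mon V).sumElim μ) := by
  refine Eq.trans (congrArg D ?_) (map_add D (m.sumElim 0) _)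
  rw [← Finsupp.sumElim_add, add_zero, zero_add]

theorem big_lead (o : ι × Λ → ℕ) (D : Mon (V ⊕ W) →+ Bo) (U : Submodule (Alg E V) (ι → Alg E V))
    (i : ι) (l : Λ) (m : Mon V) (μ : Mon W) : ((i, l), m.sumElim μ) ∈ Lead o D (bigU W Λ U) ↔
      (i, m) ∈ Lead (fun i => o (i, l)) (D.comp (bigIn V W)) U := by
  classical
  constructor
  · rintro ⟨u, hu, h1, h2⟩
    refine ⟨_, hu l μ, h1, fun p hp => (h2 ((p.1, l), p.2.sumElim μ) hp).imp (fun h => ?_)
      fun h => ⟨(big_inj.1 h.1).1, h.2⟩⟩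
    rw [big_D, big_D D m] at h
    exact lt_of_add_lt_add_right h
  · rintro ⟨u, hu, h1, h2⟩
    have key : ∀ l' μ', (fun i => bigSl μ' (if l' = l then bigEm μ (u i) else 0)) =
        if l' = l ∧ μ' = μ then u else 0 := fun l' μ' => funext fun j => by
      by_cases a : l' = l
      · by_cases b : μ' = μ
        · simp only [a, b, bigSl_em, and_self, if_true]
        · simp only [a, b, bigSl_em' b, and_false, if_true, if_false, Pi.zero_apply]
      · simp only [a, bigSl_zero, false_and, if_false, Pi.zero_apply]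
    have key' : ∀ j l' m' μ', co (fun x : ι × Λ => if x.2 = l then bigEm μ (u x.1) else 0)
        ((j, l'), Finsupp.sumElim m' μ') = co (if l' = l ∧ μ' = μ then u else 0) (j, m') :=
      fun j l' m' μ' => congrArg (co · (j, m')) (key l' μ')
    refine ⟨fun x => if x.2 = l then bigEm μ (u x.1) else 0, fun l' μ' => ?_, ?_, ?_⟩
    · rw [key]
      split_ifs
      exacts [hu, U.zero_mem]
    · rw [key', if_pos ⟨rfl, rfl⟩]
      exact h1
    · rintro ⟨⟨j, l'⟩, a⟩ hp
      obtain ⟨m', μ', rfl⟩ := big_surj a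
      rw [key'] at hp
      split_ifs at hp with h
      · obtain ⟨rfl, rfl⟩ := h
        refine (h2 _ hp).imp (fun h => ?_) fun h => ⟨big_inj.2 ⟨h.1, rfl⟩, h.2⟩
        rw [big_D, big_D D m]
        exact add_lt_add_left h _
      · exact absurd rfl hp

theorem big_dir [Fintype ι] [Fintype V] (G : Gr ι V Γ) (A : Set (ι × Mon V)) (S : Finset V)
    (hA : ∀ v ∈ S, ∀ p : ι × Mon V, p ∈ A ↔ (p.1, p.2 + Finsupp.single v 1) ∈ A) :
    act (∏ v ∈ S, (1 - q (G.wt v))) (G.cnt A) = G.cnt {p ∈ A | ∀ v ∈ S, p.2 v = 0} := by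
  classical
  induction S using Finset.induction_on with
  | empty => simp
  | insert v S hv ih =>
    rw [Finset.prod_insert hv, act_mul, ih fun w hw => hA w (mem_insert_of_mem hw), act_cnt_dir]
    · congr 1
      ext p
      simp only [Set.mem_setOf_eq, forall_mem_insert]
      tauto
    · intro p
      refine and_congr (hA v (mem_insert_self _ _) p) (forall₂_congr fun w hw => ?_)
      rw [Finsupp.add_apply, Finsupp.single_eq_of_ne (ne_of_mem_of_not_mem hw hv), add_zero]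

theorem big_cnt [Fintype Λ] (G : Gr ι V Γ) (G' : Gr (ι × Λ) (V ⊕ W) Γ) (wΛ : Λ → Γ)
    (hw : ∀ i l, G'.w (i, l) = G.w i + wΛ l) (hwt : ∀ v, G'.wt (Sum.inl v) = G.wt v)
    (A : Λ → Set (ι × Mon V)) (A' : Set ((ι × Λ) × Mon (V ⊕ W)))
    (h : ∀ i l m μ, ((i, l), Finsupp.sumElim m μ) ∈ A' ↔ (i, m) ∈ A l ∧ μ = 0) (γ : Γ) :
    G'.cnt A' γ = ∑ l, G.cnt (A l) (γ - wΛ l) := by
  let f : Λ → ι × Mon V → (ι × Λ) × Mon (V ⊕ W) := fun l p => ((p.1, l), p.2.sumElim 0)
  have hf : ∀ l, Function.Injective (f l) := fun l p p' e =>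
    Prod.ext (congrArg (·.1.1) e) (big_inj.1 (congrArg (·.2) e)).1
  have e : {p ∈ A' | G'.deg p = γ} = ⋃ l, f l '' {p ∈ A l | G.deg p = γ - wΛ l} := by
    ext ⟨⟨i, l⟩, a⟩
    obtain ⟨m, μ, rfl⟩ := big_surj a
    rw [Set.mem_setOf_eq, h, big_deg G G' wΛ hw hwt, Set.mem_iUnion]
    constructor
    · rintro ⟨⟨h1, rfl⟩, h2⟩
      rw [map_zero, add_zero] at h2
      exact ⟨l, (i, m), ⟨h1, eq_sub_of_add_eq h2⟩, rfl⟩
    · rintro ⟨l', ⟨j, m'⟩, ⟨h1, h2⟩, h3⟩
      obtain ⟨h4, h5⟩ := Prod.mk.inj h3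
      obtain ⟨rfl, rfl⟩ := Prod.mk.inj h4
      obtain ⟨rfl, rfl⟩ := big_inj.1 h5
      exact ⟨⟨h1, rfl⟩, by rw [map_zero, add_zero, h2, sub_add_cancel]⟩
  rw [Gr.cnt, e, Set.ncard_iUnion_of_finite
    (fun l => ((G.fin _).subset fun _ hp => hp.2).image _), finsum_eq_sum_of_fintype, Nat.cast_sum]
  · exact Finset.sum_congr rfl fun l _ => congrArg _ (Set.ncard_image_of_injective _ (hf l))
  · intro l l' hl
    refine Set.disjoint_left.2 ?_
    rintro _ ⟨p, -, rfl⟩ ⟨p', -, e'⟩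
    exact hl (congrArg (·.1.2) e').symm

theorem big_hf [Fintype ι] [Fintype V] [Fintype W] [Fintype Λ] (G : Gr ι V Γ)
    (G' : Gr (ι × Λ) (V ⊕ W) Γ) (wΛ : Λ → Γ)
    (hw : ∀ i l, G'.w (i, l) = G.w i + wΛ l) (hwt : ∀ v, G'.wt (Sum.inl v) = G.wt v)
    {U : Submodule (Alg E V) (ι → Alg E V)} (h : G.Graded U) :
    act G'.den (G'.hf (bigU W Λ U)) = act (∑ l, q (wΛ l)) (act G.den (G.hf U)) := by
  obtain ⟨D, hD, -⟩ := exists_key (V := V ⊕ W) 0
  obtain ⟨o, ho⟩ := Countable.exists_injective_nat (ι × Λ)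
  have hD' : Function.Injective (D.comp (bigIn V W)) := fun _ _ e => (big_inj.1 (hD e)).1
  have e1 : G'.den = G.den * ∏ v ∈ univ.map Function.Embedding.inr, (1 - q (G'.wt v)) := by
    simp only [Gr.den, Fintype.prod_sum_type, hwt, Finset.prod_map, Function.Embedding.inr_apply]
  rw [← act_mul, mul_comm, act_mul, e1, act_mul, hf_eq_cnt G' ho hD (big_graded G G' wΛ hw hwt h),
    big_dir]
  · congr 1
    funext γ
    rw [big_cnt G G' wΛ hw hwt (fun l => Lead (fun i => o (i, l)) (D.comp (bigIn V W)) U), map_sum,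
      LinearMap.sum_apply, Finset.sum_apply]
    · refine Finset.sum_congr rfl fun l _ => ?_
      rw [act_q, hf_eq_cnt G (o := fun i => o (i, l)) (fun _ _ e => (Prod.mk.inj (ho e)).1) hD' h]
    · intro i l m μ
      rw [Set.mem_setOf_eq, big_lead]
      simp [Finsupp.ext_iff]
  · rintro _ hv ⟨⟨i, l⟩, a⟩
    obtain ⟨w, -, rfl⟩ := Finset.mem_map.1 hv
    obtain ⟨m, μ, rfl⟩ := big_surj a
    rw [Function.Embedding.inr_apply, ← Finsupp.sumElim_zero_single, ← Finsupp.sumElim_add,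
      add_zero, big_lead, big_lead]

variable [Fintype V]

theorem exists_big {K : Type*} [Field K] [Algebra K E] [Fintype ι] {W Λ : Type*} [Fintype W]
    [Fintype Λ] [DecidableEq Λ] (G : Gr ι V Γ) (G' : Gr (ι × Λ) (V ⊕ W) Γ) (wΛ : Λ → Γ)
    (hw : ∀ i l, G'.w (i, l) = G.w i + wΛ l) (hwt : ∀ v, G'.wt (Sum.inl v) = G.wt v) :
    ∃ big : Submodule (Alg E V) (ι → Alg E V) →
        Submodule (Alg E (V ⊕ W)) (ι × Λ → Alg E (V ⊕ W)),
      Monotone big ∧ (∀ U, G.Graded U → G'.Graded (big U)) ∧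
      (∀ U1 U0 k, G.Graded U1 → G.Graded U0 → G.IsK U1 U0 k →
        G'.IsK (big U1) (big U0) ((∑ l, q (wΛ l)) * k)) ∧
      (∀ U1 U0 (p : MvPolynomial V K), (∀ u ∈ U1, inc K E V p • u ∈ U0) →
        ∀ v ∈ big U1, inc K E (V ⊕ W) (rename Sum.inl p) • v ∈ big U0) ∧
      ∀ U, ∀ v ∈ big U, ∀ l l' : Λ,
        (fun x : ι × Λ => if x.2 = l' then v (x.1, l) else 0) ∈ big U := by
  refine ⟨bigU W Λ, fun _ _ h _ hv l μ => h (hv l μ), fun _ => big_graded G G' wΛ hw hwt,
    fun U1 U0 k h1 h0 hk => ?_, fun U1 U0 p h v hv l μ => ?_, fun U v hv l l' l'' μ => ?_⟩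
  · rw [Gr.IsK, map_sub, big_hf G G' wΛ hw hwt h1, big_hf G G' wΛ hw hwt h0, ← map_sub, ← map_sub,
      hk, act_coeff]
  · simp only [Pi.smul_apply, smul_eq_mul, bigSl_inc]
    exact h _ (hv l μ)
  · by_cases h : l'' = l'
    · simp only [h, if_true]
      exact hv l μ
    · simp only [h, if_false, bigSl_zero]
      exact U.zero_mem

end Vale.Agent.P200.Eq
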