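import Vale.Agent.P200.Eq.Basic

open Module Finset

namespace Vale.Agent.P200.Eq

theorem mf_scalar {R Λ : Type*} [CommRing R] [Fintype Λ] [DecidableEq Λ] (c : R) :
    Matrix.scalar Λ c = c • (1 : Matrix Λ Λ R) := by
  rw [Matrix.scalar_apply, Matrix.smul_one_eq_diagonal]

theorem mf_blocks {R Λ : Type*} [CommRing R] [Fintype Λ] [DecidableEq Λ] (c : R) :
    c • (1 : Matrix (Λ ⊕ Λ) (Λ ⊕ Λ) R) = Matrix.fromBlocks (c • 1) 0 0 (c • 1) := by
  rw [← Matrix.fromBlocks_one, Matrix.fromBlocks_smul, smul_zero]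

theorem exists_mf {R Γ Υ : Type*} [CommRing R] [AddCommGroup Γ] (Hm : Γ → R → Prop)
    (h0 : ∀ γ, Hm γ 0) (hneg : ∀ γ x, Hm γ x → Hm γ (-x)) (s : Finset Υ) (α : Υ → Γ) (δ : Γ)
    (a b : Υ → R) (ha : ∀ y ∈ s, Hm (α y) (a y)) (hb : ∀ y ∈ s, Hm (2 • δ - α y) (b y)) :
    ∃ (Λ : Type) (_ : Fintype Λ) (_ : DecidableEq Λ) (w : Λ → Γ) (d : Matrix Λ Λ R),
      (∀ l l', Hm (δ + w l - w l') (d l l')) ∧
      d * d = Matrix.scalar Λ (∑ y ∈ s, a y * b y) ∧
      (∀ y ∈ s, ∃ h, d * h + h * d = Matrix.scalar Λ (a y)) ∧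
      (∀ y ∈ s, ∃ h, d * h + h * d = Matrix.scalar Λ (b y)) ∧
      ∑ l, q (w l) = ∏ y ∈ s, (1 + q (δ - α y)) := by
  induction s using Finset.cons_induction with
  | empty =>
    exact ⟨Unit, inferInstance, inferInstance, 0, 0, fun _ _ => h0 _, by simp, by simp, by simp,
      by simp⟩
  | cons y s hy ih =>
    obtain ⟨Λ, _, _, w, d, h1, h2, h3, h4, h5⟩ := ih (fun z hz => ha z (mem_cons_of_mem hz))
      fun z hz => hb z (mem_cons_of_mem hz)
    have old : ∀ c : R, (∃ h, d * h + h * d = Matrix.scalar Λ c) →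
        ∃ h, Matrix.fromBlocks d (a y • 1) (b y • 1) (-d) * h +
          h * Matrix.fromBlocks d (a y • 1) (b y • 1) (-d) = Matrix.scalar (Λ ⊕ Λ) c := by
      rintro c ⟨h, hh⟩
      refine ⟨Matrix.fromBlocks h 0 0 (-h), ?_⟩
      rw [mf_scalar] at hh
      rw [mf_scalar, mf_blocks, ← hh]
      simp [Matrix.fromBlocks_multiply, Matrix.fromBlocks_add]
    refine ⟨Λ ⊕ Λ, inferInstance, inferInstance, Sum.elim w fun l => w l + (δ - α y),
      Matrix.fromBlocks d (a y • 1) (b y • 1) (-d), ?_, ?_, fun z hz => ?_, fun z hz => ?_, ?_⟩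
    · rintro (l | l) (l' | l')
      · exact h1 l l'
      · by_cases e : l = l'
        · subst e
          have e1 : δ + w l - (w l + (δ - α y)) = α y := by abel
          simpa [e1] using ha y (mem_cons_self _ _)
        · simpa [e] using h0 _
      · by_cases e : l = l'
        · subst e
          have e1 : δ + (w l + (δ - α y)) - w l = 2 • δ - α y := by abel
          simpa only [Sum.elim_inl, Sum.elim_inr, e1, Matrix.fromBlocks_apply₂₁, Matrix.smul_apply,
            Matrix.one_apply_eq, smul_eq_mul, mul_one] using hb y (mem_cons_self _ _)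
        · simpa [e] using h0 _
      · have e1 : δ + (w l + (δ - α y)) - (w l' + (δ - α y)) = δ + w l - w l' := by abel
        simpa only [Sum.elim_inr, e1, Matrix.fromBlocks_apply₂₂, Matrix.neg_apply] using
          hneg _ _ (h1 l l')
    · rw [mf_scalar] at h2
      rw [mf_scalar, mf_blocks, sum_cons, add_smul, ← h2]
      simp [Matrix.fromBlocks_multiply, smul_smul, mul_comm, add_comm]
    · rcases mem_cons.1 hz with rfl | hz
      · refine ⟨Matrix.fromBlocks 0 0 1 0, ?_⟩
        rw [mf_scalar, mf_blocks]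
        simp [Matrix.fromBlocks_multiply, Matrix.fromBlocks_add]
      · exact old _ (h3 z hz)
    · rcases mem_cons.1 hz with rfl | hz
      · refine ⟨Matrix.fromBlocks 0 1 0 0, ?_⟩
        rw [mf_scalar, mf_blocks]
        simp [Matrix.fromBlocks_multiply, Matrix.fromBlocks_add]
      · exact old _ (h4 z hz)
    · rw [Fintype.sum_sum_type, prod_cons, ← h5]
      simp only [Sum.elim_inl, Sum.elim_inr, q_add, ← sum_mul]
      ring

end Vale.Agent.P200.Eq
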