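import Vale.Agent.P200.Eq.Basic

open Finset

namespace Vale.Agent.P200.Eq

variable {Γ : Type*} [AddCommGroup Γ]

/-- the unit `1 - X` of the power series ring -/
noncomputable def omX : (PowerSeries ℤ)ˣ := (PowerSeries.invOneSubPow ℤ 1)⁻¹

theorem omX_val : (omX : PowerSeries ℤ) = 1 - PowerSeries.X := by
  have := PowerSeries.invOneSubPow_inv_eq_one_sub_pow ℤ 1
  rw [pow_one] at this
  exact this

/-- expansion of a Laurent polynomial at `t = 1 - X`, along the degree `dg` -/
noncomputable def piS (dg : Γ →+ ℤ) : ZG Γ →+* PowerSeries ℤ :=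
  (AddMonoidAlgebra.lift ℤ (PowerSeries ℤ) Γ
    { toFun := fun γ => ((omX ^ dg γ.toAdd : (PowerSeries ℤ)ˣ) : PowerSeries ℤ)
      map_one' := by simp
      map_mul' := fun a b => by simp [zpow_add] }).toRingHom

theorem piS_q (dg : Γ →+ ℤ) (γ : Γ) :
    piS dg (q γ) = ((omX ^ dg γ : (PowerSeries ℤ)ˣ) : PowerSeries ℤ) := by
  simp only [piS, q, AlgHom.toRingHom_eq_coe, RingHom.coe_coe, AddMonoidAlgebra.lift_single]
  exact one_smul ℤ _

/-- order of vanishing at least `j` -/
def Ord (F : PowerSeries ℤ) (j : ℕ) : Prop := ∀ i < j, PowerSeries.coeff i F = 0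

/-- the first nonzero coefficient is positive -/
def Pos (F : PowerSeries ℤ) : Prop := ∀ j, Ord F j → 0 ≤ PowerSeries.coeff j F

/-- the augmentation ideal -/
noncomputable def augI (Γ : Type*) [AddCommGroup Γ] : Ideal (ZG Γ) :=
  Ideal.span (Set.range fun γ : Γ => 1 - q γ)

end Vale.Agent.P200.Eq
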