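import Vale.Agent.P200.Eq.Big
import Vale.Agent.P200.Eq.KCells
import Vale.Agent.P200.Eq.MF
import Vale.Agent.P200.Eq.SDefs

open Module Finset MvPolynomial

namespace Vale.Agent.P200.Eq

variable {E ι V Γ : Type*} [DivisionRing E] [AddCommGroup Γ]

section inc
variable {K : Type*} [Field K] [Algebra K E]

theorem core_coeff_inc (p : MvPolynomial V K) (m : Mon V) :
    (inc K E V p).coeff m = algebraMap K E (coeff m p) :=
  AddMonoidAlgebra.coeff_mapRingHom _ _ _

theorem core_coeff_ne {p : MvPolynomial V K} {m : Mon V} (h : (inc K E V p).coeff m ≠ 0) :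
    coeff m p ≠ 0 := fun h0 => h (by rw [core_coeff_inc, h0, map_zero])

theorem core_inc_ne {p : MvPolynomial V K} (h : p ≠ 0) : inc K E V p ≠ 0 := fun h0 => by
  obtain ⟨m, hm⟩ := ne_zero_iff.1 h
  have := core_coeff_inc (E := E) p m
  rw [h0] at this
  exact hm ((map_eq_zero_iff _ (algebraMap K E).injective).1 this.symm)

theorem core_inc_comm (p : MvPolynomial V K) (g : Alg E V) : inc K E V p * g = g * inc K E V p := by
  induction p using AddMonoidAlgebra.induction_linear with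
  | zero => simp
  | add a b ha hb => rw [map_add, add_mul, mul_add, ha, hb]
  | single m c =>
    rw [inc, AddMonoidAlgebra.mapRingHom_single]
    induction g using AddMonoidAlgebra.induction_linear with
    | zero => simp
    | add a b ha hb => rw [add_mul, mul_add, ha, hb]
    | single n e =>
      rw [AddMonoidAlgebra.single_mul_single, AddMonoidAlgebra.single_mul_single, add_comm,
        Algebra.commutes]

theorem core_smul_comm (p : MvPolynomial V K) (g : Alg E V) (u : ι → Alg E V) :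
    inc K E V p • g • u = g • inc K E V p • u := by
  rw [← mul_smul, core_inc_comm, mul_smul]

theorem core_homA {wt : V → Γ} {p : MvPolynomial V K} {γ : Γ} (h : IsWeightedHomogeneous wt p γ) :
    HomA wt (inc K E V p) γ := fun _ hm => h (core_coeff_ne hm)

theorem core_supp {p : MvPolynomial V K} {σ : Finset V} (h : p ∈ supported K (σ : Set V))
    (m : Mon V) (hm : (inc K E V p).coeff m ≠ 0) (v : V) (hv : m v ≠ 0) : v ∈ σ := by
  classical
  exact mem_supported.1 h ((mem_vars_iff_mem_support v).2 ⟨m, mem_support_iff.2 (core_coeff_ne hm),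
    Finsupp.mem_support_iff.2 hv⟩)

variable {Λ : Type*} [Fintype Λ] [DecidableEq Λ]

/-- a matrix of central polynomials acting on the second index -/
noncomputable def coreOp (m : Matrix Λ Λ (MvPolynomial V K)) :
    (ι × Λ → Alg E V) →ₗ[Alg E V] (ι × Λ → Alg E V) where
  toFun v x := ∑ l, v (x.1, l) * inc K E V (m l x.2)
  map_add' u v := by funext x; simp [add_mul, sum_add_distrib]
  map_smul' g v := by funext x; simp [mul_sum, mul_assoc]

omit [DecidableEq Λ] in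
theorem coreOp_apply (m : Matrix Λ Λ (MvPolynomial V K)) (v : ι × Λ → Alg E V) (x : ι × Λ) :
    coreOp m v x = ∑ l, v (x.1, l) * inc K E V (m l x.2) := rfl

omit [DecidableEq Λ] in
theorem coreOp_mul (m m' : Matrix Λ Λ (MvPolynomial V K)) (v : ι × Λ → Alg E V) :
    coreOp (m * m') v = coreOp m' (coreOp m v) := by
  funext x
  simp only [coreOp_apply, Matrix.mul_apply, map_sum, map_mul, mul_sum, sum_mul, mul_assoc]
  exact sum_comm

omit [DecidableEq Λ] in
theorem coreOp_add (m m' : Matrix Λ Λ (MvPolynomial V K)) (v : ι × Λ → Alg E V) :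
    coreOp (m + m') v = coreOp m v + coreOp m' v := by
  funext x
  simp only [coreOp_apply, Matrix.add_apply, map_add, mul_add, sum_add_distrib, Pi.add_apply]

theorem coreOp_scalar (p : MvPolynomial V K) (v : ι × Λ → Alg E V) :
    coreOp (Matrix.scalar Λ p) v = inc K E V p • v := by
  funext x
  rw [coreOp_apply, sum_eq_single x.2 (fun l _ hl => by simp [hl]) (by simp), Pi.smul_apply,
    smul_eq_mul, core_inc_comm]
  simp

theorem coreOp_eq (m : Matrix Λ Λ (MvPolynomial V K)) (v : ι × Λ → Alg E V) :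
    coreOp m v = ∑ l, ∑ l', inc K E V (m l l') •
      fun x : ι × Λ => if x.2 = l' then v (x.1, l) else 0 := by
  funext x
  simp only [coreOp_apply, Finset.sum_apply, Pi.smul_apply, smul_eq_mul, mul_ite, mul_zero,
    sum_ite_eq, mem_univ, if_true, core_inc_comm]

theorem coreOp_hom (G : Gr (ι × Λ) V Γ) (w : ι → Γ) (wΛ : Λ → Γ)
    (hw : ∀ i l, G.w (i, l) = w i + wΛ l) {δ : Γ} {m : Matrix Λ Λ (MvPolynomial V K)}
    (hm : ∀ l l', IsWeightedHomogeneous G.wt (m l l') (δ + wΛ l - wΛ l')) :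
    Hom (E := E) G G (coreOp m) δ := by
  intro γ v hv
  rw [coreOp_eq]
  refine Submodule.sum_mem _ fun l _ => Submodule.sum_mem _ fun l' _ => ?_
  have h1 : (fun x : ι × Λ => if x.2 = l' then v (x.1, l) else 0) ∈
      G.piece E (γ - wΛ l + wΛ l') := by
    rintro ⟨⟨i, l''⟩, n⟩ hp
    by_cases h : l'' = l'
    · subst h
      have h2 := hv ((i, l), n) (by simpa [co] using hp)
      simp only [Gr.deg, hw] at h2 ⊢
      rw [← h2]; abel
    · simp [co, h] at hp
  have h2 := smul_mem_piece G (core_homA (hm l l')) h1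
  rwa [show γ - wΛ l + wΛ l' + (δ + wΛ l - wΛ l') = γ + δ by abel] at h2

end inc

/-- the ring endomorphism that sends `q δ` to `-1` -/
noncomputable def coreEv (h : Γ →+ ℤ) (δ : Γ) : ZG Γ →+* ZG Γ :=
  (AddMonoidAlgebra.lift ℤ (ZG Γ) Γ
    { toFun := fun γ => ((h γ.toAdd).negOnePow : ℤ) • q (γ.toAdd - h γ.toAdd • δ)
      map_one' := by simp
      map_mul' := fun a b => by
        rw [smul_mul_smul_comm, ← q_add, toAdd_mul, map_add, Int.negOnePow_add, Units.val_mul,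
          add_smul]
        congr 2
        abel }).toRingHom

theorem coreEv_q (h : Γ →+ ℤ) (δ γ : Γ) :
    coreEv h δ (q γ) = ((h γ).negOnePow : ℤ) • q (γ - h γ • δ) := by
  simp only [coreEv, q, AlgHom.toRingHom_eq_coe, RingHom.coe_coe, AddMonoidAlgebra.lift_single]
  exact one_smul ℤ _

theorem coreEv_q0 {h : Γ →+ ℤ} (δ : Γ) {γ : Γ} (h0 : h γ = 0) : coreEv h δ (q γ) = q γ := by
  simp [coreEv_q, h0]

theorem coreEv_q1 {h : Γ →+ ℤ} (δ : Γ) {γ : Γ} (h0 : h γ = 1) :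
    coreEv h δ (q γ) = -q (γ - δ) := by
  simp [coreEv_q, h0]

theorem coreEv_q2 {h : Γ →+ ℤ} (δ : Γ) {γ : Γ} (h0 : h γ = 2) :
    coreEv h δ (q γ) = q (γ - 2 • δ) := by
  rw [coreEv_q, h0, Int.negOnePow_even _ even_two, two_smul, two_smul]
  simp

theorem core_one_sub_ne {γ : Γ} (h : γ ≠ 0) : (1 : ZG Γ) - q γ ≠ 0 := fun h0 => by
  have h1 := congrArg (fun x : ZG Γ => x.coeff 0) (sub_eq_zero.1 h0)
  simp [q, AddMonoidAlgebra.one_def, h] at h1

theorem core_weight {h : Γ →+ ℤ} {wt : V → Γ} (hwt : ∀ v, h (wt v) = 0) (m : Mon V) :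
    h (Finsupp.weight wt m) = 0 := by
  rw [Finsupp.weight_apply, Finsupp.sum, map_sum]
  exact sum_eq_zero fun v _ => by rw [map_nsmul, hwt, smul_zero]

theorem core_prod_mem {R W : Type*} [CommRing R] {I : Ideal R} {e : W → R} (he : ∀ v, e v ∈ I)
    (T : Finset W) {c : ℕ} (hc : c ≤ T.card) : ∏ v ∈ T, e v ∈ I ^ c := by
  refine Ideal.pow_le_pow_right hc ?_
  rw [← prod_const]
  exact Ideal.prod_mem_prod fun v _ => he v

variable [Fintype V]

theorem core {K : Type*} [Field K] [Algebra K E] [Fintype ι] [IsDomain (ZG Γ)]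
    (G : Gr ι V Γ) (om h : Γ →+ ℤ) (δ z : Γ) (hδ : h δ = 1) (hz : h z = 0)
    (hw : ∀ i, h (G.w i) = 0) (hwt : ∀ v, h (G.wt v) = 0) (hom : ∀ v, 0 < om (G.wt v))
    (homχ : 0 < om (2 • δ - z)) {r : ℕ} (φ : Fin r → MvPolynomial V K) (Υ : Finset V)
    (b : V → MvPolynomial (V ⊕ Fin r) K)
    (hb : ∀ y ∈ Υ, IsWeightedHomogeneous (Sum.elim G.wt fun _ => 2 • δ - z) (b y)
      (2 • δ - G.wt y))
    (hsum : ∑ y ∈ Υ, X (Sum.inl y) * b y = ∑ j, X (Sum.inr j) * rename Sum.inl (φ j))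
    (B c : ℕ) (hc : c + B + Υ.card ≤ Fintype.card V + r)
    (htr : ∀ σ : Finset (V ⊕ Fin r), (∀ y ∈ Υ, Sum.inl y ∉ σ) → B < σ.card → ∀ j,
      ∃ (g : MvPolynomial (V ⊕ Fin r) K) (m : ℕ), g ≠ 0 ∧ g ∈ supported K (σ : Set (V ⊕ Fin r)) ∧
        X (Sum.inr j) ^ m * g ∈ Ideal.span (b '' (Υ : Set V)))
    {U1 U0 : Submodule (Alg E V) (ι → Alg E V)} (h1 : G.Graded U1) (h0 : G.Graded U0)
    (hle : U0 ≤ U1) (hφ : ∀ j, ∀ u ∈ U1, inc K E V (φ j) • u ∈ U0) {k : ZG Γ}
    (hk : G.IsK U1 U0 k) :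
    ∃ α k', k = α * (1 - q (-z)) ^ r + k' ∧ k' ∈ augI Γ ^ c := by
  classical
  set wt' : V ⊕ Fin r → Γ := Sum.elim G.wt fun _ => 2 • δ - z with hwt'
  obtain ⟨Λ, _, _, wΛ, d, hd, hdd, hha, hhb, hΛ⟩ := exists_mf
    (fun γ (x : MvPolynomial (V ⊕ Fin r) K) => IsWeightedHomogeneous wt' x γ)
    (fun γ => isWeightedHomogeneous_zero _ _ _) (fun γ x hx m hm => hx (by simpa using hm))
    Υ G.wt δ (fun y => X (Sum.inl y)) b (fun y _ => isWeightedHomogeneous_X _ _ _) hb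
  let G' : Gr (ι × Λ) (V ⊕ Fin r) Γ := ⟨fun x => G.w x.1 + wΛ x.2, wt',
    fin_of_pos (fun x : ι × Λ => G.w x.1 + wΛ x.2) wt' om (by rintro (v | j); exacts [hom v, homχ])⟩
  obtain ⟨big, hmono, hgr, hK, hinc, hE⟩ := exists_big (E := E) (K := K) G G' wΛ
    (fun _ _ => rfl) fun _ => rfl
  have hop : ∀ U (m : Matrix Λ Λ (MvPolynomial (V ⊕ Fin r) K)), ∀ v ∈ big U,
      coreOp m v ∈ big U := fun U m v hv => by
    rw [coreOp_eq]
    exact Submodule.sum_mem _ fun l _ => Submodule.sum_mem _ fun l' _ =>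
      Submodule.smul_mem _ _ (hE U v hv l l')
  have hD : Hom (E := E) G' G' (coreOp d) δ := coreOp_hom G' G.w wΛ (fun _ _ => rfl) hd
  have g1 := hgr _ h1
  have g0 := hgr _ h0
  set Z := big U1 ⊓ (big U0).comap (coreOp d) with hZ
  set Bd := (big U1).map (coreOp d) ⊔ big U0 with hBd
  have gZ : G'.Graded Z := g1.inf (g0.comap hD)
  have gB : G'.Graded Bd := (g1.map hD).sup g0
  have hBZ : Bd ≤ Z := by
    refine sup_le ?_ fun v hv => ⟨hmono hle hv, hop _ _ v hv⟩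
    rintro _ ⟨v, hv, rfl⟩
    refine ⟨hop _ _ v hv, ?_⟩
    change coreOp d (coreOp d v) ∈ big U0
    rw [← coreOp_mul, hdd, coreOp_scalar, hsum, map_sum, sum_smul]
    refine Submodule.sum_mem _ fun j _ => ?_
    rw [map_mul, mul_smul]
    exact Submodule.smul_mem _ _ (hinc _ _ _ (hφ j) v hv)
  have hh : ∀ (p : MvPolynomial (V ⊕ Fin r) K) (t : Matrix Λ Λ _),
      d * t + t * d = Matrix.scalar Λ p → ∀ u ∈ Z, inc K E _ p • u ∈ Bd := fun p t ht u hu => by
    rw [← coreOp_scalar, ← ht, coreOp_add, coreOp_mul, coreOp_mul, add_comm]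
    exact Submodule.add_mem_sup ⟨_, hop _ _ u hu.1, rfl⟩ (hop _ _ _ hu.2)
  have hI : ∀ p ∈ Ideal.span (b '' (Υ : Set V)), ∀ u ∈ Z, inc K E _ p • u ∈ Bd := by
    intro p hp u hu
    induction hp using Submodule.span_induction with
    | mem x hx =>
      obtain ⟨y, hy, rfl⟩ := hx
      obtain ⟨t, ht⟩ := hhb y hy
      exact hh _ t ht u hu
    | zero => simp
    | add x y _ _ hx hy => rw [map_add, add_smul]; exact add_mem hx hy
    | smul a x _ hx => rw [smul_eq_mul, map_mul, mul_smul]; exact Bd.smul_mem _ hx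
  let Z0 : Submodule (Alg E (V ⊕ Fin r)) (ι × Λ → Alg E (V ⊕ Fin r)) :=
    { carrier := {u | u ∈ Z ∧ ∀ j, ∃ m : ℕ, inc K E (V ⊕ Fin r) (X (Sum.inr j) ^ m) • u ∈ Bd}
      add_mem' := fun {u v} hu hv => ⟨add_mem hu.1 hv.1, fun j => by
        obtain ⟨m, hm⟩ := hu.2 j
        obtain ⟨n, hn⟩ := hv.2 j
        refine ⟨n + m, ?_⟩
        rw [smul_add]
        refine add_mem ?_ ?_
        · rw [pow_add, map_mul, mul_smul]; exact Bd.smul_mem _ hm
        · rw [add_comm, pow_add, map_mul, mul_smul]; exact Bd.smul_mem _ hn⟩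
      zero_mem' := ⟨zero_mem _, fun _ => ⟨0, by simp⟩⟩
      smul_mem' := fun g u hu => ⟨Z.smul_mem g hu.1, fun j => by
        obtain ⟨m, hm⟩ := hu.2 j
        exact ⟨m, by rw [core_smul_comm]; exact Bd.smul_mem _ hm⟩⟩ }
  have gZ0 : G'.Graded Z0 := fun u hu γ => ⟨gZ u hu.1 γ, fun j => by
    obtain ⟨m, hm⟩ := hu.2 j
    refine ⟨m, ?_⟩
    rw [← proj_smul G' (core_homA ((isWeightedHomogeneous_X K wt' (Sum.inr j)).pow m))]
    exact gB _ hm _⟩
  have hB0 : Bd ≤ Z0 := fun u hu => ⟨hBZ hu, fun _ => ⟨0, by simpa using hu⟩⟩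
  obtain ⟨C1, k1, -⟩ := exists_cells G' g1 gZ inf_le_left
  obtain ⟨CZ, kZ, cZ⟩ := exists_cells G' gZ gZ0 fun u hu => hu.1
  obtain ⟨C0, k0, c0⟩ := exists_cells G' gZ0 gB hB0
  have key := (hK _ _ _ h1 h0 hk).unique
    (k1.add (kZ.add (k0.add (Gr.IsK.shift rfl hD g1 g0 k1))))
  obtain ⟨Ck, kk, -⟩ := exists_cells G h1 h0 hle
  have evk : coreEv h δ k = k := by
    rw [hk.unique kk, map_sum]
    refine sum_congr rfl fun c _ => ?_
    rw [Gr.cellK, map_mul, map_prod, coreEv_q0 _ (by rw [Gr.deg, map_add, hw, core_weight hwt]; rfl)]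
    congr 1
    exact prod_congr rfl fun v _ => by rw [map_sub, map_one, coreEv_q0 _ (hwt v)]
  set e : V ⊕ Fin r → ZG Γ := fun v => coreEv h δ (1 - q (wt' v)) with he
  have el : ∀ v, e (Sum.inl v) = 1 - q (G.wt v) := fun v => by
    simp only [he, hwt', map_sub, map_one, Sum.elim_inl, coreEv_q0 _ (hwt v)]
  have er : ∀ j, e (Sum.inr j) = 1 - q (-z) := fun j => by
    simp only [he, hwt', map_sub, map_one, Sum.elim_inr]
    rw [coreEv_q2 _ (by simp [hδ, hz]), sub_sub_cancel_left]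
  have eI : ∀ v, e v ∈ augI Γ := by
    rintro (v | j)
    · rw [el]; exact Ideal.subset_span ⟨_, rfl⟩
    · rw [er]; exact Ideal.subset_span ⟨_, rfl⟩
  set N : ZG Γ := ∏ y ∈ Υ, (1 - q (-G.wt y)) with hN
  set J : Ideal (ZG Γ) := Ideal.span {(1 - q (-z)) ^ r} ⊔ augI Γ ^ c with hJ
  set S : Finset (V ⊕ Fin r) := Υ.map Function.Embedding.inl with hS
  have eS : ∏ v ∈ S, e v = N * ∏ y ∈ Υ, -q (G.wt y) := by
    rw [hS, prod_map, hN, ← prod_mul_distrib]
    refine prod_congr rfl fun y _ => ?_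
    rw [Function.Embedding.inl_apply, el, mul_neg, sub_mul, one_mul, mul_comm, q_mul_neg, neg_sub]
  have hcell : ∀ c' : ((ι × Λ) × Mon (V ⊕ Fin r)) × Finset (V ⊕ Fin r),
      (∀ y ∈ Υ, Sum.inl y ∉ c'.2) → ∏ v ∈ (univ \ c'.2) \ S, e v ∈ J →
      coreEv h δ (G'.cellK c') ∈ Ideal.span {N} * J := by
    intro c' h2 h3
    have h4 : S ⊆ univ \ c'.2 := fun v hv => by
      obtain ⟨y, hy, rfl⟩ := mem_map.1 hv
      exact mem_sdiff.2 ⟨mem_univ _, h2 y hy⟩
    have h5 : coreEv h δ (G'.cellK c') = coreEv h δ (q (G'.deg c'.1)) * ∏ v ∈ univ \ c'.2, e v := by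
      rw [Gr.cellK, map_mul, map_prod]
      refine congrArg _ (prod_congr ?_ fun _ _ => rfl)
      ext v
      simp only [mem_sdiff]
    rw [h5, ← prod_sdiff h4, eS, mul_comm (∏ v ∈ _ \ S, _)]
    exact Ideal.mul_mem_left _ _ (Ideal.mul_mem_mul
      (Ideal.mul_mem_right _ _ (Ideal.mem_span_singleton_self _)) h3)
  have hX : ∀ (v : V ⊕ Fin r) (m : ℕ) (σ : Finset (V ⊕ Fin r)), v ∈ σ →
      (X v ^ m : MvPolynomial (V ⊕ Fin r) K) ∈ supported K (σ : Set (V ⊕ Fin r)) :=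
    fun v m σ hv => pow_mem (X_mem_supported.2 hv) m
  have ha : ∀ y ∈ Υ, ∀ u ∈ Z, inc K E (V ⊕ Fin r) (X (Sum.inl y) ^ 1) • u ∈ Bd := fun y hy u hu => by
    obtain ⟨t, ht⟩ := hha y hy
    rw [pow_one]; exact hh _ t ht u hu
  have mZ : coreEv h δ (∑ c' ∈ CZ, G'.cellK c') ∈ Ideal.span {N} * J := by
    rw [map_sum]
    refine Ideal.sum_mem _ fun c' hc' => ?_
    obtain ⟨u, hu, hg⟩ := cZ c' hc'
    have h2 : ∀ y ∈ Υ, Sum.inl y ∉ c'.2 := fun y hy hm =>
      hg _ (core_inc_ne (pow_ne_zero 1 (X_ne_zero _))) (core_supp (hX _ 1 _ hm)) (hB0 (ha y hy u hu))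
    have h3 : c'.2.card ≤ B := by
      by_contra h3
      choose g m g1 g2 g3 using htr c'.2 h2 (not_le.1 h3)
      refine hg _ (core_inc_ne (prod_ne_zero_iff.2 fun j (_ : j ∈ univ) => g1 j))
        (core_supp (prod_mem fun j _ => g2 j)) ⟨Z.smul_mem _ hu, fun j => ⟨m j, ?_⟩⟩
      rw [← mul_smul, ← map_mul, ← mul_prod_erase _ _ (mem_univ j), ← mul_assoc]
      exact hI _ (Ideal.mul_mem_right _ _ (g3 j)) u hu
    refine hcell c' h2 (Ideal.mem_sup_right (core_prod_mem eI _ ?_))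
    have h4 := le_card_sdiff S (univ \ c'.2)
    have h5 := le_card_sdiff c'.2 univ
    rw [card_univ, Fintype.card_sum, Fintype.card_fin] at h5
    have h6 : S.card = Υ.card := card_map _
    omega
  have m0 : coreEv h δ (∑ c' ∈ C0, G'.cellK c') ∈ Ideal.span {N} * J := by
    rw [map_sum]
    refine Ideal.sum_mem _ fun c' hc' => ?_
    obtain ⟨u, hu, hg⟩ := c0 c' hc'
    refine hcell c' (fun y hy hm => hg _ (core_inc_ne (pow_ne_zero 1 (X_ne_zero _)))
      (core_supp (hX _ 1 _ hm)) (ha y hy u hu.1)) (Ideal.mem_sup_left ?_)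
    have h4 : univ.map Function.Embedding.inr ⊆ (univ \ c'.2) \ S := fun v hv => by
      obtain ⟨j, -, rfl⟩ := mem_map.1 hv
      obtain ⟨m, hm⟩ := hu.2 j
      exact mem_sdiff.2 ⟨mem_sdiff.2 ⟨mem_univ _, fun hj => hg _ (core_inc_ne
        (pow_ne_zero m (X_ne_zero _))) (core_supp (hX _ m _ hj)) hm⟩, by simp [hS]⟩
    rw [← prod_sdiff h4, prod_map]
    simp only [Function.Embedding.inr_apply, er, prod_const, card_univ, Fintype.card_fin]
    exact Ideal.mul_mem_left _ _ (Ideal.mem_span_singleton_self _)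
  have fin : N * k ∈ Ideal.span {N} * J := by
    have h2 := congrArg (coreEv h δ) key
    have h3 : coreEv h δ (∑ l, q (wΛ l)) = N := by
      rw [hΛ, map_prod]
      refine prod_congr rfl fun y _ => ?_
      rw [map_add, map_one, coreEv_q1 _ (by simp [hδ, hwt]), sub_sub_cancel_left, sub_eq_add_neg]
    rw [map_mul, evk, h3, map_add, map_add, map_add, map_mul, coreEv_q1 _ hδ, sub_self,
      q_zero] at h2
    rw [h2, show ∀ a b c : ZG Γ, a + (b + (c + -1 * a)) = b + c from fun a b c => by ring]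
    exact add_mem mZ m0
  obtain ⟨y, hy, h2⟩ := Ideal.mem_span_singleton_mul.1 fin
  have hN0 : N ≠ 0 := prod_ne_zero_iff.2 fun y _ => core_one_sub_ne fun h3 => by
    have := hom y
    rw [neg_eq_zero.1 h3, map_zero] at this
    exact lt_irrefl _ this
  rw [mul_left_cancel₀ hN0 h2] at hy
  obtain ⟨a, h3, k', h4, rfl⟩ := Submodule.mem_sup.1 hy
  obtain ⟨α, rfl⟩ := Ideal.mem_span_singleton'.1 h3
  exact ⟨α, k', rfl, h4⟩

end Vale.Agent.P200.Eq
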