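import Vale.Agent.P200.Eq.Basic

open Module Finset

namespace Vale.Agent.P200.Eq

variable {E ι ι' V Γ : Type*} [DivisionRing E] [AddCommGroup Γ]

theorem co_ext {v v' : ι → Alg E V} (h : ∀ p, co v p = co v' p) : v = v' :=
  funext fun i => AddMonoidAlgebra.coeff_injective (Finsupp.ext fun m => h (i, m))

theorem co_add (v v' : ι → Alg E V) (p : ι × Mon V) : co (v + v') p = co v p + co v' p := rfl

theorem co_zero (p : ι × Mon V) : co (0 : ι → Alg E V) p = 0 := rfl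

theorem co_smul (c : E) (v : ι → Alg E V) (p : ι × Mon V) : co (c • v) p = c * co v p := rfl

theorem co_sum {α : Type*} (s : Finset α) (f : α → ι → Alg E V) (p : ι × Mon V) :
    co (∑ a ∈ s, f a) p = ∑ a ∈ s, co (f a) p := by
  simp only [co, Finset.sum_apply, AddMonoidAlgebra.coeff_sum, Finsupp.finsetSum_apply]

theorem co_proj (G : Gr ι V Γ) (γ : Γ) (v : ι → Alg E V) (p : ι × Mon V)
    [Decidable (G.deg p = γ)] : co (G.proj γ v) p = if G.deg p = γ then co v p else 0 := by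
  by_cases h : G.deg p = γ <;> simp [co, Gr.proj, h]

theorem proj_mem_piece (G : Gr ι V Γ) (γ : Γ) (v : ι → Alg E V) :
    G.proj γ v ∈ G.piece E γ := fun p hp => by
  classical
  by_contra h
  exact hp (by rw [co_proj, if_neg h])

theorem proj_add (G : Gr ι V Γ) (γ : Γ) (v v' : ι → Alg E V) :
    G.proj γ (v + v') = G.proj γ v + G.proj γ v' := co_ext fun p => by
  classical
  rw [co_add, co_proj, co_proj, co_proj, co_add, ite_add_ite, add_zero]

theorem proj_zero (G : Gr ι V Γ) (γ : Γ) : G.proj γ (0 : ι → Alg E V) = 0 := co_ext fun p => by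
  classical
  rw [co_proj, co_zero, ite_self]

theorem proj_sum (G : Gr ι V Γ) (γ : Γ) {α : Type*} (s : Finset α) (f : α → ι → Alg E V) :
    G.proj γ (∑ a ∈ s, f a) = ∑ a ∈ s, G.proj γ (f a) :=
  map_sum (AddMonoidHom.mk' (G.proj γ) (proj_add G γ)) f s

theorem proj_of_mem (G : Gr ι V Γ) {γ : Γ} {v : ι → Alg E V} (h : v ∈ G.piece E γ) :
    G.proj γ v = v := co_ext fun p => by
  classical
  rw [co_proj]
  split_ifs with h1
  · rfl
  · exact (not_not.1 fun h2 => h1 (h p h2)).symm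

theorem proj_of_ne (G : Gr ι V Γ) {γ γ' : Γ} {v : ι → Alg E V} (h : v ∈ G.piece E γ')
    (hne : γ' ≠ γ) : G.proj γ v = 0 := co_ext fun p => by
  classical
  rw [co_proj, co_zero]
  split_ifs with h1
  · exact not_not.1 fun h2 => hne ((h p h2).symm.trans h1)
  · rfl

theorem finite_co [Finite ι] (v : ι → Alg E V) : {p | co v p ≠ 0}.Finite :=
  (Set.finite_iUnion fun i => ((v i).coeff.support.finite_toSet.image (Prod.mk i))).subset
    fun p hp => Set.mem_iUnion.2 ⟨p.1, p.2, Finsupp.mem_support_iff.2 hp, rfl⟩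

theorem exists_sum_proj [Finite ι] (G : Gr ι V Γ) (γ : Γ) (v : ι → Alg E V) :
    ∃ s : Finset Γ, γ ∈ s ∧ ∑ γ' ∈ s, G.proj γ' v = v := by
  classical
  refine ⟨insert γ ((finite_co v).toFinset.image G.deg), mem_insert_self _ _, co_ext fun p => ?_⟩
  simp only [co_sum, co_proj, sum_ite_eq]
  split_ifs with h
  · rfl
  · by_contra h1
    exact h (mem_insert_of_mem (mem_image_of_mem _ ((finite_co v).mem_toFinset.2 (Ne.symm h1))))

theorem proj_map [Finite ι] {G : Gr ι V Γ} {G' : Gr ι' V Γ} (c : (ι → Alg E V) →+ (ι' → Alg E V))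
    {δ : Γ} (hc : ∀ γ, ∀ v ∈ G.piece E γ, c v ∈ G'.piece E (γ + δ)) (γ : Γ) (v : ι → Alg E V) :
    G'.proj (γ + δ) (c v) = c (G.proj γ v) := by
  obtain ⟨s, h1, h2⟩ := exists_sum_proj G γ v
  conv_lhs => rw [← h2, map_sum, proj_sum]
  rw [sum_eq_single_of_mem γ h1 fun γ' _ h => proj_of_ne G' (hc _ _ (proj_mem_piece G γ' v))
    fun h' => h (add_right_cancel h')]
  exact proj_of_mem G' (hc _ _ (proj_mem_piece G γ v))

theorem finite_piece [Finite ι] (G : Gr ι V Γ) (γ : Γ) : Module.Finite E (G.piece E γ) := by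
  have : Finite {p : ι × Mon V | G.w p.1 + Finsupp.weight G.wt p.2 = γ} := G.fin γ
  refine Module.Finite.of_injective
    (⟨⟨fun v p => co v.1 p.1, fun _ _ => rfl⟩, fun _ _ => rfl⟩ : G.piece E γ →ₗ[E]
      {p : ι × Mon V | G.w p.1 + Finsupp.weight G.wt p.2 = γ} → E) fun v v' h => ?_
  refine Subtype.ext (co_ext fun p => ?_)
  by_cases h1 : G.deg p = γ
  · exact congrFun h ⟨p, h1⟩
  · exact (not_not.1 fun h2 => h1 (v.2 p h2)).trans (not_not.1 fun h2 => h1 (v'.2 p h2)).symm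

theorem Hom.proj [Finite ι] {G : Gr ι V Γ} {G' : Gr ι' V Γ}
    {c : (ι → Alg E V) →ₗ[Alg E V] (ι' → Alg E V)} {δ : Γ} (hc : Hom G G' c δ) (γ : Γ)
    (v : ι → Alg E V) : G'.proj (γ + δ) (c v) = c (G.proj γ v) :=
  proj_map c.toAddMonoidHom hc γ v

theorem graded_top (G : Gr ι V Γ) : G.Graded (⊤ : Submodule (Alg E V) (ι → Alg E V)) :=
  fun _ _ _ => Submodule.mem_top

theorem graded_bot (G : Gr ι V Γ) : G.Graded (⊥ : Submodule (Alg E V) (ι → Alg E V)) :=
  fun v hv γ => by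
    rw [Submodule.mem_bot] at hv ⊢
    rw [hv, proj_zero]

theorem Gr.Graded.sup {G : Gr ι V Γ} {U U' : Submodule (Alg E V) (ι → Alg E V)}
    (h : G.Graded U) (h' : G.Graded U') : G.Graded (U ⊔ U') := fun v hv γ => by
  obtain ⟨a, ha, b, hb, rfl⟩ := Submodule.mem_sup.1 hv
  rw [proj_add]
  exact Submodule.add_mem_sup (h a ha γ) (h' b hb γ)

theorem Gr.Graded.inf {G : Gr ι V Γ} {U U' : Submodule (Alg E V) (ι → Alg E V)}
    (h : G.Graded U) (h' : G.Graded U') : G.Graded (U ⊓ U') :=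
  fun v hv γ => ⟨h v hv.1 γ, h' v hv.2 γ⟩

theorem Gr.Graded.map [Finite ι] {G : Gr ι V Γ} {G' : Gr ι' V Γ}
    {c : (ι → Alg E V) →ₗ[Alg E V] (ι' → Alg E V)} {δ : Γ} (hc : Hom G G' c δ)
    {U : Submodule (Alg E V) (ι → Alg E V)} (h : G.Graded U) : G'.Graded (U.map c) := by
  rintro _ ⟨v, hv, rfl⟩ γ
  rw [← sub_add_cancel γ δ, hc.proj]
  exact Submodule.mem_map_of_mem (h v hv _)

theorem Gr.Graded.comap [Finite ι] {G : Gr ι V Γ} {G' : Gr ι' V Γ}
    {c : (ι → Alg E V) →ₗ[Alg E V] (ι' → Alg E V)} {δ : Γ} (hc : Hom G G' c δ)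
    {U : Submodule (Alg E V) (ι' → Alg E V)} (h : G'.Graded U) : G.Graded (U.comap c) :=
  fun v hv γ => by
    rw [Submodule.mem_comap, ← hc.proj]
    exact h _ hv _

theorem exists_of_coeff_mul {f g : Alg E V} {m : Mon V} (h : (f * g).coeff m ≠ 0) :
    ∃ a b, f.coeff a ≠ 0 ∧ g.coeff b ≠ 0 ∧ a + b = m := by
  classical
  obtain ⟨a, ha, b, hb, h1⟩ := Finset.mem_add.1
    (AddMonoidAlgebra.support_coeff_mul_subset f g (Finsupp.mem_support_iff.2 h))
  exact ⟨a, b, Finsupp.mem_support_iff.1 ha, Finsupp.mem_support_iff.1 hb, h1⟩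

theorem hom_vecMul [Fintype ι] (G : Gr ι V Γ) (G' : Gr ι' V Γ) (hwt : G'.wt = G.wt)
    (c : Matrix ι ι' (Alg E V)) (δ : Γ)
    (hc : ∀ i i', HomA G.wt (c i i') (δ + G.w i - G'.w i')) :
    Hom G G' (Matrix.vecMulLinear c) δ := fun γ v hv p hp => by
  have h1 : co (Matrix.vecMulLinear c v) p = ∑ i, (v i * c i p.1).coeff p.2 := by
    simp only [co, Matrix.vecMulLinear_apply, Matrix.vecMul, dotProduct,
      AddMonoidAlgebra.coeff_sum, Finsupp.finsetSum_apply]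
  rw [h1] at hp
  obtain ⟨i, -, hi⟩ := exists_ne_zero_of_sum_ne_zero hp
  obtain ⟨a, b, ha, hb, h2⟩ := exists_of_coeff_mul hi
  rw [← hv (i, a) ha, Gr.deg, Gr.deg, ← h2, map_add, hwt, hc i p.1 b hb]
  abel

theorem smul_mem_piece (G : Gr ι V Γ) {g : Alg E V} {δ γ : Γ} (hg : HomA G.wt g δ)
    {v : ι → Alg E V} (hv : v ∈ G.piece E γ) : g • v ∈ G.piece E (γ + δ) := fun p hp => by
  obtain ⟨a, b, ha, hb, h2⟩ := exists_of_coeff_mul (f := g) (g := v p.1) hp
  rw [← hv (p.1, b) hb, Gr.deg, Gr.deg, ← h2, map_add, hg a ha]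
  abel

theorem proj_smul [Finite ι] (G : Gr ι V Γ) {g : Alg E V} {δ : Γ} (hg : HomA G.wt g δ) (γ : Γ)
    (v : ι → Alg E V) : G.proj (γ + δ) (g • v) = g • G.proj γ v :=
  proj_map (AddMonoidHom.mk' (fun v => g • v) (smul_add g))
    (fun _ _ hv => smul_mem_piece G hg hv) γ v

theorem fin_of_pos [Finite ι] [Finite V] (w : ι → Γ) (wt : V → Γ) (om : Γ →+ ℤ)
    (h : ∀ v, 0 < om (wt v)) (γ : Γ) :
    {p : ι × Mon V | w p.1 + Finsupp.weight wt p.2 = γ}.Finite := by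
  have h1 : ∀ m : Mon V, om (Finsupp.weight wt m) =
      (Finsupp.weight (fun v => (om (wt v)).toNat) m : ℕ) := fun m => by
    simp only [Finsupp.weight_apply, Finsupp.sum, map_sum, map_nsmul, smul_eq_mul, Nat.cast_sum,
      Nat.cast_mul, Int.toNat_of_nonneg (h _).le, nsmul_eq_mul]
  refine (Set.finite_iUnion fun i => (Finsupp.finite_of_nat_weight_le
    (fun v => (om (wt v)).toNat) (fun v => by have := h v; omega)
      (om (γ - w i)).toNat).image (Prod.mk i)).subset fun p hp => ?_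
  refine Set.mem_iUnion.2 ⟨p.1, p.2, ?_, rfl⟩
  rw [Set.mem_ofPred_eq] at hp ⊢
  rw [← hp, add_sub_cancel_left, h1, Int.toNat_natCast]

end Vale.Agent.P200.Eq
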