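import Vale.Agent.P200.Eq.Basic

open Module Finset

namespace Vale.Agent.P200.Eq

/-- target of monomial orders -/
abbrev Bo := ℕ ×ₗ Lex (ℕ →₀ ℕ)

variable {E ι V : Type*} [DivisionRing E]

/-- `p` is the leading basis monomial of `u`, for the order given by `D` and `o` -/
def Top (o : ι → ℕ) (D : Mon V →+ Bo) (u : ι → Alg E V) (p : ι × Mon V) : Prop :=
  co u p ≠ 0 ∧ ∀ p', co u p' ≠ 0 → D p'.2 < D p.2 ∨ (p'.2 = p.2 ∧ o p'.1 ≤ o p.1)

/-- the set of leading monomials of a submodule -/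
def Lead (o : ι → ℕ) (D : Mon V →+ Bo) (U : Submodule (Alg E V) (ι → Alg E V)) :
    Set (ι × Mon V) :=
  {p | ∃ u ∈ U, Top o D u p}

end Vale.Agent.P200.Eq
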