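import Vale.Agent.P200.Eq.LDefs
import Vale.Agent.P200.Groebner

open Module Finset MvPolynomial

namespace Vale.Agent.P200.Eq

universe u v

variable {E ι ι' V Γ : Type*} [DivisionRing E] [AddCommGroup Γ]

theorem exists_key [Finite V] (ω : V → ℕ) : ∃ D : Mon V →+ Bo, Function.Injective D ∧
    ∀ m m', Finsupp.weight ω m < Finsupp.weight ω m' → D m < D m' := by
  obtain ⟨emb, hemb⟩ := exists_injective_nat V
  refine ⟨{ toFun := fun m => toLex (Finsupp.weight ω m, toLex (m.mapDomain emb))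
            map_zero' := by simp
            map_add' := fun a b => by
              rw [map_add, Finsupp.mapDomain_add]; rfl }, fun a b h => ?_, fun m m' h => ?_⟩
  · have h1 : toLex (a.mapDomain emb) = toLex (b.mapDomain emb) :=
      congrArg (fun x : Bo => (ofLex x).2) h
    exact Finsupp.mapDomain_injective hemb (toLex.injective h1)
  · exact Prod.Lex.toLex_lt_toLex.2 (Or.inl h)

theorem Top.smul {o : ι → ℕ} {D : Mon V →+ Bo} (hD : Function.Injective D)
    {u : ι → Alg E V} {p : ι × Mon V} (h : Top o D u p) {g : Alg E V} (hg : g ≠ 0) :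
    ∃ m, g.coeff m ≠ 0 ∧ Top o D (g • u) (p.1, p.2 + m) := by
  classical
  have hne : g.coeff.support.Nonempty := by
    rw [Finsupp.support_nonempty_iff]
    exact fun h0 => hg (AddMonoidAlgebra.coeff_eq_zero.1 h0)
  obtain ⟨m, hm, hmax⟩ := exists_max_image g.coeff.support D hne
  have key : ∀ a ∈ g.coeff.support, ∀ i, ∀ b ∈ (u i).coeff.support,
      D (a + b) < D (p.2 + m) ∨ (a = m ∧ b = p.2 ∧ o i ≤ o p.1) := by
    intro a ha i b hb
    have h1 := hmax a ha
    rw [map_add, map_add, add_comm (D p.2)]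
    rcases h.2 (i, b) (Finsupp.mem_support_iff.1 hb) with h2 | ⟨h2, h3⟩
    · exact Or.inl (add_lt_add_of_le_of_lt h1 h2)
    · rcases h1.lt_or_eq with h4 | h4
      · refine Or.inl (add_lt_add_of_lt_of_le h4 (le_of_eq ?_))
        exact congrArg D h2
      · exact Or.inr ⟨hD h4, h2, h3⟩
  refine ⟨m, Finsupp.mem_support_iff.1 hm, ?_, ?_⟩
  · change (g * u p.1).coeff (p.2 + m) ≠ 0
    rw [add_comm p.2 m, AddMonoidAlgebra.coeff_mul_add_of_uniqueAdd]
    · exact mul_ne_zero (Finsupp.mem_support_iff.1 hm) h.1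
    · intro a b ha hb hab
      rcases key a ha p.1 b hb with h1 | h1
      · rw [hab, add_comm] at h1
        exact absurd h1 (lt_irrefl _)
      · exact ⟨h1.1, h1.2.1⟩
  · rintro ⟨i, c⟩ hc
    have hc' : c ∈ (g * u i).coeff.support := Finsupp.mem_support_iff.2 hc
    obtain ⟨a, ha, b, hb, rfl⟩ :=
      Finset.mem_add.1 (AddMonoidAlgebra.support_coeff_mul_subset _ _ hc')
    rcases key a ha i b hb with h1 | ⟨rfl, rfl, h1⟩
    · exact Or.inl h1
    · exact Or.inr ⟨add_comm _ _, h1⟩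

theorem upper_lead (o : ι → ℕ) {D : Mon V →+ Bo} (hD : Function.Injective D)
    (U : Submodule (Alg E V) (ι → Alg E V)) : Upper (Lead o D U) := by
  classical
  rintro p ⟨u, hu, hp⟩ m
  have hg : (AddMonoidAlgebra.single m (1 : E) : Alg E V) ≠ 0 := by
    rw [Ne, AddMonoidAlgebra.single_eq_zero]; exact one_ne_zero
  obtain ⟨m', h1, h2⟩ := hp.smul hD hg
  have : m = m' := by
    by_contra hne
    rw [AddMonoidAlgebra.coeff_single, Finsupp.single_apply, if_neg hne] at h1
    exact h1 rfl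
  subst this
  exact ⟨_, U.smul_mem _ hu, h2⟩

theorem Lead.co_proj (G : Gr ι V Γ) (γ : Γ) (v : ι → Alg E V) (p : ι × Mon V)
    [Decidable (G.deg p = γ)] : co (G.proj γ v) p = if G.deg p = γ then co v p else 0 := by
  unfold co Gr.proj
  rw [AddMonoidAlgebra.coeff_ofCoeff, Finsupp.filter_apply]
  by_cases h : G.deg p = γ
  · rw [if_pos h, if_pos h]
  · rw [if_neg h, if_neg h]

theorem Lead.fin_co [Finite ι] (v : ι → Alg E V) : (Function.support (co v)).Finite := by
  refine (Set.finite_iUnion fun i : ι =>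
    ((v i).coeff.support.finite_toSet.image (Prod.mk i))).subset ?_
  rintro ⟨i, m⟩ h
  exact Set.mem_iUnion.2 ⟨i, m, Finsupp.mem_support_iff.2 h, rfl⟩

/-- coordinates in the monomial basis -/
noncomputable def Lead.coL [Finite ι] : (ι → Alg E V) →ₗ[E] ((ι × Mon V) →₀ E) where
  toFun v := Finsupp.ofSupportFinite (co v) (Lead.fin_co v)
  map_add' _ _ := Finsupp.ext fun _ => rfl
  map_smul' _ _ := Finsupp.ext fun _ => rfl

theorem Lead.coL_apply [Finite ι] (v : ι → Alg E V) (p : ι × Mon V) : Lead.coL v p = co v p := rfl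

theorem Lead.coL_inj [Finite ι] :
    Function.Injective (Lead.coL : (ι → Alg E V) →ₗ[E] ((ι × Mon V) →₀ E)) := by
  intro a b h
  funext i
  refine AddMonoidAlgebra.ext (Finsupp.ext fun m => ?_)
  exact DFunLike.congr_fun h (i, m)

theorem hf_eq_cnt [Finite ι] (G : Gr ι V Γ) {o : ι → ℕ} (ho : Function.Injective o)
    {D : Mon V →+ Bo} (hD : Function.Injective D) {U : Submodule (Alg E V) (ι → Alg E V)}
    (hU : G.Graded U) : G.hf U = G.cnt (Lead o D U) := by
  classical
  funext γ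
  unfold Gr.hf Gr.cnt
  let key : ι × Mon V → Bo ×ₗ ℕ := fun p => toLex (D p.2, o p.1)
  have hkey : Function.Injective key := by
    intro a b h
    have h1 := toLex.injective h
    exact Prod.ext (ho (congrArg Prod.snd h1)) (hD (congrArg Prod.fst h1))
  have hlt : ∀ a b, key b ≤ key a ↔ D b.2 < D a.2 ∨ (b.2 = a.2 ∧ o b.1 ≤ o a.1) := by
    intro a b
    rw [Prod.Lex.toLex_le_toLex, hD.eq_iff]
  set W := U.restrictScalars E ⊓ G.piece E γ with hW
  have hT : ∀ u ∈ W.map Lead.coL, u.support ⊆ (G.fin γ).toFinset := by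
    rintro _ ⟨v, hv, rfl⟩ p hp
    rw [Set.Finite.mem_toFinset]
    exact hv.2 p ((Finsupp.mem_support_iff (f := Lead.coL v)).1 hp)
  have h1 := @finrank_eq_ncard_lead E _ _ (LinearOrder.lift' key hkey) _ _ hT
  rw [(Submodule.equivMapOfInjective _ Lead.coL_inj W).finrank_eq, h1]
  congr 2
  ext a
  constructor
  · rintro ⟨_, ⟨v, hv, rfl⟩, ha, hb⟩
    refine ⟨⟨v, hv.1, ha, fun b hb' => (hlt a b).1 ?_⟩, hv.2 a ha⟩
    by_contra hc
    exact hb' (hb b ((not_le (a := key b) (b := key a)).1 hc))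
  · rintro ⟨⟨v, hv, ha, hb⟩, hγ⟩
    refine ⟨_, ⟨G.proj γ v, ⟨hU v hv γ, fun p hp => ?_⟩, rfl⟩, ?_, fun b hab => ?_⟩
    · by_contra hc
      rw [Lead.co_proj, if_neg hc] at hp
      exact hp rfl
    · rw [Lead.coL_apply, Lead.co_proj, if_pos hγ]; exact ha
    · rw [Lead.coL_apply, Lead.co_proj]
      split_ifs
      · by_contra hc
        exact absurd ((hlt a b).2 (hb b hc)) ((not_le (a := key b) (b := key a)).2 hab)
      · rfl

end Vale.Agent.P200.Eq
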