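import Vale.Agent.P200.Eq.SDefs
import Vale.Agent.P200.Eq.LDefs
import Vale.Agent.P200.Groebner

open Module Finset MvPolynomial

namespace Vale.Agent.P200.Eq

universe u v

variable {E ι ι' V Γ : Type*} [DivisionRing E] [AddCommGroup Γ]

/-! ### Lead.lean (import Eq.LDefs, P200.Groebner) -/

theorem exists_key [Finite V] (ω : V → ℕ) : ∃ D : Mon V →+ Bo, Function.Injective D ∧
    ∀ m m', Finsupp.weight ω m < Finsupp.weight ω m' → D m < D m' := sorry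

theorem Top.smul {o : ι → ℕ} {D : Mon V →+ Bo} (hD : Function.Injective D)
    {u : ι → Alg E V} {p : ι × Mon V} (h : Top o D u p) {g : Alg E V} (hg : g ≠ 0) :
    ∃ m, g.coeff m ≠ 0 ∧ Top o D (g • u) (p.1, p.2 + m) := sorry

theorem upper_lead (o : ι → ℕ) {D : Mon V →+ Bo} (hD : Function.Injective D)
    (U : Submodule (Alg E V) (ι → Alg E V)) : Upper (Lead o D U) := sorry

theorem hf_eq_cnt [Finite ι] (G : Gr ι V Γ) {o : ι → ℕ} (ho : Function.Injective o)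
    {D : Mon V →+ Bo} (hD : Function.Injective D) {U : Submodule (Alg E V) (ι → Alg E V)}
    (hU : G.Graded U) : G.hf U = G.cnt (Lead o D U) := sorry

/-! ### Graded.lean (import Eq.Basic) -/

theorem co_proj (G : Gr ι V Γ) (γ : Γ) (v : ι → Alg E V) (p : ι × Mon V)
    [Decidable (G.deg p = γ)] : co (G.proj γ v) p = if G.deg p = γ then co v p else 0 := sorry

theorem proj_mem_piece (G : Gr ι V Γ) (γ : Γ) (v : ι → Alg E V) :
    G.proj γ v ∈ G.piece E γ := sorry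

theorem finite_piece [Finite ι] (G : Gr ι V Γ) (γ : Γ) : Module.Finite E (G.piece E γ) := sorry

theorem Hom.proj [Finite ι] {G : Gr ι V Γ} {G' : Gr ι' V Γ}
    {c : (ι → Alg E V) →ₗ[Alg E V] (ι' → Alg E V)} {δ : Γ} (hc : Hom G G' c δ) (γ : Γ)
    (v : ι → Alg E V) : G'.proj (γ + δ) (c v) = c (G.proj γ v) := sorry

theorem graded_top (G : Gr ι V Γ) : G.Graded (⊤ : Submodule (Alg E V) (ι → Alg E V)) := sorry

theorem graded_bot (G : Gr ι V Γ) : G.Graded (⊥ : Submodule (Alg E V) (ι → Alg E V)) := sorry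

theorem Gr.Graded.sup {G : Gr ι V Γ} {U U' : Submodule (Alg E V) (ι → Alg E V)}
    (h : G.Graded U) (h' : G.Graded U') : G.Graded (U ⊔ U') := sorry

theorem Gr.Graded.inf {G : Gr ι V Γ} {U U' : Submodule (Alg E V) (ι → Alg E V)}
    (h : G.Graded U) (h' : G.Graded U') : G.Graded (U ⊓ U') := sorry

theorem Gr.Graded.map [Finite ι] {G : Gr ι V Γ} {G' : Gr ι' V Γ}
    {c : (ι → Alg E V) →ₗ[Alg E V] (ι' → Alg E V)} {δ : Γ} (hc : Hom G G' c δ)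
    {U : Submodule (Alg E V) (ι → Alg E V)} (h : G.Graded U) : G'.Graded (U.map c) := sorry

theorem Gr.Graded.comap [Finite ι] {G : Gr ι V Γ} {G' : Gr ι' V Γ}
    {c : (ι → Alg E V) →ₗ[Alg E V] (ι' → Alg E V)} {δ : Γ} (hc : Hom G G' c δ)
    {U : Submodule (Alg E V) (ι' → Alg E V)} (h : G'.Graded U) : G.Graded (U.comap c) := sorry

theorem hom_vecMul [Fintype ι] (G : Gr ι V Γ) (G' : Gr ι' V Γ) (hwt : G'.wt = G.wt)
    (c : Matrix ι ι' (Alg E V)) (δ : Γ)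
    (hc : ∀ i i', HomA G.wt (c i i') (δ + G.w i - G'.w i')) :
    Hom G G' (Matrix.vecMulLinear c) δ := sorry

theorem smul_mem_piece (G : Gr ι V Γ) {g : Alg E V} {δ γ : Γ} (hg : HomA G.wt g δ)
    {v : ι → Alg E V} (hv : v ∈ G.piece E γ) : g • v ∈ G.piece E (γ + δ) := sorry

theorem proj_smul [Finite ι] (G : Gr ι V Γ) {g : Alg E V} {δ : Γ} (hg : HomA G.wt g δ) (γ : Γ)
    (v : ι → Alg E V) : G.proj (γ + δ) (g • v) = g • G.proj γ v := sorry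

theorem fin_of_pos [Finite ι] [Finite V] (w : ι → Γ) (wt : V → Γ) (om : Γ →+ ℤ)
    (h : ∀ v, 0 < om (wt v)) (γ : Γ) :
    {p : ι × Mon V | w p.1 + Finsupp.weight wt p.2 = γ}.Finite := sorry

/-! ### KPoly.lean (import Eq.Graded) -/

theorem hf_shift [Finite ι] [Finite ι'] {G : Gr ι V Γ} {G' : Gr ι' V Γ}
    {c : (ι → Alg E V) →ₗ[Alg E V] (ι' → Alg E V)} {δ : Γ} (hc : Hom G G' c δ)
    {U1 : Submodule (Alg E V) (ι → Alg E V)} {U0 : Submodule (Alg E V) (ι' → Alg E V)}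
    (h1 : G.Graded U1) (h0 : G'.Graded U0) (γ : Γ) :
    G'.hf (U1.map c ⊔ U0) (γ + δ) - G'.hf U0 (γ + δ) =
      G.hf U1 γ - G.hf (U1 ⊓ U0.comap c) γ := sorry

variable [Fintype V]

theorem Gr.IsK.unique {G : Gr ι V Γ} {U1 U0 : Submodule (Alg E V) (ι → Alg E V)} {k k' : ZG Γ}
    (h : G.IsK U1 U0 k) (h' : G.IsK U1 U0 k') : k = k' := sorry

theorem Gr.IsK.add {G : Gr ι V Γ} {U2 U1 U0 : Submodule (Alg E V) (ι → Alg E V)} {k k' : ZG Γ}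
    (h : G.IsK U2 U1 k) (h' : G.IsK U1 U0 k') : G.IsK U2 U0 (k + k') := sorry

theorem Gr.IsK.shift [Finite ι] [Finite ι'] {G : Gr ι V Γ} {G' : Gr ι' V Γ} (hwt : G'.wt = G.wt)
    {c : (ι → Alg E V) →ₗ[Alg E V] (ι' → Alg E V)} {δ : Γ} (hc : Hom G G' c δ)
    {U1 : Submodule (Alg E V) (ι → Alg E V)} {U0 : Submodule (Alg E V) (ι' → Alg E V)}
    (h1 : G.Graded U1) (h0 : G'.Graded U0) {k : ZG Γ} (hk : G.IsK U1 (U1 ⊓ U0.comap c) k) :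
    G'.IsK (U1.map c ⊔ U0) U0 (q δ * k) := sorry

theorem Gr.IsK.invariant {G : Gr ι V Γ} (θ : Γ ≃+ Γ) (π : Equiv.Perm V)
    (hθ : ∀ v, θ (G.wt v) = G.wt (π v)) (S : (ι → Alg E V) ≃ₗ[E] (ι → Alg E V))
    (hS : ∀ γ v, v ∈ G.piece E γ ↔ S v ∈ G.piece E (θ γ))
    {U1 U0 : Submodule (Alg E V) (ι → Alg E V)} (h1 : ∀ v, v ∈ U1 ↔ S v ∈ U1)
    (h0 : ∀ v, v ∈ U0 ↔ S v ∈ U0) {k : ZG Γ} (hk : G.IsK U1 U0 k) (γ : Γ) :
    k.coeff (θ γ) = k.coeff γ := sorry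

/-! ### KCells.lean (import Eq.Lead, Eq.Cells, Eq.Series, Eq.KPoly) -/

theorem exists_cells [Fintype ι] (G : Gr ι V Γ) {U1 U0 : Submodule (Alg E V) (ι → Alg E V)}
    (h1 : G.Graded U1) (h0 : G.Graded U0) (h : U0 ≤ U1) :
    ∃ 𝒞 : Finset ((ι × Mon V) × Finset V), G.IsK U1 U0 (∑ c ∈ 𝒞, G.cellK c) ∧
      ∀ c ∈ 𝒞, ∃ u ∈ U1, ∀ g : Alg E V, g ≠ 0 →
        (∀ m, g.coeff m ≠ 0 → ∀ v, m v ≠ 0 → v ∈ c.2) → g • u ∉ U0 := sorry

theorem Gr.IsK.pos [Fintype ι] {G : Gr ι V Γ} {U1 U0 : Submodule (Alg E V) (ι → Alg E V)}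
    (h1 : G.Graded U1) (h0 : G.Graded U0) (h : U0 ≤ U1) {k : ZG Γ} (hk : G.IsK U1 U0 k)
    (dg : Γ →+ ℤ) (hdg : ∀ v, dg (G.wt v) = 1) : Pos (piS dg k) := sorry

theorem lead_bound [Fintype ι] [DecidableEq ι] (G : Gr ι V Γ) (dg : Γ →+ ℤ)
    (hdg : ∀ v, dg (G.wt v) = 1) {U : Submodule (Alg E V) (ι → Alg E V)} (hU : G.Graded U)
    {p a : ℕ} (t : Fin p → Alg E V) (ω : V → ℕ) (m : Fin p → Mon V)
    (hm : ∀ j, (t j).coeff (m j) ≠ 0)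
    (htop : ∀ j m', (t j).coeff m' ≠ 0 → m' = m j ∨ Finsupp.weight ω m' < Finsupp.weight ω (m j))
    (hdisj : ∀ i j, i ≠ j → Disjoint (m i).support (m j).support)
    (hdeg : ∀ j, (m j).degree = a) (ht : ∀ j i, Pi.single i (t j) ∈ U) {k : ZG Γ}
    (hk : G.IsK ⊤ U k) :
    Ord (piS dg k) p ∧ PowerSeries.coeff p (piS dg k) ≤ Fintype.card ι * a ^ p := sorry

/-! ### Big.lean (import Eq.Lead, Eq.Cells, Eq.KPoly) -/

theorem exists_big {K : Type*} [Field K] [Algebra K E] [Fintype ι] {W Λ : Type*} [Fintype W]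
    [Fintype Λ] [DecidableEq Λ] (G : Gr ι V Γ) (G' : Gr (ι × Λ) (V ⊕ W) Γ) (wΛ : Λ → Γ)
    (hw : ∀ i l, G'.w (i, l) = G.w i + wΛ l) (hwt : ∀ v, G'.wt (Sum.inl v) = G.wt v) :
    ∃ big : Submodule (Alg E V) (ι → Alg E V) →
        Submodule (Alg E (V ⊕ W)) (ι × Λ → Alg E (V ⊕ W)),
      Monotone big ∧ (∀ U, G.Graded U → G'.Graded (big U)) ∧
      (∀ U1 U0 k, G.Graded U1 → G.Graded U0 → G.IsK U1 U0 k →
        G'.IsK (big U1) (big U0) ((∑ l, q (wΛ l)) * k)) ∧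
      (∀ U1 U0 (p : MvPolynomial V K), (∀ u ∈ U1, inc K E V p • u ∈ U0) →
        ∀ v ∈ big U1, inc K E (V ⊕ W) (rename Sum.inl p) • v ∈ big U0) ∧
      ∀ U, ∀ v ∈ big U, ∀ l l' : Λ,
        (fun x : ι × Λ => if x.2 = l' then v (x.1, l) else 0) ∈ big U := sorry

/-! ### Core.lean (import Eq.Big, Eq.KCells, Eq.MF) -/

theorem core {K : Type*} [Field K] [Algebra K E] [Fintype ι] [IsDomain (ZG Γ)]
    (G : Gr ι V Γ) (om h : Γ →+ ℤ) (δ z : Γ) (hδ : h δ = 1) (hz : h z = 0)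
    (hw : ∀ i, h (G.w i) = 0) (hwt : ∀ v, h (G.wt v) = 0) (hom : ∀ v, 0 < om (G.wt v))
    (homχ : 0 < om (2 • δ - z)) {r : ℕ} (φ : Fin r → MvPolynomial V K) (Υ : Finset V)
    (b : V → MvPolynomial (V ⊕ Fin r) K)
    (hb : ∀ y ∈ Υ, IsWeightedHomogeneous (Sum.elim G.wt fun _ => 2 • δ - z) (b y)
      (2 • δ - G.wt y))
    (hsum : ∑ y ∈ Υ, X (Sum.inl y) * b y = ∑ j, X (Sum.inr j) * rename Sum.inl (φ j))
    (B c : ℕ) (hc : c + B + Υ.card ≤ Fintype.card V + r)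
    (htr : ∀ σ : Finset (V ⊕ Fin r), (∀ y ∈ Υ, Sum.inl y ∉ σ) → B < σ.card → ∀ j,
      ∃ (g : MvPolynomial (V ⊕ Fin r) K) (m : ℕ), g ≠ 0 ∧ g ∈ supported K (σ : Set (V ⊕ Fin r)) ∧
        X (Sum.inr j) ^ m * g ∈ Ideal.span (b '' (Υ : Set V)))
    {U1 U0 : Submodule (Alg E V) (ι → Alg E V)} (h1 : G.Graded U1) (h0 : G.Graded U0)
    (hle : U0 ≤ U1) (hφ : ∀ j, ∀ u ∈ U1, inc K E V (φ j) • u ∈ U0) {k : ZG Γ}
    (hk : G.IsK U1 U0 k) :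
    ∃ α k', k = α * (1 - q (-z)) ^ r + k' ∧ k' ∈ augI Γ ^ c := sorry

end Vale.Agent.P200.Eq
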