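import Vale.Agent.P200.Eq.BDefs
import Vale.Agent.P200.Eq.LDefs

open Module Finset MvPolynomial Matrix

namespace Vale.Agent.P200.Eq

universe u

/-! ### Rho.lean (import Eq.KCells) -/

section rho

variable {E ι V Γ : Type*} [DivisionRing E] [AddCommGroup Γ] [Fintype ι] [Fintype V]

theorem exists_rho (G : Gr ι V Γ) (dg : Γ →+ ℤ) (hdg : ∀ v, dg (G.wt v) = 1)
    {U0 : Submodule (Alg E V) (ι → Alg E V)} (h0 : G.Graded U0) {r : ℕ}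
    (hr : ∀ k, G.IsK ⊤ U0 k → Ord (piS dg k) r) :
    ∃ ρ : Submodule (Alg E V) (ι → Alg E V) → ℤ,
      (∀ U, G.Graded U → U0 ≤ U → ∃ k, G.IsK U U0 k ∧ ρ U = PowerSeries.coeff r (piS dg k)) ∧
      (∀ U, G.Graded U → U0 ≤ U → 0 ≤ ρ U) ∧
      (∀ U U', G.Graded U → G.Graded U' → U0 ≤ U → U ≤ U' → ρ U ≤ ρ U') ∧
      (∀ U U', G.Graded U → G.Graded U' → U0 ≤ U → U0 ≤ U' → ρ (U ⊔ U') ≤ ρ U + ρ U') ∧
      (∀ U c δ, G.Graded U → U0 ≤ U → Hom G G c δ → U0 ≤ U0.comap c →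
        ρ (U.map c ⊔ U0) + ρ (U ⊓ U0.comap c) = ρ U) ∧
      ∀ U k, G.Graded U → U0 ≤ U → G.IsK ⊤ U k → Ord (piS dg k) (r + 1) → ρ U = ρ ⊤ := sorry

theorem not_ord_top [Nonempty ι] (G : Gr ι V Γ) (dg : Γ →+ ℤ) (hdg : ∀ v, dg (G.wt v) = 1)
    {r : ℕ} (c : Fin r → (ι → Alg E V) →ₗ[Alg E V] (ι → Alg E V)) (z : Γ) (hz : 0 < dg z)
    (hc : ∀ j, Hom G G (c j) z) (hcomm : ∀ i j v, c i (c j v) = c j (c i v)) {k : ZG Γ}
    (hk : G.IsK ⊤ (univ.sup fun j => LinearMap.range (c j)) k) :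
    ¬ Ord (piS dg k) (r + 1) := sorry

end rho

variable {M a n : ℕ} [NeZero a] {K E : Type*} [Field K] [DivisionRing E] [Algebra K E]

/-! ### YPow.lean (import Eq.BDefs) -/

theorem chi_add {ζ : K} (hζ : ζ ^ a = 1) (x y : ZMod a) :
    chi ζ (x + y) = chi ζ x * chi ζ y := sorry

theorem chi_one {ζ : K} (hζ : ζ ^ a = 1) : chi ζ (1 : ZMod a) = ζ := sorry

theorem yB_pow {ζ : K} (hζ : ζ ^ a = 1)
    (hq : ∀ Y : Fin M → Matrix (Gp M a) (Gp M a) (MvPolynomial (Var M a n) K),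
      (∀ s t, s < t → Y s * Y t = ζ • (Y t * Y s)) → (∑ s, Y s) ^ a = ∑ s, Y s ^ a)
    (ξ : Fin n → K) :
    (∑ i, ξ i • yB M a ζ i) ^ a =
      Matrix.scalar _ (phi M a fun β => eval ξ (monomial β (1 : K))) := sorry

/-! ### CMem.lean (import Eq.YPow) -/

theorem yB_mem {ζ : K} (hζ : ζ ^ a = 1) (i : Fin n) :
    (inc K E (Var M a n)).mapMatrix (yB M a ζ i) ∈ cB E M a n ζ 1 := sorry

theorem scalar_phi_mem (ζ : K) (R : (Fin n →₀ ℕ) → E) :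
    Matrix.scalar (Gp M a) (phi M a R) ∈ cB E M a n ζ a := sorry

theorem scalar_single_mem (ζ : K) (ε : E) :
    Matrix.scalar (Gp M a) (AddMonoidAlgebra.single (0 : Mon (Var M a n)) ε) ∈
      cB E M a n ζ 0 := sorry

theorem cB_mul (ζ : K) {d e : ℕ} {x y : Matrix (Gp M a) (Gp M a) (Alg E (Var M a n))}
    (hx : x ∈ cB E M a n ζ d) (hy : y ∈ cB E M a n ζ e) : x * y ∈ cB E M a n ζ (d + e) := sorry

theorem cB_growth (ζ : K) : ∃ N m : ℕ, ∀ d, Module.Finite E (cB E M a n ζ d) ∧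
    finrank E (cB E M a n ζ d) ≤ N * (d + 1) ^ m := sorry

/-! ### Sig.lean (import Eq.YPow) -/

theorem thB_wtB (s : Fin M) (v : Var M a n) : thB s (wtB v) = wtB (piB s v) := sorry

theorem exists_sig {ζ : K} (hζ : ζ ^ a = 1) (G : Gr (Gp M a) (Var M a n) (Gam M a))
    (hw : G.w = wB) (hwt : G.wt = wtB) (s : Fin M) :
    ∃ S : (Gp M a → Alg E (Var M a n)) ≃ₗ[E] (Gp M a → Alg E (Var M a n)),
      (∀ γ v, v ∈ G.piece E γ ↔ S v ∈ G.piece E (thB s γ)) ∧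
      ∀ d, ∀ c ∈ cB E M a n ζ d, ∀ v, S (v ᵥ* c) = S v ᵥ* c := sorry

/-! ### PhiLead.lean (import Eq.BDefs, Eq.KCells) -/

theorem phi_bound (G : Gr (Gp M a) (Var M a n) (Gam M a)) (hwt : G.wt = wtB)
    {U : Submodule (Alg E (Var M a n)) (Gp M a → Alg E (Var M a n))} (hU : G.Graded U)
    {p : ℕ} (hp : p ≤ M) (R : Fin p → (Fin n →₀ ℕ) → E) (β : Fin p → (Fin n →₀ ℕ))
    (hβ : ∀ j, (β j).degree = a) (hR : ∀ j, R j (β j) ≠ 0)
    (htri : ∀ j j', j' < j → R j (β j') = 0)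
    (ht : ∀ (j : Fin p) (g : Gp M a), Pi.single g (phi M a (R j)) ∈ U) {k : ZG (Gam M a)} (hk : G.IsK ⊤ U k) :
    Ord (piS (dgB M a) k) p ∧ PowerSeries.coeff p (piS (dgB M a) k) ≤ (a : ℤ) ^ (M + p) := sorry

/-! ### BHom.lean (import Eq.BDefs) -/

theorem bB_hom {r : ℕ} (lam : Fin r → (Fin n →₀ ℕ) → K) (s : Fin M) (i : Fin n)
    (χw : Gam M a) :
    IsWeightedHomogeneous (Sum.elim wtB fun _ => χw) (bB lam ((s, 0, i) : Var M a n))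
      (χw + dB M a a - wtB ((s, 0, i) : Var M a n)) := sorry

theorem bB_sum {r : ℕ} (lam : Fin r → (Fin n →₀ ℕ) → K) :
    ∑ y ∈ univ.filter (fun y : Var M a n => y.2.1 = 0), X (Sum.inl y) * bB lam y =
      ∑ j, X (Sum.inr j) * rename Sum.inl (phi M a (lam j) : MvPolynomial (Var M a n) K) := sorry

/-! ### Div.lean -/

theorem div_block {K E : Type u} [Field K] [DivisionRing E] [Algebra K E] {r : ℕ} (hr : r < M)
    (lam : Fin r → (Fin n →₀ ℕ) → K)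
    (hlam : ∀ (F : Type u) [Field F] [Algebra K F] (c : Fin r → F), c ≠ 0 →
      ¬ Rk1 (fun β => ∑ j, c j * algebraMap K F (lam j β)) (a - 1))
    (G : Gr (Gp M a) (Var M a n) (Gam M a)) (hw : G.w = wB) (hwt : G.wt = wtB)
    {U1 U0 : Submodule (Alg E (Var M a n)) (Gp M a → Alg E (Var M a n))} (h1 : G.Graded U1)
    (h0 : G.Graded U0) (hle : U0 ≤ U1)
    (hφ : ∀ j, ∀ u ∈ U1, inc K E (Var M a n) (phi M a (lam j)) • u ∈ U0)
    (hS : ∀ s, ∃ S : (Gp M a → Alg E (Var M a n)) ≃ₗ[E] (Gp M a → Alg E (Var M a n)),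
      (∀ γ v, v ∈ G.piece E γ ↔ S v ∈ G.piece E (thB s γ)) ∧ (∀ v, v ∈ U1 ↔ S v ∈ U1) ∧
        ∀ v, v ∈ U0 ↔ S v ∈ U0)
    {k : ZG (Gam M a)} (hk : G.IsK U1 U0 k) :
    (a : ℤ) ^ (M + r) ∣ PowerSeries.coeff r (piS (dgB M a) k) := sorry

end Vale.Agent.P200.Eq
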