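import Vale.Agent.P200.Eq.BDefs

open Module Finset MvPolynomial Matrix

namespace Vale.Agent.P200.Eq

section shift

variable {G R : Type*} [AddCommGroup G] [DecidableEq G] [CommRing R]

/-- weighted shift matrices -/
def ypw (v : G) (c : G → R) : Matrix G G R := Matrix.of fun g g' => if g' = g + v then c g else 0

theorem ypw_mul [Fintype G] (v w : G) (c d : G → R) :
    ypw v c * ypw w d = ypw (v + w) fun g => c g * d (g + v) := by
  ext g g'
  simp only [ypw, Matrix.mul_apply, Matrix.of_apply, ite_mul, zero_mul, sum_ite_eq', mem_univ,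
    if_true]
  rw [mul_ite, mul_zero, add_assoc]

theorem ypw_zero [Fintype G] (x : R) : ypw (0 : G) (fun _ => x) = Matrix.scalar G x := by
  ext g g'
  simp only [ypw, Matrix.of_apply, add_zero, Matrix.scalar_apply, Matrix.diagonal_apply, eq_comm]

end shift

variable {M a n : ℕ} [NeZero a] {K E : Type*} [Field K] [DivisionRing E] [Algebra K E]

theorem chi_add {ζ : K} (hζ : ζ ^ a = 1) (x y : ZMod a) :
    chi ζ (x + y) = chi ζ x * chi ζ y := by
  rw [chi, chi, chi, ZMod.val_add, ← pow_add, ← pow_eq_pow_mod _ hζ]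

theorem chi_one {ζ : K} (hζ : ζ ^ a = 1) : chi ζ (1 : ZMod a) = ζ := by
  rw [chi, ZMod.val_one_eq_one_mod, ← pow_eq_pow_mod _ hζ, pow_one]

omit [NeZero a] in
theorem ypw_sum_out {s t : Fin M} (h : s ≤ t) (g : Gp M a) (x : ZMod a) :
    ∑ u ∈ Iio s, (g + Pi.single t x : Gp M a) u = ∑ u ∈ Iio s, g u :=
  sum_congr rfl fun u hu => by
    rw [Pi.add_apply, Pi.single_eq_of_ne ((mem_Iio.1 hu).trans_le h).ne, add_zero]

omit [NeZero a] in
theorem ypw_sum_in {s t : Fin M} (h : s < t) (g : Gp M a) (x : ZMod a) :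
    ∑ u ∈ Iio t, (g + Pi.single s x : Gp M a) u = ∑ u ∈ Iio t, g u + x := by
  simp only [Pi.add_apply, sum_add_distrib]
  rw [sum_pi_single', if_pos (mem_Iio.2 h)]

theorem ymat_eq (ζ : K) (s : Fin M) (L : ZMod a → MvPolynomial (Var M a n) K) :
    ymat ζ s L = ypw (Pi.single s 1) fun g => C (chi ζ (∑ t ∈ Iio s, g t)) * L (g s) := rfl

theorem ymat_comm {ζ : K} (hζ : ζ ^ a = 1) {s t : Fin M} (h : s < t)
    (L L' : ZMod a → MvPolynomial (Var M a n) K) :
    ymat ζ s L * ymat ζ t L' = ζ • (ymat ζ t L' * ymat ζ s L) := by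
  rw [ymat_eq, ymat_eq, ypw_mul, ypw_mul, add_comm (Pi.single t 1)]
  ext1 g g'
  simp only [ypw, Matrix.of_apply, Matrix.smul_apply]
  split_ifs
  · rw [ypw_sum_out h.le, ypw_sum_in h, chi_add hζ, chi_one hζ, Pi.add_apply, Pi.add_apply,
      Pi.single_eq_of_ne h.ne, Pi.single_eq_of_ne h.ne', add_zero, add_zero, smul_eq_C_mul, map_mul]
    ring
  · rw [smul_zero]

theorem ymat_pow (ζ : K) (s : Fin M) (L : ZMod a → MvPolynomial (Var M a n) K) (m : ℕ) :
    ymat ζ s L ^ m = ypw (Pi.single s (m : ZMod a)) fun g =>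
      C (chi ζ (∑ t ∈ Iio s, g t)) ^ m * ∏ u ∈ range m, L (g s + u) := by
  induction m with
  | zero =>
    simp only [pow_zero, Nat.cast_zero, Pi.single_zero, range_zero, prod_empty, mul_one]
    rw [ypw_zero, map_one]
  | succ m ih =>
    rw [pow_succ, ih, ymat_eq, ypw_mul, ← Pi.single_add, Nat.cast_succ]
    refine congrArg (ypw _) (funext fun g => ?_)
    rw [ypw_sum_out le_rfl, Pi.add_apply, Pi.single_eq_same, prod_range_succ]
    ring

theorem ymat_pow_self {ζ : K} (hζ : ζ ^ a = 1) (s : Fin M)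
    (L : ZMod a → MvPolynomial (Var M a n) K) :
    ymat ζ s L ^ a = Matrix.scalar _ (∏ k, L k) := by
  rw [ymat_pow, ZMod.natCast_self, Pi.single_zero, ← ypw_zero]
  refine congrArg (ypw _) (funext fun g => ?_)
  have h : ∏ u ∈ range a, L (g s + u) = ∏ k, L (g s + k) := by
    refine prod_bij (fun j _ => (j : ZMod a)) (fun _ _ => mem_univ _) ?_ ?_ (fun _ _ => rfl)
    · intro j hj k hk hjk
      have := congrArg ZMod.val hjk
      rwa [ZMod.val_cast_of_lt (mem_range.1 hj), ZMod.val_cast_of_lt (mem_range.1 hk)] at this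
    · intro x _
      exact ⟨x.val, mem_range.2 (ZMod.val_lt x), ZMod.natCast_zmod_val x⟩
  rw [← map_pow, chi, ← pow_mul, mul_comm _ a, pow_mul, hζ, one_pow, map_one, one_mul, h]
  exact Equiv.prod_comp (Equiv.addLeft (g s)) L

theorem yB_pow {ζ : K} (hζ : ζ ^ a = 1)
    (hq : ∀ Y : Fin M → Matrix (Gp M a) (Gp M a) (MvPolynomial (Var M a n) K),
      (∀ s t, s < t → Y s * Y t = ζ • (Y t * Y s)) → (∑ s, Y s) ^ a = ∑ s, Y s ^ a)
    (ξ : Fin n → K) :
    (∑ i, ξ i • yB M a ζ i) ^ a =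
      Matrix.scalar _ (phi M a fun β => eval ξ (monomial β (1 : K))) := by
  have h1 : ∑ i, ξ i • yB M a ζ i = ∑ s : Fin M, ymat ζ s fun k => ∑ i, ξ i • X (s, k, i) := by
    simp only [yB, smul_sum]
    rw [sum_comm]
    refine sum_congr rfl fun s _ => ?_
    ext1 g g'
    simp only [ymat, Matrix.sum_apply, Matrix.smul_apply, Matrix.of_apply]
    split_ifs
    · simp only [mul_sum, mul_smul_comm]
    · simp only [smul_zero, sum_const_zero]
  rw [h1, hq _ fun s t h => ymat_comm hζ h _ _, phi, map_sum]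
  refine sum_congr rfl fun s _ => ?_
  rw [ymat_pow_self hζ, prod_univ_sum, Fintype.piFinset_univ]
  congr 1
  refine sum_congr rfl fun f _ => ?_
  have h2 : eval ξ (monomial (bet f) (1 : K)) = ∏ k, ξ (f k) := by
    rw [bet, monomial_sum_one, map_prod]
    exact prod_congr rfl fun k _ => eval_X _
  rw [single_eq_monomial, h2, mon, monomial_sum_prod]
  refine prod_congr rfl fun k _ => ?_
  rw [X, smul_monomial, smul_eq_mul, mul_one]

end Vale.Agent.P200.Eq
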